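import Vale.Agent.Lib.P125.Spread

/-! # P125, module AVG: block averages; existence of an `Indisc` seminorm.

`A_R : δ_i ↦ (1/R) ∑_{k<R} δ_{iR+k}`.  For a spreading seminorm `N`,
`N (A_{RQ} a) ≤ N (A_R a)`  (because `A_{RQ} a` is the average over `r < Q` of the spread copies
`(i,k) ↦ i R Q + k Q + r` of `A_R a`).  Put `N' a = lim_j N (A_{j!} a) = inf_j N (A_{j!} a)`.
Then `N' (split_T a) = N' a` since `A_R (split_T a) = A_{RT} a` (up to the obvious identification)
and `j! ∣ j! T ∣ (j+T)!`.  `N' (δ_0 - δ_1) ≥ θ` by `JU`.  Spreading of `N'`: `A_R` of a spread copy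
of `a` is a spread copy of `A_R a`. -/

namespace Vale.Agent.P125

open Finset Filter Topology

/-- block average -/
noncomputable def blk (R : ℕ) : V →ₗ[ℝ] V :=
  Finsupp.linearCombination ℝ
    (fun i : ℕ => (R : ℝ)⁻¹ • ∑ k ∈ range R, (Finsupp.single (i * R + k) (1 : ℝ) : V))

theorem blk_single (R i : ℕ) (c : ℝ) :
    blk R (Finsupp.single i c) =
      c • ((R : ℝ)⁻¹ • ∑ k ∈ range R, (Finsupp.single (i * R + k) (1 : ℝ) : V)) := by
  unfold blk
  rw [Finsupp.linearCombination_single]

theorem sum_range_mul_range {M : Type*} [AddCommMonoid M] (R Q : ℕ) (f : ℕ → M) :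
    ∑ l ∈ range (R * Q), f l = ∑ k ∈ range R, ∑ r ∈ range Q, f (k * Q + r) := by
  induction R with
  | zero => simp
  | succ R ih => rw [Nat.succ_mul, sum_range_add, ih, sum_range_succ]

theorem blk_mul (R Q : ℕ) (_hQ : 0 < Q) (a : V) :
    blk (R * Q) a = (Q : ℝ)⁻¹ • ∑ r ∈ range Q, Finsupp.mapDomain (fun s => s * Q + r) (blk R a) := by
  have h : blk (R * Q) = (Q : ℝ)⁻¹ • ∑ r ∈ range Q,
      (Finsupp.lmapDomain ℝ ℝ (fun s => s * Q + r)) ∘ₗ blk R := by
    refine Finsupp.lhom_ext fun i c => ?_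
    simp only [LinearMap.smul_apply, LinearMap.sum_apply, LinearMap.comp_apply, blk_single,
      map_smul, map_sum, Finsupp.lmapDomain_apply, Finsupp.mapDomain_single]
    rw [sum_range_mul_range]
    rw [← smul_sum, ← smul_sum, sum_comm, smul_comm (Q : ℝ)⁻¹ c, smul_smul (Q : ℝ)⁻¹,
      Nat.cast_mul, mul_inv, mul_comm (R : ℝ)⁻¹]
    congr 2
    refine sum_congr rfl fun r _ => sum_congr rfl fun k _ => ?_
    congr 1
    ring
  have := congrArg (fun L : V →ₗ[ℝ] V => L a) h
  simpa only [LinearMap.smul_apply, LinearMap.sum_apply, LinearMap.comp_apply,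
    Finsupp.lmapDomain_apply] using this

theorem blk_blk (R T : ℕ) (a : V) : blk R (blk T a) = blk (T * R) a := by
  have h : blk R ∘ₗ blk T = blk (T * R) := by
    refine Finsupp.lhom_ext fun i c => ?_
    simp only [LinearMap.comp_apply, blk_single, map_smul, map_sum]
    rw [sum_range_mul_range]
    simp only [one_smul, ← smul_sum]
    rw [smul_smul (T : ℝ)⁻¹, Nat.cast_mul, mul_inv]
    congr 2
    refine sum_congr rfl fun r _ => sum_congr rfl fun k _ => ?_
    congr 1
    ring
  exact congrArg (fun L : V →ₗ[ℝ] V => L a) h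

theorem vec_eq_self (a : V) (m : ℕ) (hm : ∀ i ∈ a.support, i < m) :
    vec (fun i : Fin m => (i : ℕ)) (fun i => a i) = a := by
  unfold vec
  rw [Fin.sum_univ_eq_sum_range (fun i => (Finsupp.single i (a i) : V)) m]
  conv_rhs => rw [← Finsupp.sum_single a]
  unfold Finsupp.sum
  refine (Finset.sum_subset (fun i hi => mem_range.2 (hm i hi)) fun i _ hi => ?_).symm
  rw [Finsupp.notMem_support_iff.1 hi, Finsupp.single_zero]

theorem mapDomain_vec {m : ℕ} (g : ℕ → ℕ) (κ : Fin m → ℕ) (a : Fin m → ℝ) :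
    Finsupp.mapDomain g (vec κ a) = vec (g ∘ κ) a := by
  unfold vec
  rw [Finsupp.mapDomain_finsetSum]
  simp only [Finsupp.mapDomain_single, Function.comp_apply]

theorem Spreading.mapDomain {N : V → ℝ} (hs : Spreading N) (g : ℕ → ℕ) (hg : StrictMono g)
    (a : V) : N (Finsupp.mapDomain g a) = N a := by
  obtain ⟨m, hm⟩ : ∃ m : ℕ, ∀ i ∈ a.support, i < m :=
    ⟨a.support.sup id + 1, fun i hi => Nat.lt_succ_of_le (Finset.le_sup (f := id) hi)⟩
  have h1 := vec_eq_self a m hm
  have h2 := hs m (g ∘ fun i : Fin m => (i : ℕ)) (fun i => a i)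
    (hg.comp Fin.val_strictMono)
  rw [← mapDomain_vec, h1] at h2
  exact h2

theorem exists_extend {m : ℕ} (κ : Fin m → ℕ) (hκ : StrictMono κ) :
    ∃ g : ℕ → ℕ, StrictMono g ∧ ∀ i : Fin m, g i = κ i := by
  refine ⟨fun i => if h : i < m then κ ⟨i, h⟩ else i + ∑ j, κ j, ?_, ?_⟩
  · intro i j hij
    by_cases hi : i < m
    · by_cases hj : j < m
      · simp only [hi, hj, dite_true]
        exact hκ (by simpa [Fin.lt_def] using hij)
      · simp only [hi, hj, dite_true, dite_false]
        have : κ ⟨i, hi⟩ ≤ ∑ j, κ j := single_le_sum (fun _ _ => Nat.zero_le _) (mem_univ _)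
        omega
    · have hj : ¬ j < m := by omega
      simp only [hi, hj, dite_false]
      omega
  · intro i
    simp

theorem spreading_of_mapDomain {N : V → ℝ}
    (h : ∀ (g : ℕ → ℕ), StrictMono g → ∀ a : V, N (Finsupp.mapDomain g a) = N a) :
    Spreading N := by
  intro m κ a hκ
  obtain ⟨g, hg, hgκ⟩ := exists_extend κ hκ
  have h1 := h g hg (vec (fun i : Fin m => (i : ℕ)) a)
  rw [mapDomain_vec] at h1
  have h2 : (g ∘ fun i : Fin m => (i : ℕ)) = κ := funext hgκ
  rw [h2] at h1
  exact h1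

theorem blk_mapDomain (R : ℕ) (hR : 0 < R) (g : ℕ → ℕ) (a : V) :
    blk R (Finsupp.mapDomain g a) =
      Finsupp.mapDomain (fun s => g (s / R) * R + s % R) (blk R a) := by
  have h : blk R ∘ₗ Finsupp.lmapDomain ℝ ℝ g =
      Finsupp.lmapDomain ℝ ℝ (fun s => g (s / R) * R + s % R) ∘ₗ blk R := by
    refine Finsupp.lhom_ext fun i c => ?_
    simp only [LinearMap.comp_apply, Finsupp.lmapDomain_apply, Finsupp.mapDomain_single,
      blk_single, Finsupp.mapDomain_smul, Finsupp.mapDomain_finsetSum]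
    congr 2
    refine sum_congr rfl fun k hk => ?_
    have hk' : k < R := mem_range.1 hk
    congr 1
    have e1 : (i * R + k) / R = i := by
      rw [Nat.add_comm (i * R) k, Nat.add_mul_div_right _ _ hR, Nat.div_eq_of_lt hk', zero_add]
    have e2 : (i * R + k) % R = k := by
      rw [Nat.add_comm (i * R) k, Nat.add_mul_mod_self_right, Nat.mod_eq_of_lt hk']
    rw [e1, e2]
  exact congrArg (fun L : V →ₗ[ℝ] V => L a) h

theorem strictMono_blk (R : ℕ) (hR : 0 < R) (g : ℕ → ℕ) (hg : StrictMono g) :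
    StrictMono (fun s => g (s / R) * R + s % R) := by
  intro s t hst
  have h1 := Nat.div_add_mod s R
  have h2 := Nat.div_add_mod t R
  have h3 := Nat.mod_lt s hR
  have h4 := Nat.mod_lt t hR
  simp only
  rcases (Nat.div_le_div_right (c := R) hst.le).lt_or_eq with h | h
  · have h5 := hg h
    have h6 : (g (s / R) + 1) * R ≤ g (t / R) * R := Nat.mul_le_mul_right R h5
    have h7 : (g (s / R) + 1) * R = g (s / R) * R + R := by ring
    omega
  · rw [h] at h1 ⊢
    omega

theorem exists_avg (p K θ : ℝ) (hp : 0 < p) (hθ : 0 < θ) (N : Seminorm ℝ V)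
    (hN : MT p K (fun v => N v)) (h1 : ∀ i, N (Finsupp.single i 1) ≤ 1)
    (hJ : ∀ n, JU (fun v => N v) n θ) (hs : Spreading (fun v => N v)) :
    ∃ N' : Seminorm ℝ V, Indisc p K N' := by
  have hinv : ∀ (g : ℕ → ℕ), StrictMono g → ∀ a : V, N (Finsupp.mapDomain g a) = N a :=
    fun g hg a => hs.mapDomain g hg a
  -- monotonicity along divisibility
  have hmul : ∀ (R Q : ℕ) (_ : 0 < Q) (a : V), N (blk (R * Q) a) ≤ N (blk R a) := by
    intro R Q hQ a
    rw [blk_mul R Q hQ, map_smul_eq_mul, Real.norm_of_nonneg (by positivity)]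
    have hQ' : (0 : ℝ) < Q := by exact_mod_cast hQ
    rw [inv_mul_le_iff₀ hQ']
    calc N (∑ r ∈ range Q, Finsupp.mapDomain (fun s => s * Q + r) (blk R a))
        ≤ ∑ r ∈ range Q, N (Finsupp.mapDomain (fun s => s * Q + r) (blk R a)) :=
          Finset.le_sum_of_subadditive N (map_zero N).le (map_add_le_add N) _ _
      _ = ∑ _r ∈ range Q, N (blk R a) := by
          refine sum_congr rfl fun r _ => hinv _ ?_ _
          intro s t hst
          have : s * Q < t * Q := Nat.mul_lt_mul_of_pos_right hst hQ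
          simp only
          omega
      _ = Q * N (blk R a) := by rw [sum_const, card_range, nsmul_eq_mul]
  have hdvd : ∀ (R S : ℕ) (_ : 0 < S) (_ : R ∣ S) (a : V), N (blk S a) ≤ N (blk R a) := by
    rintro R S hS ⟨Q, rfl⟩ a
    exact hmul R Q (Nat.pos_of_ne_zero (by rintro rfl; simp at hS)) a
  -- the limit
  have hanti : ∀ a : V, Antitone (fun j : ℕ => N (blk j.factorial a)) := by
    intro a i j hij
    exact hdvd _ _ (Nat.factorial_pos j) (Nat.factorial_dvd_factorial hij) a
  have hbdd : ∀ a : V, BddBelow (Set.range fun j : ℕ => N (blk j.factorial a)) := fun a =>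
    ⟨0, by rintro _ ⟨j, rfl⟩; exact apply_nonneg N _⟩
  set F : V → ℝ := fun a => ⨅ j : ℕ, N (blk j.factorial a) with hF
  have hlim : ∀ a : V, Tendsto (fun j : ℕ => N (blk j.factorial a)) atTop (𝓝 (F a)) := fun a =>
    tendsto_atTop_ciInf (hanti a) (hbdd a)
  have hFle : ∀ (a : V) (j : ℕ), F a ≤ N (blk j.factorial a) := fun a j => ciInf_le (hbdd a) j
  have hadd : ∀ a b : V, F (a + b) ≤ F a + F b := by
    intro a b
    refine le_of_tendsto_of_tendsto' (hlim (a + b)) ((hlim a).add (hlim b)) fun j => ?_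
    rw [map_add]
    exact map_add_le_add N _ _
  have hsmul : ∀ (c : ℝ) (a : V), F (c • a) = ‖c‖ * F a := by
    intro c a
    refine tendsto_nhds_unique (hlim (c • a)) ?_
    have := (hlim a).const_mul ‖c‖
    refine this.congr fun j => ?_
    rw [map_smul, map_smul_eq_mul]
  set N' : Seminorm ℝ V := Seminorm.of F hadd hsmul with hN'
  have hN'F : ∀ a, N' a = F a := fun a => rfl
  have hspr : Spreading (fun v => N' v) := by
    refine spreading_of_mapDomain fun g hg a => ?_
    simp only [hN'F, hF]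
    refine congrArg _ (funext fun j => ?_)
    rw [blk_mapDomain _ (Nat.factorial_pos j)]
    exact hinv _ (strictMono_blk _ (Nat.factorial_pos j) g hg) _
  have hblkinv : ∀ (T : ℕ) (_ : 0 < T) (a : V), F (blk T a) = F a := by
    intro T hT a
    refine le_antisymm ?_ ?_
    · refine ciInf_mono (f := fun j : ℕ => N (blk j.factorial (blk T a)))
        (g := fun j : ℕ => N (blk j.factorial a)) (hbdd (blk T a)) fun j => ?_
      rw [blk_blk]
      exact hdvd _ _ (Nat.mul_pos hT (Nat.factorial_pos j)) (Dvd.intro_left T rfl) a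
    · refine le_ciInf fun j => ?_
      rw [blk_blk]
      refine (hFle a (j + T)).trans ?_
      refine hdvd _ _ (Nat.factorial_pos _) ?_ a
      rw [mul_comm]
      exact (Nat.mul_dvd_mul_left _ (Nat.dvd_factorial hT le_rfl)).trans
        (Nat.factorial_mul_factorial_dvd_factorial_add j T)
  refine ⟨N', ?_, hspr, ?_, ?_, ?_⟩
  · refine MT.lim hp atTop (fun (j : ℕ) (a : V) => N (blk j.factorial a)) _
      (Eventually.of_forall fun j => ?_) (Eventually.of_forall fun j v => apply_nonneg N _) hlim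
    exact MT.comp hN (blk j.factorial).toAddMonoidHom
  · intro m T a hT
    have h2 : (∑ i : Fin m, ∑ k : Fin T, Finsupp.single ((i : ℕ) * T + k) (a i / T) : V) =
        blk T (vec (fun i => (i : ℕ)) a) := by
      unfold vec
      rw [map_sum]
      refine sum_congr rfl fun i _ => ?_
      rw [blk_single, Fin.sum_univ_eq_sum_range
        (fun k => (Finsupp.single ((i : ℕ) * T + k) (a i / T) : V)) T, smul_sum, smul_sum]
      refine sum_congr rfl fun k _ => ?_
      rw [Finsupp.smul_single, Finsupp.smul_single]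
      congr 1
      simp only [smul_eq_mul]
      field_simp
    simp only [hN'F]
    rw [h2]
    exact hblkinv T hT _
  · intro i
    rw [hN'F]
    refine (hFle _ 0).trans ?_
    rw [Nat.factorial_zero, blk_single]
    simp only [Nat.cast_one, inv_one, one_smul, range_one, sum_singleton]
    exact h1 _
  · rw [hN'F]
    refine lt_of_lt_of_le hθ (le_ciInf fun j => ?_)
    set R := j.factorial with hR
    have hR0 : 0 < R := Nat.factorial_pos j
    have hR1 : (0 : ℝ) < R := by exact_mod_cast hR0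
    have hj := hJ (2 * R) (range R) (Ico R (2 * R)) (by simp; omega)
      (nonempty_range_iff.2 hR0.ne')
      (fun x hx y hy => by have := mem_range.1 hx; have := mem_Ico.1 hy; omega)
      (fun y hy => by have := mem_Ico.1 hy; omega)
    rw [card_range] at hj
    have e : blk R (Finsupp.single 0 1 - Finsupp.single 1 1) = (R : ℝ)⁻¹ •
        (∑ i ∈ range R, Finsupp.single i (1 : ℝ) - ∑ i ∈ Ico R (2 * R), Finsupp.single i (1 : ℝ)) := by
      rw [map_sub, blk_single, blk_single, one_smul, one_smul, smul_sub,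
        sum_Ico_eq_sum_range]
      simp only [zero_mul, zero_add, one_mul]
      have : 2 * R - R = R := by omega
      rw [this]
    rw [e, map_smul_eq_mul, Real.norm_of_nonneg (by positivity), le_inv_mul_iff₀ hR1, mul_comm]
    exact hj

theorem exists_indisc (p K θ : ℝ) (hp : 0 < p) (hθ : 0 < θ)
    (h : ∀ n : ℕ, ∃ N : Seminorm ℝ V, MT p K (fun v => N v) ∧
      (∀ i, N (Finsupp.single i 1) ≤ 1) ∧ JU (fun v => N v) n θ) :
    ∃ N : Seminorm ℝ V, Indisc p K N := by
  obtain ⟨N, hN, h1, hJ⟩ := exists_lim p K θ hp h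
  obtain ⟨N', hN', h1', hJ', hs⟩ := exists_spread p K θ hp N hN h1 hJ
  exact exists_avg p K θ hp hθ N' hN' h1' hJ' hs

end Vale.Agent.P125
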