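import Vale.Agent.Lib.P125.Defs

/-! # P125, module COVER: the Markov type inequality for antisymmetric additive functionals.

Apply `MT` to the chain on `X × (Fin D → Fin n)` (a box; moves leaving the box are replaced by
staying put): from `(x, v)` choose `l` with `src l = x` with probability `q l / pi x`, move to
`(tgt l, v + F l)` if this is in the box.  Stationary reversible measure `pi x / n^D`;
`f (x, v) = E v`.  From the inner box (distance `≥ T * max |F|` to the boundary) the walk does not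
feel the boundary during `T` steps; the inner box has proportion `→ 1` as `n → ∞`. -/

namespace Vale.Agent.P125

open Finset Filter Topology

variable {X L : Type} [Fintype X] [Fintype L] [DecidableEq X] {D : ℕ}

namespace Cover

/-- coordinates of a box point -/
def cc {n : ℕ} (v : Fin D → Fin n) : Fin D → ℤ := fun i => ((v i : ℕ) : ℤ)

theorem cc_inj {n : ℕ} {v w : Fin D → Fin n} (h : cc v = cc w) : v = w := by
  funext i
  have := congrFun h i
  simp only [cc] at this
  exact Fin.ext (by exact_mod_cast this)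

/-- the point of the box with given coordinates -/
def mkb {n : ℕ} (u : Fin D → ℤ) (h : ∀ i, 0 ≤ u i ∧ u i < n) : Fin D → Fin n :=
  fun i => ⟨(u i).toNat, by have := h i; omega⟩

theorem cc_mkb {n : ℕ} (u : Fin D → ℤ) (h : ∀ i, 0 ≤ u i ∧ u i < n) : cc (mkb u h) = u := by
  funext i
  simp only [cc, mkb]
  have := (h i).1
  omega

theorem cc_bd {n : ℕ} (v : Fin D → Fin n) (i : Fin D) : 0 ≤ cc v i ∧ cc v i < n := by
  simp only [cc]
  have := (v i).2
  omega

open Classical in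
/-- one move -/
noncomputable def stp (A : LSys X L D) (n : ℕ) (s : X × (Fin D → Fin n)) (l : L) :
    X × (Fin D → Fin n) :=
  if h : ∀ i, 0 ≤ (cc s.2 + A.F l) i ∧ (cc s.2 + A.F l) i < n then
    (A.tgt l, mkb (cc s.2 + A.F l) h) else s

open Classical in
/-- transition matrix -/
noncomputable def PM (A : LSys X L D) (n : ℕ) :
    Matrix (X × (Fin D → Fin n)) (X × (Fin D → Fin n)) ℝ :=
  fun s s' => ∑ l with A.src l = s.1, A.q l / A.pi s.1 * if stp A n s l = s' then 1 else 0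

theorem pi_pos (A : LSys X L D) (x : X) : 0 < A.pi x := A.pi_pos x

theorem sum_mul_ite {S : Type} [Fintype S] [DecidableEq S] (s0 : S) (g : S → ℝ)
    (dec : ∀ s, Decidable (s0 = s)) : ∑ s, (@ite ℝ (s0 = s) (dec s) 1 0) * g s = g s0 := by
  rw [Finset.sum_eq_single s0]
  · simp
  · intro b _ hb
    simp [Ne.symm hb]
  · simp

theorem PM_sum (A : LSys X L D) (n : ℕ) (s : X × (Fin D → Fin n))
    (g : X × (Fin D → Fin n) → ℝ) :
    ∑ s', PM A n s s' * g s' = ∑ l with A.src l = s.1, A.q l / A.pi s.1 * g (stp A n s l) := by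
  unfold PM
  simp only [Finset.sum_mul]
  rw [Finset.sum_comm]
  refine Finset.sum_congr rfl fun l _ => ?_
  simp only [mul_assoc]
  rw [← Finset.mul_sum, sum_mul_ite]

theorem PM_nonneg (A : LSys X L D) (n : ℕ) (s s' : X × (Fin D → Fin n)) : 0 ≤ PM A n s s' := by
  unfold PM
  refine Finset.sum_nonneg fun l _ => ?_
  refine mul_nonneg (div_nonneg (A.q_nonneg l) (pi_pos A _).le) ?_
  split_ifs <;> norm_num

theorem PM_row (A : LSys X L D) (n : ℕ) (s : X × (Fin D → Fin n)) : ∑ s', PM A n s s' = 1 := by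
  have h := PM_sum A n s (fun _ => 1)
  simp only [mul_one] at h
  rw [h, ← Finset.sum_div]
  exact div_self (pi_pos A s.1).ne'

open Classical in
theorem stp_iff (A : LSys X L D) (n : ℕ) {s s' : X × (Fin D → Fin n)} (hne : s ≠ s') (l : L) :
    stp A n s l = s' ↔ A.tgt l = s'.1 ∧ cc s.2 + A.F l = cc s'.2 := by
  unfold stp
  split_ifs with h
  · constructor
    · intro h1
      rw [← h1]
      exact ⟨rfl, (cc_mkb _ h).symm⟩
    · rintro ⟨h1, h2⟩
      refine Prod.ext h1 (cc_inj ?_)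
      rw [cc_mkb]
      exact h2
  · constructor
    · intro h1
      exact absurd h1 hne
    · rintro ⟨_, h2⟩
      exfalso
      apply h
      intro i
      rw [h2]
      exact cc_bd _ i

open Classical in
theorem PM_rev (A : LSys X L D) (n : ℕ) (s s' : X × (Fin D → Fin n)) :
    A.pi s.1 / (n : ℝ) ^ D * PM A n s s' = A.pi s'.1 / (n : ℝ) ^ D * PM A n s' s := by
  by_cases hne : s = s'
  · rw [hne]
  have key : ∀ s s' : X × (Fin D → Fin n), s ≠ s' → A.pi s.1 / (n : ℝ) ^ D * PM A n s s' =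
      (1 / (n : ℝ) ^ D) * ∑ l, if A.src l = s.1 ∧ A.tgt l = s'.1 ∧ cc s.2 + A.F l = cc s'.2
        then A.q l else 0 := by
    intro s s' hne
    unfold PM
    rw [Finset.mul_sum, Finset.sum_filter, Finset.mul_sum]
    refine Finset.sum_congr rfl fun l _ => ?_
    have hp := (pi_pos A s.1).ne'
    by_cases h1 : A.src l = s.1
    · rw [if_pos h1]
      by_cases h2 : stp A n s l = s'
      · rw [if_pos h2, if_pos ⟨h1, (stp_iff A n hne l).mp h2⟩]
        field_simp
      · rw [if_neg h2, if_neg (fun h => h2 ((stp_iff A n hne l).mpr h.2))]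
        simp
    · rw [if_neg h1, if_neg (fun h => h1 h.1)]
      simp
  rw [key s s' hne, key s' s (Ne.symm hne)]
  congr 1
  have hinv : Function.Involutive A.rev := A.rev_rev
  rw [← Equiv.sum_comp hinv.toPerm]
  refine Finset.sum_congr rfl fun l _ => ?_
  show (if A.src (A.rev l) = s.1 ∧ A.tgt (A.rev l) = s'.1 ∧ cc s.2 + A.F (A.rev l) = cc s'.2
        then A.q (A.rev l) else 0) = _
  have htr : A.tgt (A.rev l) = A.src l := by
    rw [← A.src_rev (A.rev l), A.rev_rev]
  rw [A.src_rev, htr, A.q_rev, A.F_rev]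
  have hiff : (A.tgt l = s.1 ∧ A.src l = s'.1 ∧ cc s.2 + -A.F l = cc s'.2) ↔
      (A.src l = s'.1 ∧ A.tgt l = s.1 ∧ cc s'.2 + A.F l = cc s.2) := by
    constructor
    · rintro ⟨h1, h2, h3⟩
      refine ⟨h2, h1, ?_⟩
      rw [← h3]; abel
    · rintro ⟨h1, h2, h3⟩
      refine ⟨h2, h1, ?_⟩
      rw [← h3]; abel
  simp only [hiff]

theorem PMpow_succ (A : LSys X L D) (n T : ℕ) (s : X × (Fin D → Fin n))
    (g : X × (Fin D → Fin n) → ℝ) :
    ∑ s', (PM A n ^ (T + 1)) s s' * g s' =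
      ∑ l with A.src l = s.1, A.q l / A.pi s.1 *
        ∑ s', (PM A n ^ T) (stp A n s l) s' * g s' := by
  rw [← PM_sum A n s (fun s1 => ∑ s', (PM A n ^ T) s1 s' * g s')]
  rw [pow_succ']
  simp only [Matrix.mul_apply, Finset.sum_mul, Finset.mul_sum]
  rw [Finset.sum_comm]
  refine Finset.sum_congr rfl fun a _ => Finset.sum_congr rfl fun b _ => ?_
  ring

theorem PMpow_nonneg (A : LSys X L D) (n T : ℕ) (g : X × (Fin D → Fin n) → ℝ)
    (hg : ∀ s, 0 ≤ g s) (s : X × (Fin D → Fin n)) :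
    0 ≤ ∑ s', (PM A n ^ T) s s' * g s' := by
  induction T generalizing s with
  | zero =>
    simp only [pow_zero]
    refine Finset.sum_nonneg fun s' _ => mul_nonneg ?_ (hg s')
    rw [Matrix.one_apply]
    split_ifs <;> norm_num
  | succ T ih =>
    rw [PMpow_succ]
    refine Finset.sum_nonneg fun l _ => mul_nonneg (div_nonneg (A.q_nonneg l) (pi_pos A _).le)
      (ih _)

theorem PMpow_inner (A : LSys X L D) (n B : ℕ) (hB : ∀ l i, |A.F l i| ≤ B)
    (G : (Fin D → ℤ) → ℝ) (T : ℕ) (x : X) (v : Fin D → Fin n)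
    (hv : ∀ i, ((T * B : ℕ) : ℤ) ≤ cc v i ∧ cc v i + (T * B : ℕ) < n) :
    ∑ s', (PM A n ^ T) (x, v) s' * G (cc s'.2) =
      A.pexp T x (fun w => G (cc v + ∑ t, A.F (w t))) := by
  induction T generalizing x v with
  | zero =>
    simp only [pow_zero, Matrix.one_apply, LSys.pexp]
    rw [Finset.sum_eq_single (x, v)]
    · simp
    · intro b _ hb
      simp [Ne.symm hb]
    · simp
  | succ T ih =>
    rw [PMpow_succ]
    show _ = ∑ l with A.src l = x, A.q l / A.pi x *
      A.pexp T (A.tgt l) (fun w => G (cc v + ∑ t, A.F ((Fin.cons l w : Fin (T + 1) → L) t)))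
    refine Finset.sum_congr rfl fun l _ => ?_
    congr 1
    have hin : ∀ i, 0 ≤ (cc v + A.F l) i ∧ (cc v + A.F l) i < n := by
      intro i
      have h1 := hv i
      have h2 := abs_le.mp (hB l i)
      have h3 : ((T + 1) * B : ℕ) = T * B + B := by ring
      rw [h3] at h1
      push_cast at h1
      simp only [Pi.add_apply]
      have h4 : (0 : ℤ) ≤ (T : ℤ) * B := by positivity
      constructor <;> linarith [h1.1, h1.2, h2.1, h2.2]
    have hst : stp A n (x, v) l = (A.tgt l, mkb (cc v + A.F l) hin) := by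
      unfold stp
      rw [dif_pos hin]
    rw [hst, ih]
    · congr 1
      funext w
      rw [cc_mkb, Fin.sum_univ_succ]
      simp only [Fin.cons_zero, Fin.cons_succ]
      rw [add_assoc]
    · intro i
      rw [cc_mkb]
      have h1 := hv i
      have h2 := abs_le.mp (hB l i)
      have h3 : ((T + 1) * B : ℕ) = T * B + B := by ring
      rw [h3] at h1
      push_cast at h1 ⊢
      simp only [Pi.add_apply]
      constructor <;> linarith [h1.1, h1.2, h2.1, h2.2]

theorem cover_low {Y : Type*} [AddCommGroup Y] (A : LSys X L D) (p : ℝ) (N : Y → ℝ)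
    (hN0 : ∀ y, 0 ≤ N y) (E : (Fin D → ℤ) →+ Y) (T n m c : ℕ)
    (B : ℕ) (hB : ∀ l i, |A.F l i| ≤ B) (hc : T * B ≤ c) (hn : n = m + 2 * c) (hnpos : 0 < n) :
    ((m : ℝ) / (n : ℝ)) ^ D * A.Ex T (fun w => N (E (∑ t, A.F (w t))) ^ p) ≤
      ∑ s : X × (Fin D → Fin n), ∑ s', A.pi s.1 / (n : ℝ) ^ D * (PM A n ^ T) s s' *
      N (E (cc s'.2) - E (cc s.2)) ^ p := by
  classical
  have hnR : (0 : ℝ) < (n : ℝ) ^ D := by positivity
  have h1 : ∀ s : X × (Fin D → Fin n), ∑ s', A.pi s.1 / (n : ℝ) ^ D * (PM A n ^ T) s s' *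
    N (E (cc s'.2) - E (cc s.2)) ^ p = A.pi s.1 / (n : ℝ) ^ D *
      ∑ s', (PM A n ^ T) s s' * N (E (cc s'.2) - E (cc s.2)) ^ p := by
    intro s
    rw [Finset.mul_sum]
    refine Finset.sum_congr rfl fun _ _ => by ring
  simp only [h1]
  rw [Fintype.sum_prod_type]
  unfold LSys.Ex
  rw [Finset.mul_sum]
  refine Finset.sum_le_sum fun x _ => ?_
  -- embedding of the inner box
  let ιm : (Fin D → Fin m) → (Fin D → Fin n) := fun u i => ⟨(u i : ℕ) + c, by
    have := (u i).2; omega⟩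
  have hinj : Function.Injective ιm := by
    intro u u' huu
    funext i
    have h2 := congrFun huu i
    simp only [ιm, Fin.mk.injEq] at h2
    exact Fin.ext (by omega)
  have h2 : ∀ u : Fin D → Fin m, A.pi (x, ιm u).1 / (n : ℝ) ^ D *
      ∑ s', (PM A n ^ T) (x, ιm u) s' * N (E (cc s'.2) - E (cc (x, ιm u).2)) ^ p =
      A.pi x / (n : ℝ) ^ D * A.pexp T x (fun w => N (E (∑ t, A.F (w t))) ^ p) := by
    intro u
    rw [PMpow_inner A n B hB (fun y => N (E y - E (cc (x, ιm u).2)) ^ p) T x (ιm u)]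
    · congr 2
      funext w
      simp only [map_add, add_sub_cancel_left]
    · intro i
      simp only [cc, ιm]
      have := (u i).2
      constructor
      · push_cast
        have : ((T * B : ℕ) : ℤ) ≤ c := by exact_mod_cast hc
        push_cast at this
        omega
      · have h5 : ((T * B : ℕ) : ℤ) ≤ c := by exact_mod_cast hc
        omega
  have h3 : ∑ u : Fin D → Fin m, A.pi (x, ιm u).1 / (n : ℝ) ^ D *
      ∑ s', (PM A n ^ T) (x, ιm u) s' * N (E (cc s'.2) - E (cc (x, ιm u).2)) ^ p ≤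
      ∑ v : Fin D → Fin n, A.pi (x, v).1 / (n : ℝ) ^ D *
      ∑ s', (PM A n ^ T) (x, v) s' * N (E (cc s'.2) - E (cc (x, v).2)) ^ p := by
    have h4 : ∑ u : Fin D → Fin m, A.pi (x, ιm u).1 / (n : ℝ) ^ D *
      ∑ s', (PM A n ^ T) (x, ιm u) s' * N (E (cc s'.2) - E (cc (x, ιm u).2)) ^ p =
      ∑ v ∈ (Finset.univ.map ⟨ιm, hinj⟩), A.pi (x, v).1 / (n : ℝ) ^ D *
      ∑ s', (PM A n ^ T) (x, v) s' * N (E (cc s'.2) - E (cc (x, v).2)) ^ p := by
      rw [Finset.sum_map]
      rfl
    rw [h4]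
    refine Finset.sum_le_sum_of_subset_of_nonneg (Finset.subset_univ _) fun v _ _ => ?_
    refine mul_nonneg (div_nonneg (pi_pos A _).le hnR.le) ?_
    exact PMpow_nonneg A n T _ (fun s => Real.rpow_nonneg (hN0 _) _) _
  refine le_trans (le_of_eq ?_) h3
  simp only [h2, Finset.sum_const, Finset.card_univ, nsmul_eq_mul]
  have hcm : ((Fintype.card (Fin D → Fin m) : ℕ) : ℝ) = (m : ℝ) ^ D := by simp
  rw [hcm, div_pow]
  ring

theorem Ex_one (A : LSys X L D) (g : L → ℝ) :
    A.Ex 1 (fun w => g (w 0)) = ∑ l, A.q l * g l := by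
  unfold LSys.Ex
  have h1 : ∀ x, A.pi x * A.pexp 1 x (fun w => g (w 0)) = ∑ l with A.src l = x, A.q l * g l := by
    intro x
    simp only [LSys.pexp, Fin.cons_zero]
    rw [Finset.mul_sum]
    refine Finset.sum_congr rfl fun l _ => ?_
    have := (pi_pos A x).ne'
    field_simp
  simp only [h1]
  exact Finset.sum_fiberwise_of_maps_to (s := (Finset.univ : Finset L))
      (t := (Finset.univ : Finset X)) (g := A.src) (fun _ _ => Finset.mem_univ _) _

theorem cover_n {Y : Type*} [AddCommGroup Y] (A : LSys X L D) (p K : ℝ) (hp : 0 < p) (N : Y → ℝ)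
    (hN0 : ∀ y, 0 ≤ N y) (hzero : N 0 = 0) (hMT : MT p K N) (E : (Fin D → ℤ) →+ Y) (T : ℕ)
    (hT : 1 ≤ T) (B : ℕ) (hB : ∀ l i, |A.F l i| ≤ B) (m : ℕ) (hm : 0 < m) :
    ((m : ℝ) / ((m + 2 * (T * B) : ℕ) : ℝ)) ^ D * A.Ex T (fun w => N (E (∑ t, A.F (w t))) ^ p) ≤
      K ^ p * T * ∑ l, A.q l * N (E (A.F l)) ^ p := by
  classical
  obtain ⟨n, hn⟩ : ∃ n : ℕ, n = m + 2 * (T * B) := ⟨_, rfl⟩
  rw [← hn]
  have hnpos : 0 < n := by omega
  have hnR : (0 : ℝ) < (n : ℝ) ^ D := by positivity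
  have hcard : ((Fintype.card (Fin D → Fin n) : ℕ) : ℝ) = (n : ℝ) ^ D := by
    simp
  have hsumpi : ∑ x, A.pi x = 1 := by
    unfold LSys.pi
    rw [← A.sum_q]
    have := Finset.sum_fiberwise_of_maps_to (s := (Finset.univ : Finset L))
      (t := (Finset.univ : Finset X)) (g := A.src) (fun _ _ => Finset.mem_univ _) A.q
    exact this
  have key := hMT (X × (Fin D → Fin n)) (fun s => A.pi s.1 / (n : ℝ) ^ D) (PM A n)
    (fun s => div_nonneg (pi_pos A _).le hnR.le)
    (by
      rw [Fintype.sum_prod_type]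
      simp only [Finset.sum_const, Finset.card_univ, nsmul_eq_mul]
      rw [hcard, ← hsumpi]
      refine Finset.sum_congr rfl fun x _ => ?_
      field_simp)
    (PM_nonneg A n) (PM_row A n) (PM_rev A n) (fun s => E (cc s.2)) T hT
  -- right hand side
  have hR : ∑ s : X × (Fin D → Fin n), ∑ s', A.pi s.1 / (n : ℝ) ^ D * PM A n s s' *
      N (E (cc s'.2) - E (cc s.2)) ^ p ≤ ∑ l, A.q l * N (E (A.F l)) ^ p := by
    have h1 : ∀ s : X × (Fin D → Fin n), ∑ s', A.pi s.1 / (n : ℝ) ^ D * PM A n s s' *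
        N (E (cc s'.2) - E (cc s.2)) ^ p ≤
        1 / (n : ℝ) ^ D * ∑ l with A.src l = s.1, A.q l * N (E (A.F l)) ^ p := by
      intro s
      have h2 : ∑ s', A.pi s.1 / (n : ℝ) ^ D * PM A n s s' *
        N (E (cc s'.2) - E (cc s.2)) ^ p = A.pi s.1 / (n : ℝ) ^ D *
          ∑ s', PM A n s s' * N (E (cc s'.2) - E (cc s.2)) ^ p := by
        rw [Finset.mul_sum]
        refine Finset.sum_congr rfl fun _ _ => by ring
      rw [h2, PM_sum A n s (fun s' => N (E (cc s'.2) - E (cc s.2)) ^ p), Finset.mul_sum,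
        Finset.mul_sum]
      refine Finset.sum_le_sum fun l _ => ?_
      have hp' := (pi_pos A s.1)
      have h3 : A.pi s.1 / (n : ℝ) ^ D * (A.q l / A.pi s.1 *
          N (E (cc (stp A n s l).2) - E (cc s.2)) ^ p) =
          1 / (n : ℝ) ^ D * (A.q l * N (E (cc (stp A n s l).2) - E (cc s.2)) ^ p) := by
        field_simp
      rw [h3]
      refine mul_le_mul_of_nonneg_left ?_ (by positivity)
      refine mul_le_mul_of_nonneg_left ?_ (A.q_nonneg l)
      unfold stp
      split_ifs with h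
      · rw [cc_mkb, map_add, add_sub_cancel_left]
      · rw [sub_self, hzero, Real.zero_rpow hp.ne']
        exact Real.rpow_nonneg (hN0 _) _
    refine (Finset.sum_le_sum fun s _ => h1 s).trans ?_
    rw [← Finset.mul_sum, Fintype.sum_prod_type]
    simp only [Finset.sum_const, Finset.card_univ, nsmul_eq_mul]
    rw [hcard, ← Finset.mul_sum]
    have h4 : ∑ x, ∑ l with A.src l = x, A.q l * N (E (A.F l)) ^ p =
        ∑ l, A.q l * N (E (A.F l)) ^ p :=
      Finset.sum_fiberwise_of_maps_to (s := (Finset.univ : Finset L))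
      (t := (Finset.univ : Finset X)) (g := A.src) (fun _ _ => Finset.mem_univ _) _
    rw [h4]
    have : 1 / (n : ℝ) ^ D * ((n : ℝ) ^ D * ∑ l, A.q l * N (E (A.F l)) ^ p) =
      ∑ l, A.q l * N (E (A.F l)) ^ p := by field_simp
    exact this.le
  -- left hand side
  have hL := cover_low A p N hN0 E T n m (T * B) B hB le_rfl hn hnpos
  refine hL.trans (key.trans ?_)
  have hSnn : 0 ≤ ∑ l, A.q l * N (E (A.F l)) ^ p :=
    Finset.sum_nonneg fun l _ => mul_nonneg (A.q_nonneg l) (Real.rpow_nonneg (hN0 _) _)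
  have hRnn : 0 ≤ ∑ s : X × (Fin D → Fin n), ∑ s', A.pi s.1 / (n : ℝ) ^ D * PM A n s s' *
    N (E (cc s'.2) - E (cc s.2)) ^ p := by
    refine Finset.sum_nonneg fun s _ => Finset.sum_nonneg fun s' _ => ?_
    exact mul_nonneg (mul_nonneg (div_nonneg (pi_pos A _).le hnR.le) (PM_nonneg A n _ _))
      (Real.rpow_nonneg (hN0 _) _)
  by_cases hK : 0 ≤ K ^ p * T
  · exact mul_le_mul_of_nonneg_left hR hK
  · -- then everything vanishes
    have hLnn : 0 ≤ ∑ s : X × (Fin D → Fin n), ∑ s', A.pi s.1 / (n : ℝ) ^ D *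
        (PM A n ^ T) s s' * N (E (cc s'.2) - E (cc s.2)) ^ p := by
      refine Finset.sum_nonneg fun s _ => ?_
      have h1 : ∑ s', A.pi s.1 / (n : ℝ) ^ D * (PM A n ^ T) s s' *
        N (E (cc s'.2) - E (cc s.2)) ^ p = A.pi s.1 / (n : ℝ) ^ D *
          ∑ s', (PM A n ^ T) s s' * N (E (cc s'.2) - E (cc s.2)) ^ p := by
        rw [Finset.mul_sum]
        refine Finset.sum_congr rfl fun _ _ => by ring
      rw [h1]
      refine mul_nonneg (div_nonneg (pi_pos A _).le hnR.le) ?_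
      exact PMpow_nonneg A n T _ (fun s => Real.rpow_nonneg (hN0 _) _) _
    have h0 := hLnn.trans key
    have hR0 : ∑ s : X × (Fin D → Fin n), ∑ s', A.pi s.1 / (n : ℝ) ^ D * PM A n s s' *
      N (E (cc s'.2) - E (cc s.2)) ^ p = 0 := by
      by_contra hne
      have hpos := lt_of_le_of_ne hRnn (Ne.symm hne)
      have := mul_neg_of_neg_of_pos (not_le.mp hK) hpos
      linarith
    have hlow1 := cover_low A p N hN0 E 1 n m (T * B) B hB (by
      exact Nat.mul_le_mul_right B hT) hn hnpos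
    rw [pow_one] at hlow1
    rw [hR0] at hlow1
    have hE1 : A.Ex 1 (fun w => N (E (∑ t, A.F (w t))) ^ p) =
        ∑ l, A.q l * N (E (A.F l)) ^ p := by
      rw [← Ex_one A (fun l => N (E (A.F l)) ^ p)]
      congr 1
      funext w
      simp
    rw [hE1] at hlow1
    have hmn : 0 < ((m : ℝ) / (n : ℝ)) ^ D := by positivity
    have hS0 : ∑ l, A.q l * N (E (A.F l)) ^ p = 0 := by
      by_contra hne
      have hpos := lt_of_le_of_ne hSnn (Ne.symm hne)
      have := mul_pos hmn hpos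
      linarith
    rw [hR0, hS0]

end Cover

theorem cover {Y : Type*} [AddCommGroup Y] (A : LSys X L D) (p K : ℝ) (hp : 0 < p) (N : Y → ℝ)
    (hN0 : ∀ y, 0 ≤ N y) (hzero : N 0 = 0) (hMT : MT p K N) (E : (Fin D → ℤ) →+ Y) (T : ℕ)
    (hT : 1 ≤ T) :
    A.Ex T (fun w => N (E (∑ t, A.F (w t))) ^ p) ≤ K ^ p * T * ∑ l, A.q l * N (E (A.F l)) ^ p := by
  obtain ⟨B, hB⟩ : ∃ B : ℕ, ∀ l i, |A.F l i| ≤ (B : ℤ) := by
    refine ⟨∑ l, ∑ i, (A.F l i).natAbs, fun l i => ?_⟩
    have h1 : (A.F l i).natAbs ≤ ∑ i, (A.F l i).natAbs :=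
      Finset.single_le_sum (f := fun i => (A.F l i).natAbs) (fun _ _ => Nat.zero_le _)
        (Finset.mem_univ i)
    have h2 : ∑ i, (A.F l i).natAbs ≤ ∑ l, ∑ i, (A.F l i).natAbs :=
      Finset.single_le_sum (f := fun l => ∑ i, (A.F l i).natAbs) (fun _ _ => Nat.zero_le _)
        (Finset.mem_univ l)
    rw [Int.abs_eq_natAbs]
    exact_mod_cast h1.trans h2
  have hlim : Tendsto (fun m : ℕ => ((m : ℝ) / ((m + 2 * (T * B) : ℕ) : ℝ)) ^ D *
      A.Ex T (fun w => N (E (∑ t, A.F (w t))) ^ p)) atTop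
      (𝓝 (1 ^ D * A.Ex T (fun w => N (E (∑ t, A.F (w t))) ^ p))) := by
    refine Tendsto.mul_const _ (Tendsto.pow ?_ _)
    have h1 := tendsto_natCast_div_add_atTop ((2 * (T * B) : ℕ) : ℝ)
    refine h1.congr fun m => ?_
    push_cast
    ring
  rw [one_pow, one_mul] at hlim
  refine le_of_tendsto hlim ?_
  filter_upwards [eventually_gt_atTop 0] with m hm
  exact Cover.cover_n A p K hp N hN0 hzero hMT E T hT B hB m hm

end Vale.Agent.P125
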