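import Vale.Agent.Lib.P125.Defs

/-! # P125: the labelled system obtained by matching half-edges. -/

namespace Vale.Agent.P125

open Finset

set_option linter.unusedSectionVars false

namespace Mt

variable {r d D : ℕ} {σ : Type} [Fintype σ] [DecidableEq σ]
  (w : Fin r → ℝ) (sa sb : Fin r → Fin d → σ) (Fv : σ → Fin D → ℤ)

/-- law of the sequence on a random half-edge -/
noncomputable def Aw (s : σ) : ℝ := ∑ i, ∑ j, if sa i j = s then w i / d else 0

noncomputable def mx (s : σ) : ℝ := max (Aw w sa s) (Aw w sb s)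

noncomputable def cond (i : Fin r) (j : Fin d) (i' : Fin r) (j' : Fin d) : ℝ :=
  if sa i j = sb i' j' then w i / d * (w i' / d) / (2 * mx w sa sb (sa i j)) else 0

abbrev Lb (r d : ℕ) := Fin r ⊕ (Fin r × Fin d × Fin r × Fin d × Bool)

theorem Aw_nonneg (hw : ∀ i, 0 < w i) (s : σ) : 0 ≤ Aw w sa s := by
  unfold Aw
  refine sum_nonneg fun i _ => sum_nonneg fun j _ => ?_
  split_ifs
  · exact div_nonneg (hw i).le (Nat.cast_nonneg _)
  · exact le_rfl

theorem Aw_pos (hw : ∀ i, 0 < w i) (hd : 0 < d) (i : Fin r) (j : Fin d) :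
    0 < Aw w sa (sa i j) := by
  unfold Aw
  have hd' : (0 : ℝ) < d := by exact_mod_cast hd
  refine sum_pos' (fun i _ => sum_nonneg fun j _ => ?_) ⟨i, mem_univ _, ?_⟩
  · split_ifs
    · exact div_nonneg (hw i).le (Nat.cast_nonneg _)
    · exact le_rfl
  · refine sum_pos' (fun j _ => ?_) ⟨j, mem_univ _, ?_⟩
    · split_ifs
      · exact div_nonneg (hw i).le (Nat.cast_nonneg _)
      · exact le_rfl
    · rw [if_pos rfl]
      exact div_pos (hw i) hd'

theorem mx_pos (hw : ∀ i, 0 < w i) (hd : 0 < d) (i : Fin r) (j : Fin d) :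
    0 < mx w sa sb (sa i j) := lt_of_lt_of_le (Aw_pos w sa hw hd i j) (le_max_left _ _)

theorem mx_pos' (hw : ∀ i, 0 < w i) (hd : 0 < d) (i : Fin r) (j : Fin d) :
    0 < mx w sa sb (sb i j) := lt_of_lt_of_le (Aw_pos w sb hw hd i j) (le_max_right _ _)

theorem cond_nonneg (hw : ∀ i, 0 < w i) (i : Fin r) (j : Fin d) (i' : Fin r) (j' : Fin d) :
    0 ≤ cond w sa sb i j i' j' := by
  unfold cond
  split_ifs
  · have h1 : 0 ≤ mx w sa sb (sa i j) := le_trans (Aw_nonneg w sa hw _) (le_max_left _ _)
    have h2 := (hw i).le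
    have h3 := (hw i').le
    positivity
  · exact le_rfl

/-- expectation of a function of the sequence -/
theorem sum_Aw (f : σ → ℝ) : ∑ i, ∑ j, w i / d * f (sa i j) = ∑ s, Aw w sa s * f s := by
  have h : ∀ s, Aw w sa s * f s = ∑ i, ∑ j, if sa i j = s then w i / d * f s else 0 := by
    intro s
    unfold Aw
    rw [sum_mul]
    refine sum_congr rfl fun i _ => ?_
    rw [sum_mul]
    refine sum_congr rfl fun j _ => ?_
    rw [ite_mul, zero_mul]
  have h' : ∑ s, Aw w sa s * f s = ∑ s, ∑ i, ∑ j, if sa i j = s then w i / d * f s else 0 :=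
    sum_congr rfl fun s _ => h s
  rw [h']
  symm
  rw [sum_comm]
  refine sum_congr rfl fun i _ => ?_
  rw [sum_comm]
  refine sum_congr rfl fun j _ => ?_
  rw [sum_ite_eq]
  simp

theorem sum_cond_right (i : Fin r) (j : Fin d) :
    ∑ i', ∑ j', cond w sa sb i j i' j' =
      w i / d / 2 * (Aw w sb (sa i j) / mx w sa sb (sa i j)) := by
  have h : Aw w sb (sa i j) = ∑ i', ∑ j', if sa i j = sb i' j' then w i' / d else 0 := by
    unfold Aw
    refine sum_congr rfl fun i' _ => sum_congr rfl fun j' _ => ?_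
    simp only [eq_comm]
  rw [h, sum_div, mul_sum]
  refine sum_congr rfl fun i' _ => ?_
  rw [sum_div, mul_sum]
  refine sum_congr rfl fun j' _ => ?_
  unfold cond
  split_ifs
  · simp only [div_eq_mul_inv, mul_inv]; ring
  · simp

theorem sum_cond_left (i' : Fin r) (j' : Fin d) :
    ∑ i, ∑ j, cond w sa sb i j i' j' =
      w i' / d / 2 * (Aw w sa (sb i' j') / mx w sa sb (sb i' j')) := by
  unfold Aw
  rw [sum_div, mul_sum]
  refine sum_congr rfl fun i _ => ?_
  rw [sum_div, mul_sum]
  refine sum_congr rfl fun j _ => ?_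
  unfold cond
  split_ifs with h
  · rw [h]; simp only [div_eq_mul_inv, mul_inv]; ring
  · simp

theorem ratio_le (hw : ∀ i, 0 < w i) (s : σ) : Aw w sb s / mx w sa sb s ≤ 1 := by
  have h1 : 0 ≤ mx w sa sb s := le_trans (Aw_nonneg w sa hw _) (le_max_left _ _)
  exact div_le_one_of_le₀ (le_max_right _ _) h1

theorem ratio_le' (hw : ∀ i, 0 < w i) (s : σ) : Aw w sa s / mx w sa sb s ≤ 1 := by
  have h1 : 0 ≤ mx w sa sb s := le_trans (Aw_nonneg w sa hw _) (le_max_left _ _)
  exact div_le_one_of_le₀ (le_max_left _ _) h1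

theorem sum_cond_right_le (hw : ∀ i, 0 < w i) (i : Fin r) (j : Fin d) :
    ∑ i', ∑ j', cond w sa sb i j i' j' ≤ w i / d / 2 := by
  rw [sum_cond_right]
  have h := (hw i).le
  exact mul_le_of_le_one_right (by positivity) (ratio_le w sa sb hw _)

theorem sum_cond_left_le (hw : ∀ i, 0 < w i) (i' : Fin r) (j' : Fin d) :
    ∑ i, ∑ j, cond w sa sb i j i' j' ≤ w i' / d / 2 := by
  rw [sum_cond_left]
  have h := (hw i').le
  exact mul_le_of_le_one_right (by positivity) (ratio_le' w sa sb hw _)

/-- total conductance (excluding loops) at the vertex `x` -/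
noncomputable def out (x : Fin r) : ℝ :=
  (∑ j, ∑ i', ∑ j', cond w sa sb x j i' j') + ∑ j', ∑ i, ∑ j, cond w sa sb i j x j'

theorem out_le (hw : ∀ i, 0 < w i) (hd : 0 < d) (x : Fin r) : out w sa sb x ≤ w x := by
  have hd' : (0 : ℝ) < d := by exact_mod_cast hd
  have h1 : ∑ j, ∑ i', ∑ j', cond w sa sb x j i' j' ≤ ∑ _j : Fin d, w x / d / 2 :=
    sum_le_sum fun j _ => sum_cond_right_le w sa sb hw x j
  have h2 : ∑ j', ∑ i, ∑ j, cond w sa sb i j x j' ≤ ∑ _j : Fin d, w x / d / 2 :=
    sum_le_sum fun j _ => sum_cond_left_le w sa sb hw x j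
  have h3 : ∑ _j : Fin d, w x / d / 2 = w x / 2 := by
    rw [sum_const, card_univ, Fintype.card_fin, nsmul_eq_mul]; field_simp
  unfold out
  rw [h3] at h1 h2
  linarith

/-- conductances -/
noncomputable def qf : Lb r d → ℝ
  | Sum.inl x => w x - out w sa sb x
  | Sum.inr (i, j, i', j', _) => cond w sa sb i j i' j'

def srcf : Lb r d → Fin r
  | Sum.inl x => x
  | Sum.inr (i, _, _, _, true) => i
  | Sum.inr (_, _, i', _, false) => i'

def tgtf : Lb r d → Fin r
  | Sum.inl x => x
  | Sum.inr (_, _, i', _, true) => i'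
  | Sum.inr (i, _, _, _, false) => i

/-- half-edge at the source -/
def hsrc : Lb r d → ℕ
  | Sum.inl _ => 0
  | Sum.inr (_, j, _, _, true) => d + j
  | Sum.inr (_, _, _, j', false) => j'

/-- half-edge at the target -/
def htgt : Lb r d → ℕ
  | Sum.inl _ => 0
  | Sum.inr (_, _, _, j', true) => j'
  | Sum.inr (_, j, _, _, false) => d + j

def revf : Lb r d → Lb r d
  | Sum.inl x => Sum.inl x
  | Sum.inr (i, j, i', j', o) => Sum.inr (i, j, i', j', !o)

def Ff : Lb r d → Fin D → ℤ
  | Sum.inl _ => 0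
  | Sum.inr (i, j, _, _, true) => - Fv (sa i j)
  | Sum.inr (i, j, _, _, false) => Fv (sa i j)

theorem sum_src (x : Fin r) (f : Lb r d → ℝ) :
    ∑ l with srcf l = x, f l = f (Sum.inl x) +
      ((∑ j, ∑ i', ∑ j', f (Sum.inr (x, j, i', j', true))) +
        ∑ j', ∑ i, ∑ j, f (Sum.inr (i, j, x, j', false))) := by
  have e : ∑ l with srcf l = x, f l = ∑ l : Lb r d, if srcf l = x then f l else 0 :=
    sum_filter _ _
  rw [e, Fintype.sum_sum_type]
  have e1 : (∑ a : Fin r, if srcf (Sum.inl a : Lb r d) = x then f (Sum.inl a) else 0) =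
      f (Sum.inl x) := by
    have : ∀ a : Fin r, (if srcf (Sum.inl a : Lb r d) = x then f (Sum.inl a) else 0) =
        if a = x then f (Sum.inl a) else 0 := fun a => rfl
    rw [sum_congr rfl (fun a _ => this a)]
    simp
  rw [e1]
  congr 1
  have e2 : ∑ a : Fin r × Fin d × Fin r × Fin d × Bool,
      (if srcf (Sum.inr a : Lb r d) = x then f (Sum.inr a) else 0) =
      ∑ i, ∑ j, ∑ i', ∑ j', ((if i = x then f (Sum.inr (i, j, i', j', true)) else 0) +
        (if i' = x then f (Sum.inr (i, j, i', j', false)) else 0)) := by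
    simp only [Fintype.sum_prod_type, Fintype.sum_bool]
    rfl
  rw [e2]
  simp only [sum_add_distrib]
  congr 1
  · rw [sum_eq_single x (by intro b _ hb; simp [hb]) (by simp)]
    simp
  · have e3 : ∀ (i : Fin r) (j : Fin d), (∑ i', ∑ j', if i' = x then
        f (Sum.inr (i, j, i', j', false)) else 0) = ∑ j', f (Sum.inr (i, j, x, j', false)) := by
      intro i j
      rw [sum_eq_single x (by intro b _ hb; simp [hb]) (by simp)]
      simp
    simp only [e3]
    have e4 : ∀ i : Fin r, (∑ j : Fin d, ∑ j' : Fin d, f (Sum.inr (i, j, x, j', false))) =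
        ∑ j' : Fin d, ∑ j : Fin d, f (Sum.inr (i, j, x, j', false)) := fun i => sum_comm
    simp only [e4]
    exact sum_comm

theorem pi_eq (x : Fin r) : ∑ l with srcf l = x, qf w sa sb l = w x := by
  rw [sum_src]
  simp only [qf, out]
  ring

/-- conductance leaving `x` through the half-edge `h` (without loops) -/
theorem sum_half (hw : ∀ i, 0 < w i) (x : Fin r) (h : ℕ) :
    ∑ l with srcf l = x ∧ hsrc l = h ∧ l.isRight = true, qf w sa sb l ≤ w x / d / 2 := by
  have e : ∑ l with srcf l = x ∧ hsrc l = h ∧ l.isRight = true, qf w sa sb l =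
      ∑ l with srcf l = x, if hsrc l = h ∧ l.isRight = true then qf w sa sb l else 0 := by
    rw [← sum_filter, filter_filter]
  rw [e, sum_src]
  have hx := (hw x).le
  by_cases hh : h < d
  · have h1 : ∀ j i' j', (if hsrc (Sum.inr (x, j, i', j', true) : Lb r d) = h ∧
        (Sum.inr (x, j, i', j', true) : Lb r d).isRight = true then
        qf w sa sb (Sum.inr (x, j, i', j', true)) else 0) = 0 := by
      intro j i' j'
      rw [if_neg]
      intro hc
      have : d + (j : ℕ) = h := hc.1
      omega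
    simp only [h1]
    have h2 : ∀ j' i j, (if hsrc (Sum.inr (i, j, x, j', false) : Lb r d) = h ∧
        (Sum.inr (i, j, x, j', false) : Lb r d).isRight = true then
        qf w sa sb (Sum.inr (i, j, x, j', false)) else 0) =
        if j' = ⟨h, hh⟩ then cond w sa sb i j x j' else 0 := by
      intro j' i j
      have : (hsrc (Sum.inr (i, j, x, j', false) : Lb r d) = h ∧
        (Sum.inr (i, j, x, j', false) : Lb r d).isRight = true) ↔ j' = ⟨h, hh⟩ := by
        constructor
        · intro hc
          exact Fin.ext hc.1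
        · intro hc
          exact ⟨by rw [hc]; rfl, rfl⟩
      exact if_congr this rfl rfl
    simp only [h2]
    have h3 : (∑ j' : Fin d, ∑ i : Fin r, ∑ j : Fin d, if j' = ⟨h, hh⟩ then
        cond w sa sb i j x j' else 0) = ∑ i, ∑ j, cond w sa sb i j x ⟨h, hh⟩ := by
      rw [sum_eq_single ⟨h, hh⟩ (by intro b _ hb; simp [hb]) (by simp)]
      simp
    rw [h3]
    have h4 := sum_cond_left_le w sa sb hw x ⟨h, hh⟩
    simpa using h4
  · have h2 : ∀ j' i j, (if hsrc (Sum.inr (i, j, x, j', false) : Lb r d) = h ∧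
        (Sum.inr (i, j, x, j', false) : Lb r d).isRight = true then
        qf w sa sb (Sum.inr (i, j, x, j', false)) else 0) = 0 := by
      intro j' i j
      rw [if_neg]
      intro hc
      have : (j' : ℕ) = h := hc.1
      omega
    simp only [h2]
    by_cases hh2 : h - d < d
    · have h1 : ∀ j i' j', (if hsrc (Sum.inr (x, j, i', j', true) : Lb r d) = h ∧
          (Sum.inr (x, j, i', j', true) : Lb r d).isRight = true then
          qf w sa sb (Sum.inr (x, j, i', j', true)) else 0) =
          if j = ⟨h - d, hh2⟩ then cond w sa sb x j i' j' else 0 := by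
        intro j i' j'
        have : (hsrc (Sum.inr (x, j, i', j', true) : Lb r d) = h ∧
          (Sum.inr (x, j, i', j', true) : Lb r d).isRight = true) ↔ j = ⟨h - d, hh2⟩ := by
          constructor
          · intro hc
            have : d + (j : ℕ) = h := hc.1
            exact Fin.ext (by simp; omega)
          · intro hc
            refine ⟨?_, rfl⟩
            rw [hc]
            show d + (h - d) = h
            omega
        exact if_congr this rfl rfl
      simp only [h1]
      have h3 : (∑ j : Fin d, ∑ i' : Fin r, ∑ j' : Fin d, if j = ⟨h - d, hh2⟩ then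
          cond w sa sb x j i' j' else 0) = ∑ i', ∑ j', cond w sa sb x ⟨h - d, hh2⟩ i' j' := by
        rw [sum_eq_single ⟨h - d, hh2⟩ (by intro b _ hb; simp [hb]) (by simp)]
        simp
      rw [h3]
      have h4 := sum_cond_right_le w sa sb hw x ⟨h - d, hh2⟩
      simpa using h4
    · have h1 : ∀ j i' j', (if hsrc (Sum.inr (x, j, i', j', true) : Lb r d) = h ∧
          (Sum.inr (x, j, i', j', true) : Lb r d).isRight = true then
          qf w sa sb (Sum.inr (x, j, i', j', true)) else 0) = 0 := by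
        intro j i' j'
        rw [if_neg]
        intro hc
        have : d + (j : ℕ) = h := hc.1
        have := j.2
        omega
      simp only [h1]
      simp
      positivity

/-- the labelled system -/
noncomputable def sys (hw : ∀ i, 0 < w i) (hw1 : ∑ i, w i = 1) (hd : 0 < d) :
    LSys (Fin r) (Lb r d) D where
  src := srcf
  tgt := tgtf
  q := qf w sa sb
  rev := revf
  F := Ff sa Fv
  q_nonneg := by
    rintro (x | ⟨i, j, i', j', o⟩)
    · exact sub_nonneg.2 (out_le w sa sb hw hd x)
    · exact cond_nonneg w sa sb hw i j i' j'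
  rev_rev := by
    rintro (x | ⟨i, j, i', j', o⟩)
    · rfl
    · simp [revf]
  src_rev := by
    rintro (x | ⟨i, j, i', j', (_ | _)⟩) <;> rfl
  q_rev := by
    rintro (x | ⟨i, j, i', j', (_ | _)⟩) <;> rfl
  F_rev := by
    rintro (x | ⟨i, j, i', j', (_ | _)⟩)
    · exact (neg_zero).symm
    · rfl
    · exact (neg_neg _).symm
  sum_q := by
    have h : ∑ l : Lb r d, qf w sa sb l = ∑ x, ∑ l with srcf l = x, qf w sa sb l := by
      rw [sum_fiberwise]
    rw [h]
    simp only [pi_eq]
    exact hw1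
  pi_pos := by
    intro x
    show 0 < ∑ l with srcf l = x, qf w sa sb l
    rw [pi_eq]
    exact hw x

variable (hw : ∀ i, 0 < w i) (hw1 : ∑ i, w i = 1) (hd : 0 < d)

theorem sys_pi (x : Fin r) : (sys w sa sb Fv hw hw1 hd).pi x = w x := pi_eq w sa sb x

/-- total conductance of the loops -/
theorem loops_le (ε : ℝ) (hε : ∀ (j j' : Fin d) (φ : σ → ℝ), (∀ s, |φ s| ≤ 1) →
      |∑ i, w i * (φ (sa i j) - φ (sb i j'))| ≤ ε) :
    ∑ l with l.isLeft = true, (sys w sa sb Fv hw hw1 hd).q l ≤ ε := by
  classical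
  have hd' : (0 : ℝ) < d := by exact_mod_cast hd
  -- key: for every test function
  have key : ∀ φ : σ → ℝ, (∀ s, |φ s| ≤ 1) →
      |∑ s, (Aw w sa s - Aw w sb s) * φ s| ≤ ε := by
    intro φ hφ
    have e1 : ∑ s, (Aw w sa s - Aw w sb s) * φ s =
        (∑ j : Fin d, ∑ j' : Fin d, ∑ i, w i * (φ (sa i j) - φ (sb i j'))) / (d * d) := by
      have e2 : ∑ s, (Aw w sa s - Aw w sb s) * φ s =
          (∑ i, ∑ j, w i / d * φ (sa i j)) - ∑ i, ∑ j, w i / d * φ (sb i j) := by
        rw [sum_Aw, sum_Aw, ← sum_sub_distrib]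
        refine sum_congr rfl fun s _ => ?_
        ring
      have e3 : ∑ j : Fin d, ∑ j' : Fin d, ∑ i, w i * (φ (sa i j) - φ (sb i j')) =
          (d : ℝ) * (∑ j : Fin d, ∑ i, w i * φ (sa i j)) -
          (d : ℝ) * ∑ j : Fin d, ∑ i, w i * φ (sb i j) := by
        simp only [mul_sub, sum_sub_distrib]
        congr 1
        · simp only [sum_const, card_univ, Fintype.card_fin, nsmul_eq_mul, mul_sum]
        · rw [sum_const, card_univ, Fintype.card_fin, nsmul_eq_mul]
      rw [e2, e3]
      have e4 : ∀ sc : Fin r → Fin d → σ, ∑ i, ∑ j, w i / d * φ (sc i j) =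
          (∑ j, ∑ i, w i * φ (sc i j)) / d := by
        intro sc
        rw [sum_comm, sum_div]
        refine sum_congr rfl fun j _ => ?_
        rw [sum_div]
        refine sum_congr rfl fun i _ => ?_
        ring
      rw [e4, e4]
      field_simp
    rw [e1, abs_div, abs_of_pos (mul_pos hd' hd'), div_le_iff₀ (mul_pos hd' hd')]
    calc |∑ j : Fin d, ∑ j' : Fin d, ∑ i, w i * (φ (sa i j) - φ (sb i j'))|
        ≤ ∑ j : Fin d, ∑ j' : Fin d, |∑ i, w i * (φ (sa i j) - φ (sb i j'))| :=
          (abs_sum_le_sum_abs _ _).trans (sum_le_sum fun j _ => abs_sum_le_sum_abs _ _)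
      _ ≤ ∑ _j : Fin d, ∑ _j' : Fin d, ε :=
          sum_le_sum fun j _ => sum_le_sum fun j' _ => hε j j' φ hφ
      _ = ε * (d * d) := by
          simp only [sum_const, card_univ, Fintype.card_fin, nsmul_eq_mul]; ring
  -- total of the loops
  have hL : ∑ l : Lb r d with l.isLeft = true, (sys w sa sb Fv hw hw1 hd).q l =
      ∑ x, (w x - out w sa sb x) := by
    rw [sum_filter, Fintype.sum_sum_type]
    simp [sys, qf]
  have hA1 : ∑ s, Aw w sa s = 1 := by
    have := sum_Aw w sa (fun _ => (1 : ℝ))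
    simp only [mul_one, sum_const, card_univ, Fintype.card_fin, nsmul_eq_mul] at this
    rw [← this, ← hw1]
    refine sum_congr rfl fun i _ => ?_
    field_simp
  have hB1 : ∑ s, Aw w sb s = 1 := by
    have := sum_Aw w sb (fun _ => (1 : ℝ))
    simp only [mul_one, sum_const, card_univ, Fintype.card_fin, nsmul_eq_mul] at this
    rw [← this, ← hw1]
    refine sum_congr rfl fun i _ => ?_
    field_simp
  have ho : ∑ x, out w sa sb x = ∑ s, Aw w sa s * (Aw w sb s / mx w sa sb s) := by
    unfold out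
    rw [sum_add_distrib]
    have o1 : ∑ x, ∑ j, ∑ i', ∑ j', cond w sa sb x j i' j' =
        (1 / 2) * ∑ s, Aw w sa s * (Aw w sb s / mx w sa sb s) := by
      rw [← sum_Aw w sa (fun s => Aw w sb s / mx w sa sb s), mul_sum]
      refine sum_congr rfl fun x _ => ?_
      rw [mul_sum]
      refine sum_congr rfl fun j _ => ?_
      rw [sum_cond_right]
      ring
    have o2 : ∑ x, ∑ j', ∑ i, ∑ j, cond w sa sb i j x j' =
        (1 / 2) * ∑ s, Aw w sb s * (Aw w sa s / mx w sa sb s) := by
      rw [← sum_Aw w sb (fun s => Aw w sa s / mx w sa sb s), mul_sum]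
      refine sum_congr rfl fun x _ => ?_
      rw [mul_sum]
      refine sum_congr rfl fun j _ => ?_
      rw [sum_cond_left]
      ring
    rw [o1, o2]
    have o3 : ∑ s, Aw w sb s * (Aw w sa s / mx w sa sb s) =
        ∑ s, Aw w sa s * (Aw w sb s / mx w sa sb s) := by
      refine sum_congr rfl fun s _ => ?_
      ring
    rw [o3]
    ring
  have hmin : ∀ s, Aw w sa s * (Aw w sb s / mx w sa sb s) =
      Aw w sa s - (Aw w sa s - Aw w sb s) * (if Aw w sb s < Aw w sa s then 1 else 0) := by
    intro s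
    have a0 := Aw_nonneg w sa hw s
    have b0 := Aw_nonneg w sb hw s
    unfold mx
    split_ifs with hlt
    · rw [max_eq_left hlt.le]
      have : Aw w sa s ≠ 0 := by linarith
      field_simp
      ring
    · push Not at hlt
      rw [max_eq_right hlt]
      by_cases hb : Aw w sb s = 0
      · have : Aw w sa s = 0 := by linarith
        simp [hb, this]
      · rw [div_self hb]; ring
  rw [hL, sum_sub_distrib, hw1, ho, sum_congr rfl fun s _ => hmin s, sum_sub_distrib, hA1]
  have := key (fun s => if Aw w sb s < Aw w sa s then 1 else 0) (by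
    intro s
    split_ifs <;> simp)
  have h2 := (abs_le.1 this).2
  linarith

/-- probability of using the same half-edge twice -/
theorem back_le : ∑ l : Lb r d, ∑ l' with
      (sys w sa sb Fv hw hw1 hd).src l' = (sys w sa sb Fv hw hw1 hd).tgt l ∧
        (hsrc l' = htgt l ∧ l'.isRight = true),
      (sys w sa sb Fv hw hw1 hd).q l * (sys w sa sb Fv hw hw1 hd).q l' /
        (sys w sa sb Fv hw hw1 hd).pi ((sys w sa sb Fv hw hw1 hd).tgt l) ≤ 1 / (2 * d) := by
  have hd' : (0 : ℝ) < d := by exact_mod_cast hd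
  have h1 : ∀ l : Lb r d, ∑ l' with
      (sys w sa sb Fv hw hw1 hd).src l' = (sys w sa sb Fv hw hw1 hd).tgt l ∧
        (hsrc l' = htgt l ∧ l'.isRight = true),
      (sys w sa sb Fv hw hw1 hd).q l * (sys w sa sb Fv hw hw1 hd).q l' /
        (sys w sa sb Fv hw hw1 hd).pi ((sys w sa sb Fv hw hw1 hd).tgt l) ≤
      (sys w sa sb Fv hw hw1 hd).q l * (1 / (2 * d)) := by
    intro l
    set x := (sys w sa sb Fv hw hw1 hd).tgt l with hx
    have h2 : (sys w sa sb Fv hw hw1 hd).pi x = w x := sys_pi w sa sb Fv hw hw1 hd x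
    rw [h2]
    have h3 := sum_half w sa sb hw x (htgt l)
    have h4 : ∑ l' with (sys w sa sb Fv hw hw1 hd).src l' = x ∧
        (hsrc l' = htgt l ∧ l'.isRight = true),
      (sys w sa sb Fv hw hw1 hd).q l * (sys w sa sb Fv hw hw1 hd).q l' / w x =
      (sys w sa sb Fv hw hw1 hd).q l / w x *
        ∑ l' : Lb r d with srcf l' = x ∧ hsrc l' = htgt l ∧ l'.isRight = true,
          qf w sa sb l' := by
      rw [mul_sum]
      refine sum_congr rfl fun l' _ => ?_
      show (sys w sa sb Fv hw hw1 hd).q l * qf w sa sb l' / w x = _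
      ring
    rw [h4]
    have hq := (sys w sa sb Fv hw hw1 hd).q_nonneg l
    have hwx := hw x
    calc (sys w sa sb Fv hw hw1 hd).q l / w x * _
        ≤ (sys w sa sb Fv hw hw1 hd).q l / w x * (w x / d / 2) :=
          mul_le_mul_of_nonneg_left h3 (by positivity)
      _ = (sys w sa sb Fv hw hw1 hd).q l * (1 / (2 * d)) := by
          field_simp
  refine (sum_le_sum fun l _ => h1 l).trans ?_
  rw [← sum_mul, (sys w sa sb Fv hw hw1 hd).sum_q, one_mul]

end Mt

end Vale.Agent.P125
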