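import Vale.Agent.Lib.P125.Defs

/-! # P125, module PATHPROB: stationarity of the label path and a union bound. -/

namespace Vale.Agent.P125

open Finset

variable {X L : Type} [Fintype X] [Fintype L] [DecidableEq X] {D : ℕ}

/-- mass entering a vertex -/
theorem LSys.sum_tgt (A : LSys X L D) (y : X) : ∑ l with A.tgt l = y, A.q l = A.pi y := by
  classical
  unfold LSys.pi
  refine Finset.sum_bij' (fun l _ => A.rev l) (fun l _ => A.rev l) ?_ ?_ ?_ ?_ ?_
  · intro l hl
    have := (mem_filter.1 hl).2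
    exact mem_filter.2 ⟨mem_univ _, by rw [A.src_rev, this]⟩
  · intro l hl
    have := (mem_filter.1 hl).2
    refine mem_filter.2 ⟨mem_univ _, ?_⟩
    rw [← A.src_rev (A.rev l), A.rev_rev, this]
  · intro l _
    exact A.rev_rev l
  · intro l _
    exact A.rev_rev l
  · intro l _
    exact (A.q_rev l).symm

theorem LSys.pi_pos' (A : LSys X L D) (x : X) : 0 < A.pi x := A.pi_pos x

theorem LSys.sum_src_div (A : LSys X L D) (x : X) : ∑ l with A.src l = x, A.q l / A.pi x = 1 := by
  rw [← sum_div]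
  exact div_self (A.pi_pos' x).ne'

theorem LSys.pexp_nonneg (A : LSys X L D) (T : ℕ) (x : X) (g : (Fin T → L) → ℝ)
    (hg : ∀ w, 0 ≤ g w) : 0 ≤ A.pexp T x g := by
  induction T generalizing x with
  | zero => exact hg _
  | succ T ih =>
    unfold LSys.pexp
    refine sum_nonneg fun l _ => mul_nonneg (div_nonneg (A.q_nonneg l) (A.pi_pos' x).le) ?_
    exact ih _ _ fun w => hg _

/-- `Ex` of a path of length `T + 1` as a sum over the first label -/
theorem LSys.Ex_succ (A : LSys X L D) (T : ℕ) (g : (Fin (T + 1) → L) → ℝ) :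
    A.Ex (T + 1) g = ∑ l, A.q l * A.pexp T (A.tgt l) (fun w => g (Fin.cons l w)) := by
  unfold LSys.Ex
  rw [← Finset.sum_fiberwise univ A.src
    (fun l => A.q l * A.pexp T (A.tgt l) (fun w => g (Fin.cons l w)))]
  refine sum_congr rfl fun x _ => ?_
  rw [LSys.pexp, mul_sum]
  refine sum_congr rfl fun l _ => ?_
  have := (A.pi_pos' x).ne'
  field_simp

/-- expected number of bad events during the next `T` steps after the label `l` -/
noncomputable def LSys.U (A : LSys X L D) (b1 : L → ℝ) (b2 : L → L → ℝ) : ℕ → L → ℝ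
  | 0, _ => 0
  | T + 1, l => ∑ l' with A.src l' = A.tgt l, A.q l' / A.pi (A.tgt l) *
      (b1 l' + b2 l l' + A.U b1 b2 T l')

theorem LSys.U_nonneg (A : LSys X L D) (b1 : L → ℝ) (b2 : L → L → ℝ) (h1 : ∀ l, 0 ≤ b1 l)
    (h2 : ∀ l l', 0 ≤ b2 l l') (T : ℕ) (l : L) : 0 ≤ A.U b1 b2 T l := by
  induction T generalizing l with
  | zero => exact le_rfl
  | succ T ih =>
    unfold LSys.U
    refine sum_nonneg fun l' _ => mul_nonneg (div_nonneg (A.q_nonneg _) (A.pi_pos' _).le) ?_
    have := ih l'
    have := h1 l'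
    have := h2 l l'
    linarith

theorem LSys.sum_U (A : LSys X L D) (b1 : L → ℝ) (b2 : L → L → ℝ) (T : ℕ) :
    ∑ l, A.q l * A.U b1 b2 T l = T * (∑ l, A.q l * b1 l +
      ∑ l, ∑ l' with A.src l' = A.tgt l, A.q l * A.q l' / A.pi (A.tgt l) * b2 l l') := by
  classical
  induction T with
  | zero => simp [LSys.U]
  | succ T ih =>
    have h1 : ∑ l, A.q l * A.U b1 b2 (T + 1) l =
        (∑ l, ∑ l' with A.src l' = A.tgt l, A.q l * A.q l' / A.pi (A.tgt l) * b2 l l') +
        ∑ l, ∑ l' with A.src l' = A.tgt l,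
          A.q l / A.pi (A.src l') * (A.q l' * (b1 l' + A.U b1 b2 T l')) := by
      rw [← sum_add_distrib]
      refine sum_congr rfl fun l _ => ?_
      rw [LSys.U, mul_sum, ← sum_add_distrib]
      refine sum_congr rfl fun l' hl' => ?_
      rw [(mem_filter.1 hl').2]
      ring
    have h2 : ∑ l, ∑ l' with A.src l' = A.tgt l,
          A.q l / A.pi (A.src l') * (A.q l' * (b1 l' + A.U b1 b2 T l')) =
        ∑ l', A.q l' * (b1 l' + A.U b1 b2 T l') := by
      have e1 : ∀ l, ∑ l' with A.src l' = A.tgt l,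
          A.q l / A.pi (A.src l') * (A.q l' * (b1 l' + A.U b1 b2 T l')) =
          ∑ l', if A.tgt l = A.src l' then
            A.q l / A.pi (A.src l') * (A.q l' * (b1 l' + A.U b1 b2 T l')) else 0 := by
        intro l
        rw [sum_filter]
        refine sum_congr rfl fun l' _ => ?_
        simp only [eq_comm]
      simp only [e1]
      rw [sum_comm]
      refine sum_congr rfl fun l' _ => ?_
      rw [← sum_filter, ← sum_mul, ← sum_div, A.sum_tgt, div_self (A.pi_pos' _).ne', one_mul]
    rw [h1, h2]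
    simp only [mul_add, sum_add_distrib]
    rw [ih]
    push_cast
    ring

/-- pointwise lower bound after a given label -/
theorem LSys.pexp_lower (A : LSys X L D) (bad1 : L → Prop) [DecidablePred bad1]
    (bad2 : L → L → Prop) [∀ l, DecidablePred (bad2 l)] (c : ℝ) (hc : 0 ≤ c) (T : ℕ) (l : L)
    (g : (Fin T → L) → ℝ) (hg : ∀ w, 0 ≤ g w)
    (hgood : ∀ w : Fin T → L, (∀ t, ¬ bad1 (w t)) → (∀ t, 0 < A.q (w t)) →
      (∀ t t' : Fin T, (t' : ℕ) = t + 1 → A.src (w t') = A.tgt (w t) ∧ ¬ bad2 (w t) (w t')) →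
      (∀ t : Fin T, (t : ℕ) = 0 → A.src (w t) = A.tgt l ∧ ¬ bad2 l (w t)) →
      c ≤ g w) :
    (1 - A.U (fun l => if bad1 l then 1 else 0) (fun l l' => if bad2 l l' then 1 else 0) T l) * c
      ≤ A.pexp T (A.tgt l) g := by
  induction T generalizing l with
  | zero =>
    simp only [LSys.U, LSys.pexp, sub_zero, one_mul]
    exact hgood _ (fun t => t.elim0) (fun t => t.elim0) (fun t => t.elim0) (fun t => t.elim0)
  | succ T ih =>
    rw [LSys.U, LSys.pexp]
    set b1 : L → ℝ := fun l => if bad1 l then 1 else 0 with hb1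
    set b2 : L → L → ℝ := fun l l' => if bad2 l l' then 1 else 0 with hb2
    have hb1n : ∀ l, 0 ≤ b1 l := fun l => by simp only [hb1]; split_ifs <;> norm_num
    have hb2n : ∀ l l', 0 ≤ b2 l l' := fun l l' => by simp only [hb2]; split_ifs <;> norm_num
    have e : (1 - ∑ l' with A.src l' = A.tgt l, A.q l' / A.pi (A.tgt l) *
        (b1 l' + b2 l l' + A.U b1 b2 T l')) * c =
        ∑ l' with A.src l' = A.tgt l, A.q l' / A.pi (A.tgt l) *
          ((1 - (b1 l' + b2 l l' + A.U b1 b2 T l')) * c) := by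
      conv_lhs => rw [← A.sum_src_div (A.tgt l)]
      rw [← sum_sub_distrib, sum_mul]
      refine sum_congr rfl fun l' _ => ?_
      ring
    rw [e]
    refine sum_le_sum fun l' hl' => ?_
    have hsrc := (mem_filter.1 hl').2
    have hq := A.q_nonneg l'
    rcases hq.eq_or_lt with hq0 | hqp
    · rw [← hq0]; simp
    refine mul_le_mul_of_nonneg_left ?_ (div_nonneg hq (A.pi_pos' _).le)
    have hU := A.U_nonneg b1 b2 hb1n hb2n T l'
    have hnn := A.pexp_nonneg T (A.tgt l') (fun w => g (Fin.cons l' w)) (fun w => hg _)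
    by_cases h1 : bad1 l'
    · have e1 : b1 l' = 1 := by simp only [hb1, if_pos h1]
      have e2 := hb2n l l'
      refine le_trans ?_ hnn
      rw [e1]
      refine mul_nonpos_of_nonpos_of_nonneg (by linarith) hc
    by_cases h2 : bad2 l l'
    · have e1 : b2 l l' = 1 := by simp only [hb2, if_pos h2]
      have e2 := hb1n l'
      refine le_trans ?_ hnn
      rw [e1]
      refine mul_nonpos_of_nonpos_of_nonneg (by linarith) hc
    have e1 : b1 l' = 0 := by simp only [hb1, if_neg h1]
    have e2 : b2 l l' = 0 := by simp only [hb2, if_neg h2]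
    rw [e1, e2, zero_add, zero_add]
    refine ih l' _ (fun w => hg _) ?_
    intro w w1 w2 w3 w4
    refine hgood _ ?_ ?_ ?_ ?_
    · intro t
      refine Fin.cases ?_ (fun i => ?_) t
      · rw [Fin.cons_zero]; exact h1
      · rw [Fin.cons_succ]; exact w1 i
    · intro t
      refine Fin.cases ?_ (fun i => ?_) t
      · rw [Fin.cons_zero]; exact hqp
      · rw [Fin.cons_succ]; exact w2 i
    · intro t t'
      refine Fin.cases ?_ (fun i' => ?_) t'
      · intro h
        rw [Fin.val_zero] at h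
        omega
      · refine Fin.cases ?_ (fun i => ?_) t
        · intro h
          rw [Fin.cons_zero, Fin.cons_succ]
          refine w4 i' ?_
          rw [Fin.val_succ, Fin.val_zero] at h
          omega
        · intro h
          rw [Fin.cons_succ, Fin.cons_succ]
          refine w3 i i' ?_
          rw [Fin.val_succ, Fin.val_succ] at h
          omega
    · intro t
      refine Fin.cases ?_ (fun i => ?_) t
      · intro _
        rw [Fin.cons_zero]
        exact ⟨hsrc, h2⟩
      · intro h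
        rw [Fin.val_succ] at h
        omega

/-- Lower bound for the expectation of `g` when `g ≥ c` on good label paths: all labels are
not `bad1`, consecutive labels match and are not `bad2`. -/
theorem union_bound (A : LSys X L D) (T : ℕ) (hT : 1 ≤ T) (g : (Fin T → L) → ℝ)
    (hg : ∀ w, 0 ≤ g w) (c : ℝ) (hc : 0 ≤ c) (bad1 : L → Prop) [DecidablePred bad1]
    (bad2 : L → L → Prop) [∀ l, DecidablePred (bad2 l)]
    (hgood : ∀ w : Fin T → L, (∀ t, ¬ bad1 (w t)) → (∀ t, 0 < A.q (w t)) →
      (∀ t t' : Fin T, (t' : ℕ) = t + 1 → A.src (w t') = A.tgt (w t) ∧ ¬ bad2 (w t) (w t')) →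
      c ≤ g w) :
    (1 - T * (∑ l with bad1 l, A.q l) -
      T * (∑ l, ∑ l' with A.src l' = A.tgt l ∧ bad2 l l', A.q l * A.q l' / A.pi (A.tgt l))) * c ≤
      A.Ex T g := by
  obtain ⟨S, rfl⟩ : ∃ S, T = S + 1 := ⟨T - 1, by omega⟩
  rw [LSys.Ex_succ]
  set b1 : L → ℝ := fun l => if bad1 l then 1 else 0 with hb1
  set b2 : L → L → ℝ := fun l l' => if bad2 l l' then 1 else 0 with hb2
  have hb1n : ∀ l, 0 ≤ b1 l := fun l => by simp only [hb1]; split_ifs <;> norm_num
  have hb2n : ∀ l l', 0 ≤ b2 l l' := fun l l' => by simp only [hb2]; split_ifs <;> norm_num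
  set P1 : ℝ := ∑ l with bad1 l, A.q l with hP1
  set P2 : ℝ := ∑ l, ∑ l' with A.src l' = A.tgt l ∧ bad2 l l',
    A.q l * A.q l' / A.pi (A.tgt l) with hP2
  have e1 : ∑ l, A.q l * b1 l = P1 := by
    rw [hP1, sum_filter]
    refine sum_congr rfl fun l _ => ?_
    simp only [hb1]
    split_ifs <;> simp
  have e2 : ∑ l, ∑ l' with A.src l' = A.tgt l, A.q l * A.q l' / A.pi (A.tgt l) * b2 l l' = P2 := by
    rw [hP2]
    refine sum_congr rfl fun l _ => ?_
    rw [← filter_filter, sum_filter (fun l' => bad2 l l')]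
    refine sum_congr rfl fun l' _ => ?_
    simp only [hb2]
    split_ifs <;> simp
  have hP2n : 0 ≤ P2 := by
    rw [hP2]
    refine sum_nonneg fun l _ => sum_nonneg fun l' _ => ?_
    exact div_nonneg (mul_nonneg (A.q_nonneg _) (A.q_nonneg _)) (A.pi_pos' _).le
  have hU := A.sum_U b1 b2 S
  rw [e1, e2] at hU
  have key : ∑ l, A.q l * ((1 - b1 l - A.U b1 b2 S l) * c) ≤
      ∑ l, A.q l * A.pexp S (A.tgt l) (fun w => g (Fin.cons l w)) := by
    refine sum_le_sum fun l _ => ?_
    have hq := A.q_nonneg l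
    rcases hq.eq_or_lt with hq0 | hqp
    · rw [← hq0]; simp
    refine mul_le_mul_of_nonneg_left ?_ hq
    have hUn := A.U_nonneg b1 b2 hb1n hb2n S l
    have hnn := A.pexp_nonneg S (A.tgt l) (fun w => g (Fin.cons l w)) (fun w => hg _)
    by_cases h1 : bad1 l
    · have e1 : b1 l = 1 := by simp only [hb1, if_pos h1]
      refine le_trans ?_ hnn
      rw [e1]
      refine mul_nonpos_of_nonpos_of_nonneg (by linarith) hc
    have e1 : b1 l = 0 := by simp only [hb1, if_neg h1]
    rw [e1, sub_zero]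
    refine A.pexp_lower bad1 bad2 c hc S l _ (fun w => hg _) ?_
    intro w w1 w2 w3 w4
    refine hgood _ ?_ ?_ ?_
    · intro t
      refine Fin.cases ?_ (fun i => ?_) t
      · rw [Fin.cons_zero]; exact h1
      · rw [Fin.cons_succ]; exact w1 i
    · intro t
      refine Fin.cases ?_ (fun i => ?_) t
      · rw [Fin.cons_zero]; exact hqp
      · rw [Fin.cons_succ]; exact w2 i
    · intro t t'
      refine Fin.cases ?_ (fun i' => ?_) t'
      · intro h
        rw [Fin.val_zero] at h
        omega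
      · refine Fin.cases ?_ (fun i => ?_) t
        · intro h
          rw [Fin.cons_zero, Fin.cons_succ]
          refine w4 i' ?_
          rw [Fin.val_succ, Fin.val_zero] at h
          omega
        · intro h
          rw [Fin.cons_succ, Fin.cons_succ]
          refine w3 i i' ?_
          rw [Fin.val_succ, Fin.val_succ] at h
          omega
  refine le_trans ?_ key
  have e3 : ∑ l, A.q l * ((1 - b1 l - A.U b1 b2 S l) * c) =
      (1 - P1 - S * (P1 + P2)) * c := by
    have e4 : ∑ l, A.q l * ((1 - b1 l - A.U b1 b2 S l) * c) =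
        (∑ l, A.q l - ∑ l, A.q l * b1 l - ∑ l, A.q l * A.U b1 b2 S l) * c := by
      rw [← sum_sub_distrib, ← sum_sub_distrib, sum_mul]
      refine sum_congr rfl fun l _ => ?_
      ring
    rw [e4, A.sum_q, e1, hU]
  rw [e3]
  refine mul_le_mul_of_nonneg_right ?_ hc
  push_cast
  linarith

end Vale.Agent.P125
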