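import Vale.Agent.Lib.P125.Defs

/-! # P125, module PATHREL: label paths in the tuple system give good configurations.

Setup: `d ≥ 1`, `H = 2d` half-edges, `m = 2κ`, tuples `z : Fin M → ℕ` with `M = 2 * H * (κ+1)`,
strictly increasing.  Half-edge `h < 2d` of `z` carries the sequence
`s_q = z (aidx H h (q + tb d h))`, `q < m`.
An edge joins a half-edge `h` of `z` with a half-edge `g` of `z'` of the opposite type with the same
sequence.  A path: `z_0, h_1, g_1, z_1, h_2, g_2, z_2, …, z_T` with `g_t ≠ h_{t+1}`.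
Offsets: `o_1 = tb d g_1`,
`o_{t+1} = o_t - tb d g_t + e_t + 1 - tb d g_{t+1}`, `e_t = 1` if `g_t < h_{t+1}`, else `-1`.
Relation at `z_t` between incoming index `j` of `g = g_t` and outgoing index `j'` of `h = h_{t+1}`
(`α_g j = z (aidx H g j)`):
* `j = j' + e`, `j` even: `α_h j' < α_g j`;  `j` odd: `α_g j < α_h j'`;
* `j + 1 = j' + e`: `α_g j < α_h j'`;  `j = j' + e + 1`: `α_h j' < α_g j`.
All these are inequalities between the indices `aidx`. -/

namespace Vale.Agent.P125

open Finset

/-- the sequence carried by the half-edge `h` of the tuple `z` -/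
def hseq (d κ : ℕ) (z : ℕ → ℕ) (h : ℕ) : Fin (2 * κ) → ℕ :=
  fun q => z (aidx (2 * d) h (q + tb d h))

theorem tb_le (d h : ℕ) : tb d h ≤ 1 := by
  unfold tb; split_ifs <;> omega

theorem aidx_even (H h c : ℕ) : aidx H h (2 * c) = c * (2 * H) + 2 * h := by
  unfold aidx
  rw [Nat.mul_div_cancel_left c (by norm_num), Nat.mul_mod_right]
  ring

theorem aidx_odd (H h c : ℕ) : aidx H h (2 * c + 1) = c * (2 * H) + 2 * h + 1 := by
  unfold aidx
  have h1 : (2 * c + 1) / 2 = c := by omega
  have h2 : (2 * c + 1) % 2 = 1 := by omega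
  rw [h1, h2]

theorem aidx_lt (d κ h q : ℕ) (hh : h < 2 * d) (hq : q < 2 * κ) :
    aidx (2 * d) h (q + tb d h) < 2 * (2 * d) * (κ + 1) := by
  have h1 := tb_le d h
  obtain ⟨j, hj⟩ : ∃ j, j = q + tb d h := ⟨_, rfl⟩
  rw [← hj]
  have hj2 : j ≤ 2 * κ := by omega
  rcases Nat.even_or_odd' j with ⟨c, rfl | rfl⟩
  · rw [aidx_even]
    have hc : c ≤ κ := by omega
    have h2 : c * (2 * (2 * d)) ≤ κ * (2 * (2 * d)) := Nat.mul_le_mul_right _ hc
    calc c * (2 * (2 * d)) + 2 * h ≤ κ * (2 * (2 * d)) + 2 * h := by omega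
      _ < κ * (2 * (2 * d)) + 2 * (2 * d) := by omega
      _ = 2 * (2 * d) * (κ + 1) := by ring
  · rw [aidx_odd]
    have hc : c ≤ κ := by omega
    have h2 : c * (2 * (2 * d)) ≤ κ * (2 * (2 * d)) := Nat.mul_le_mul_right _ hc
    calc c * (2 * (2 * d)) + 2 * h + 1 ≤ κ * (2 * (2 * d)) + 2 * h + 1 := by omega
      _ < κ * (2 * (2 * d)) + 2 * (2 * d) := by omega
      _ = 2 * (2 * d) * (κ + 1) := by ring

theorem aidx_strictMono (H h : ℕ) (hh : h < H) : StrictMono (aidx H h) := by
  refine strictMono_nat_of_lt_succ fun j => ?_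
  rcases Nat.even_or_odd' j with ⟨c, rfl | rfl⟩
  · rw [aidx_even, aidx_odd]; omega
  · have : 2 * c + 1 + 1 = 2 * (c + 1) := by ring
    rw [this, aidx_odd, aidx_even]
    have : (c + 1) * (2 * H) = c * (2 * H) + 2 * H := by ring
    omega

/-- comparison of the positions of two half-edges -/
theorem aidx_rel (H g h j j' : ℕ) (hg : g < H) (hh : h < H) (hne : g ≠ h) :
    ((j : ℤ) = j' + (if g < h then 1 else -1) → Even j → aidx H h j' < aidx H g j) ∧
    ((j : ℤ) = j' + (if g < h then 1 else -1) → ¬ Even j → aidx H g j < aidx H h j') ∧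
    ((j : ℤ) + 1 = j' + (if g < h then 1 else -1) → aidx H g j < aidx H h j') ∧
    ((j : ℤ) = j' + (if g < h then 1 else -1) + 1 → aidx H h j' < aidx H g j) := by
  have key : ∀ c : ℕ, (c + 1) * (2 * H) = c * (2 * H) + 2 * H := fun c => by ring
  by_cases hgh : g < h
  · rw [if_pos hgh]
    rcases Nat.even_or_odd' j' with ⟨c, hc | hc⟩
    · refine ⟨fun h1 h2 => ?_, fun h1 _ => ?_, fun h1 => ?_, fun h1 => ?_⟩
      · exfalso
        have : j = 2 * c + 1 := by omega
        rw [this] at h2
        exact (Nat.not_even_iff_odd.2 ⟨c, rfl⟩) h2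
      · have : j = 2 * c + 1 := by omega
        rw [this, hc, aidx_odd, aidx_even]; omega
      · have : j = 2 * c := by omega
        rw [this, hc, aidx_even, aidx_even]; omega
      · have : j = 2 * (c + 1) := by omega
        rw [this, hc, aidx_even, aidx_even, key]; omega
    · refine ⟨fun h1 _ => ?_, fun h1 h2 => ?_, fun h1 => ?_, fun h1 => ?_⟩
      · have : j = 2 * (c + 1) := by omega
        rw [this, hc, aidx_odd, aidx_even, key]; omega
      · exfalso
        have : j = 2 * (c + 1) := by omega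
        exact h2 ⟨c + 1, by omega⟩
      · have : j = 2 * c + 1 := by omega
        rw [this, hc, aidx_odd, aidx_odd]; omega
      · have : j = 2 * (c + 1) + 1 := by omega
        rw [this, hc, aidx_odd, aidx_odd, key]; omega
  · rw [if_neg hgh]
    have hhg : h < g := by omega
    rcases Nat.even_or_odd' j with ⟨c, hc | hc⟩
    · refine ⟨fun h1 _ => ?_, fun h1 h2 => ?_, fun h1 => ?_, fun h1 => ?_⟩
      · have : j' = 2 * c + 1 := by omega
        rw [this, hc, aidx_odd, aidx_even]; omega
      · exact absurd ⟨c, by omega⟩ h2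
      · have : j' = 2 * (c + 1) := by omega
        rw [this, hc, aidx_even, aidx_even, key]; omega
      · have : j' = 2 * c := by omega
        rw [this, hc, aidx_even, aidx_even]; omega
    · refine ⟨fun h1 h2 => ?_, fun h1 _ => ?_, fun h1 => ?_, fun h1 => ?_⟩
      · exfalso
        rw [hc] at h2
        exact (Nat.not_even_iff_odd.2 ⟨c, rfl⟩) h2
      · have : j' = 2 * (c + 1) := by omega
        rw [this, hc, aidx_odd, aidx_even, key]; omega
      · have : j' = 2 * (c + 1) + 1 := by omega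
        rw [this, hc, aidx_odd, aidx_odd, key]; omega
      · have : j' = 2 * c + 1 := by omega
        rw [this, hc, aidx_odd, aidx_odd]; omega

/-- offsets -/
def offs (d : ℕ) (g h : ℕ → ℕ) : ℕ → ℤ
  | 0 => tb d (g 0)
  | t + 1 => offs d g h t - tb d (g t) + (if g t < h (t + 1) then 1 else -1) + 1 -
      tb d (g (t + 1))

theorem offs_inv (d : ℕ) (g h : ℕ → ℕ) (t : ℕ) :
    Even (offs d g h t - tb d (g t)) ∧ |offs d g h t - tb d (g t)| ≤ 2 * t := by
  induction t with
  | zero => simp [offs]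
  | succ t ih =>
    obtain ⟨⟨a, ha⟩, h2⟩ := ih
    have e : offs d g h (t + 1) - tb d (g (t + 1)) = (offs d g h t - tb d (g t)) +
        ((if g t < h (t + 1) then 1 else -1) + 1) - 2 * (tb d (g (t + 1)) : ℤ) := by
      simp only [offs]; ring
    have h3 : tb d (g (t + 1)) = 0 ∨ tb d (g (t + 1)) = 1 := by
      have := tb_le d (g (t + 1)); omega
    have h4 := abs_le.1 h2
    rw [e]
    push_cast
    split_ifs <;> rcases h3 with h3 | h3 <;> rw [h3]
    · exact ⟨⟨a + 1, by push_cast; omega⟩, abs_le.2 ⟨by push_cast; omega, by push_cast; omega⟩⟩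
    · exact ⟨⟨a, by push_cast; omega⟩, abs_le.2 ⟨by push_cast; omega, by push_cast; omega⟩⟩
    · exact ⟨⟨a, by push_cast; omega⟩, abs_le.2 ⟨by push_cast; omega, by push_cast; omega⟩⟩
    · exact ⟨⟨a - 1, by push_cast; omega⟩, abs_le.2 ⟨by push_cast; omega, by push_cast; omega⟩⟩

/-- Label paths give good configurations.  `z t` is the tuple of the vertex reached after step `t`
(through its half-edge `g t`), the step `t` leaves the previous vertex through `h t`. -/
theorem goodPath_of_path (d κ T : ℕ) (hd : 1 ≤ d) (z : Fin T → ℕ → ℕ)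
    (hz : ∀ t, StrictMonoOn (z t) (Set.Iio (2 * (2 * d) * (κ + 1))))
    (g h : Fin T → ℕ) (hg : ∀ t, g t < 2 * d) (hh : ∀ t, h t < 2 * d)
    (htype : ∀ t, tb d (g t) + tb d (h t) = 1)
    (hmatch : ∀ t t' : Fin T, (t' : ℕ) = t + 1 → hseq d κ (z t) (h t') = hseq d κ (z t') (g t'))
    (hne : ∀ t t' : Fin T, (t' : ℕ) = t + 1 → g t ≠ h t') :
    ∃ o : Fin T → ℤ, GoodPath (2 * κ) T (fun t => hseq d κ (z t) (g t)) o ∧
      ∀ t, Even (o t - tb d (g t)) := by
  classical
  let G : ℕ → ℕ := fun t => if ht : t < T then g ⟨t, ht⟩ else 0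
  let Hh : ℕ → ℕ := fun t => if ht : t < T then h ⟨t, ht⟩ else 0
  have hG : ∀ t : Fin T, G t = g t := fun t => by simp [G]
  have hH : ∀ t : Fin T, Hh t = h t := fun t => by simp [Hh]
  have inv : ∀ t : Fin T, Even (offs d G Hh t - tb d (g t)) ∧
      |offs d G Hh t - tb d (g t)| ≤ 2 * (t : ℕ) := by
    intro t
    have := offs_inv d G Hh t
    rw [hG] at this
    exact this
  have step : ∀ t t' : Fin T, (t' : ℕ) = t + 1 → offs d G Hh t' = offs d G Hh t - tb d (g t) +
      (if g t < h t' then 1 else -1) + 1 - tb d (g t') := by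
    intro t t' htt
    have h1 : offs d G Hh t' = offs d G Hh ((t : ℕ) + 1) := by rw [htt]
    rw [h1]
    simp only [offs]
    rw [← htt, hG, hG, hH]
  -- the four comparisons
  have comp : ∀ t t' : Fin T, (t' : ℕ) = t + 1 → ∀ q q' : Fin (2 * κ),
      (((q : ℤ) + offs d G Hh t = q' + offs d G Hh t' → Even ((q : ℤ) + offs d G Hh t) →
        hseq d κ (z t') (g t') q' < hseq d κ (z t) (g t) q) ∧
      ((q : ℤ) + offs d G Hh t = q' + offs d G Hh t' → ¬ Even ((q : ℤ) + offs d G Hh t) →
        hseq d κ (z t) (g t) q < hseq d κ (z t') (g t') q') ∧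
      ((q : ℤ) + offs d G Hh t + 1 = q' + offs d G Hh t' →
        hseq d κ (z t) (g t) q < hseq d κ (z t') (g t') q') ∧
      ((q : ℤ) + offs d G Hh t = q' + offs d G Hh t' + 1 →
        hseq d κ (z t') (g t') q' < hseq d κ (z t) (g t) q)) := by
    intro t t' htt q q'
    rw [← hmatch t t' htt]
    have hR := aidx_rel (2 * d) (g t) (h t') (q + tb d (g t)) (q' + tb d (h t')) (hg t) (hh t')
      (hne t t' htt)
    have hst := step t t' htt
    have hty := htype t'
    have hty' : (tb d (h t') : ℤ) = 1 - tb d (g t') := by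
      have : ((tb d (g t') + tb d (h t') : ℕ) : ℤ) = 1 := by rw [hty]; rfl
      push_cast at this
      linarith
    have m1 : ∀ a b : ℕ, a < 2 * (2 * d) * (κ + 1) → b < 2 * (2 * d) * (κ + 1) → a < b →
        z t a < z t b := fun a b ha hb hab => hz t ha hb hab
    have b1 := aidx_lt d κ (g t) q (hg t) q.2
    have b2 := aidx_lt d κ (h t') q' (hh t') q'.2
    have hev : Even ((q : ℤ) + offs d G Hh t) ↔ Even (q + tb d (g t) : ℕ) := by
      have e1 : (q : ℤ) + offs d G Hh t =
          ((q + tb d (g t) : ℕ) : ℤ) + (offs d G Hh t - tb d (g t)) := by push_cast; ring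
      rw [e1, Int.even_add]
      constructor
      · intro h3
        exact_mod_cast h3.2 (inv t).1
      · intro h3
        exact ⟨fun _ => (inv t).1, fun _ => by exact_mod_cast h3⟩
    refine ⟨fun e1 e2 => ?_, fun e1 e2 => ?_, fun e1 => ?_, fun e1 => ?_⟩
    · refine m1 _ _ b2 b1 (hR.1 ?_ (hev.1 e2))
      push_cast
      rw [hst] at e1
      linarith
    · refine m1 _ _ b1 b2 (hR.2.1 ?_ (fun h3 => e2 (hev.2 h3)))
      push_cast
      rw [hst] at e1
      linarith
    · refine m1 _ _ b1 b2 (hR.2.2.1 ?_)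
      push_cast
      rw [hst] at e1
      linarith
    · refine m1 _ _ b2 b1 (hR.2.2.2 ?_)
      push_cast
      rw [hst] at e1
      linarith
  refine ⟨fun t => offs d G Hh t, ⟨?_, ?_, ?_, ?_, ?_, ?_⟩, fun t => (inv t).1⟩
  · intro t q q' hqq
    refine hz t (aidx_lt d κ (g t) q (hg t) q.2) (aidx_lt d κ (g t) q' (hg t) q'.2) ?_
    exact aidx_strictMono (2 * d) (g t) (hg t) (by have : (q : ℕ) < q' := hqq; omega)
  · intro t
    have h1 := abs_le.1 (inv t).2
    have h2 := tb_le d (g t)
    have h3 := t.2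
    exact abs_le.2 ⟨by omega, by omega⟩
  · exact fun t t' htt q q' => (comp t t' htt q q').1
  · exact fun t t' htt q q' => (comp t t' htt q q').2.1
  · exact fun t t' htt q q' => (comp t t' htt q q').2.2.1
  · exact fun t t' htt q q' => (comp t t' htt q q').2.2.2

end Vale.Agent.P125
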