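import Vale.Agent.Lib.P125.Law
import Vale.Agent.Lib.P125.Cover
import Vale.Agent.Lib.P125.PathProb
import Vale.Agent.Lib.P125.PathRel
import Vale.Agent.Lib.P125.Matching

/-! # P125, module CHAIN: construction of the labelled system and the main inequality.

Take `d = 2T`, `H = 2d`, `M = 2 H (κ+1)`, `m = 2κ`, patterns `κ_h q = aidx H h (q + tb d h)`
(`h : Fin (2d)`), a law `(w_i, z_i)_{i<r}` from `exists_law` with `ε = 1/(4T)`.
The system is the one of `Matching.lean`.
Good label paths give good configurations (`goodPath_of_path`) with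
`∑_t E (F (l_t)) = Gvec s o` (sign: a step entering through `g` has
`F = ∑_q (-1)^(q + tb d g) δ_{s_q}`, and `o t ≡ tb d (g t)` mod 2). -/

namespace Vale.Agent.P125

open Finset

theorem sgn_add (q : ℕ) (o : ℤ) (b : ℕ) (h : Even (o - b)) :
    sgn ((q : ℤ) + o) = (-1 : ℝ) ^ (q + b) := by
  have h1 : Even ((q : ℤ) + o) ↔ Even (q + b) := by
    have h2 : (q : ℤ) + o = ((q + b : ℕ) : ℤ) + (o - b) := by push_cast; ring
    rw [h2, Int.even_add]
    constructor
    · intro h3
      exact_mod_cast h3.2 h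
    · intro h3
      exact ⟨fun _ => h, fun _ => by exact_mod_cast h3⟩
  unfold sgn
  split_ifs with h3
  · rw [(h1.1 h3).neg_one_pow]
  · have h4 : ¬ Even (q + b) := fun h => h3 (h1.2 h)
    rw [(Nat.not_even_iff_odd.1 h4).neg_one_pow]

/-- embedding of integer vectors -/
noncomputable def Emb (D : ℕ) : (Fin D → ℤ) →+ V where
  toFun v := ∑ y : Fin D, Finsupp.single (y : ℕ) ((v y : ℤ) : ℝ)
  map_zero' := by simp
  map_add' a b := by
    simp only [Pi.add_apply, Int.cast_add, Finsupp.single_add, sum_add_distrib]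

/-- integer flip vector of a sequence -/
def Fv {m D : ℕ} (s : Fin m → Fin D) : Fin D → ℤ :=
  fun y => ∑ q : Fin m, if s q = y then (-1 : ℤ) ^ (q : ℕ) else 0

theorem Emb_Fv {m D : ℕ} (s : Fin m → Fin D) :
    Emb D (Fv s) = alt (fun q => (s q : ℕ)) := by
  show ∑ y : Fin D, Finsupp.single (y : ℕ) (((Fv s y : ℤ)) : ℝ) = _
  unfold Fv alt
  have h : ∀ y : Fin D, Finsupp.single (y : ℕ)
      (((∑ q : Fin m, if s q = y then (-1 : ℤ) ^ (q : ℕ) else 0 : ℤ)) : ℝ) =
      ∑ q : Fin m, if s q = y then Finsupp.single (s q : ℕ) ((-1 : ℝ) ^ (q : ℕ)) else 0 := by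
    intro y
    rw [Int.cast_sum]
    show Finsupp.singleAddHom (y : ℕ) _ = _
    rw [map_sum]
    refine sum_congr rfl fun q _ => ?_
    rw [Finsupp.singleAddHom_apply]
    split_ifs with h
    · rw [h]; push_cast; rfl
    · simp
  rw [sum_congr rfl fun y _ => h y, sum_comm]
  refine sum_congr rfl fun q _ => ?_
  simp

theorem chain_ineq (p K : ℝ) (hp : 0 < p) (hK : 0 ≤ K) (N : Seminorm ℝ V)
    (hMT : MT p K (fun v => N v)) (T κ : ℕ) (hT : 1 ≤ T) (hκ : 1 ≤ κ) (b Lb : ℝ) (hb : 0 ≤ b)
    (hLb : 0 ≤ Lb) (h1 : ∀ s : Fin (2 * κ) → ℕ, StrictMono s → N (alt s) ≤ b)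
    (h2 : ∀ (s : Fin T → Fin (2 * κ) → ℕ) (o : Fin T → ℤ), GoodPath (2 * κ) T s o →
      Lb ≤ N (Gvec s o)) :
    Lb ^ p / 2 ≤ K ^ p * T * b ^ p := by
  classical
  obtain ⟨d, hd⟩ : ∃ d, d = 2 * T := ⟨_, rfl⟩
  have hd0 : 0 < d := by omega
  have hT' : (0 : ℝ) < T := by exact_mod_cast hT
  obtain ⟨M, hM⟩ : ∃ M, M = 2 * (2 * d) * (κ + 1) := ⟨_, rfl⟩
  have hidx : ∀ h q, h < 2 * d → q < 2 * κ → aidx (2 * d) h (q + tb d h) < M := by
    intro h q hh hq
    rw [hM]
    exact aidx_lt d κ h q hh hq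
  let kp : Fin (2 * d) → Fin (2 * κ) → Fin M :=
    fun h q => ⟨aidx (2 * d) h (q + tb d h), hidx h q h.2 q.2⟩
  have hkp : ∀ h, StrictMono (kp h) := by
    intro h q q' hqq
    show aidx (2 * d) h (q + tb d h) < aidx (2 * d) h (q' + tb d h)
    exact aidx_strictMono (2 * d) h h.2 (by have : (q : ℕ) < q' := hqq; omega)
  obtain ⟨r, w, z0, hw, hw1, hz0, hlaw⟩ := exists_law (2 * κ) M kp hkp (1 / (4 * T))
    (by positivity)
  obtain ⟨D, hD⟩ : ∃ D, D = (∑ i, ∑ n, z0 i n) + 1 := ⟨_, rfl⟩
  have hzD : ∀ i n, z0 i n < D := by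
    intro i n
    rw [hD]
    have a1 : z0 i n ≤ ∑ n, z0 i n := single_le_sum (f := fun n => z0 i n)
      (fun _ _ => Nat.zero_le _) (mem_univ n)
    have a2 : ∑ n, z0 i n ≤ ∑ i, ∑ n, z0 i n := single_le_sum (f := fun i => ∑ n, z0 i n)
      (fun _ _ => Nat.zero_le _) (mem_univ i)
    omega
  have hD0 : 0 < D := by omega
  let zD : Fin r → ℕ → Fin D := fun i n =>
    if h : n < M then ⟨z0 i ⟨n, h⟩, hzD i ⟨n, h⟩⟩ else ⟨0, hD0⟩
  have zDval : ∀ i n (h : n < M), ((zD i n : Fin D) : ℕ) = z0 i ⟨n, h⟩ := by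
    intro i n h
    show ((if h : n < M then (⟨z0 i ⟨n, h⟩, hzD i ⟨n, h⟩⟩ : Fin D) else ⟨0, hD0⟩ : Fin D) : ℕ) = _
    rw [dif_pos h]
  have zDmono : ∀ i, StrictMonoOn (fun n => ((zD i n : Fin D) : ℕ)) (Set.Iio M) := by
    intro i a ha b hb hab
    show ((zD i a : Fin D) : ℕ) < (zD i b : Fin D)
    rw [zDval i a ha, zDval i b hb]
    exact hz0 i hab
  let sF : Fin r → ℕ → (Fin (2 * κ) → Fin D) := fun i h q => zD i (aidx (2 * d) h (q + tb d h))
  let sa : Fin r → Fin d → (Fin (2 * κ) → Fin D) := fun i j => sF i (d + j)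
  let sb : Fin r → Fin d → (Fin (2 * κ) → Fin D) := fun i j => sF i j
  have hsF : ∀ i h, hseq d κ (fun n => ((zD i n : Fin D) : ℕ)) h =
      fun q => ((sF i h q : Fin D) : ℕ) := fun i h => rfl
  have hsFmono : ∀ i h, h < 2 * d → StrictMono (fun q => ((sF i h q : Fin D) : ℕ)) := by
    intro i h hh q q' hqq
    apply zDmono i (hidx h q hh q.2) (hidx h q' hh q'.2)
    exact aidx_strictMono (2 * d) h hh (by have : (q : ℕ) < q' := hqq; omega)
  have hlaw' : ∀ (j j' : Fin d) (φ : (Fin (2 * κ) → Fin D) → ℝ), (∀ s, |φ s| ≤ 1) →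
      |∑ i, w i * (φ (sa i j) - φ (sb i j'))| ≤ 1 / (4 * T) := by
    intro j j' φ hφ
    have hj : d + (j : ℕ) < 2 * d := by have := j.2; omega
    have hj' : (j' : ℕ) < 2 * d := by have := j'.2; omega
    have := hlaw ⟨d + j, hj⟩ ⟨j', hj'⟩
      (fun s => if h : ∀ q, s q < D then φ (fun q => ⟨s q, h q⟩) else 0) (by
        intro s
        split_ifs
        · exact hφ _
        · simp)
    have e : ∀ (i : Fin r) (h : ℕ) (hh : h < 2 * d),
        (if h' : ∀ q, (z0 i ∘ kp ⟨h, hh⟩) q < D then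
          φ (fun q => ⟨(z0 i ∘ kp ⟨h, hh⟩) q, h' q⟩) else 0) = φ (sF i h) := by
      intro i h hh
      have hall : ∀ q, (z0 i ∘ kp ⟨h, hh⟩) q < D := fun q => hzD _ _
      rw [dif_pos hall]
      congr 1
      funext q
      apply Fin.ext
      show z0 i (kp ⟨h, hh⟩ q) = ((zD i (aidx (2 * d) h (q + tb d h)) : Fin D) : ℕ)
      rw [zDval i _ (hidx h q hh q.2)]
    simp only [e] at this
    exact this
  let A := Mt.sys w sa sb (fun s => Fv s) hw hw1 hd0
  have hcov := cover A p K hp (fun v => N v) (fun y => apply_nonneg N y) (map_zero N) hMT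
    (Emb D) T hT
  -- norms of the labels
  have hF : ∀ l, N (Emb D (A.F l)) ≤ b := by
    rintro (x | ⟨i, j, i', j', (_ | _)⟩)
    · show N (Emb D 0) ≤ b
      rw [map_zero, map_zero]; exact hb
    · show N (Emb D (Fv (sa i j))) ≤ b
      rw [Emb_Fv]
      exact h1 _ (hsFmono i (d + j) (by have := j.2; omega))
    · show N (Emb D (- Fv (sa i j))) ≤ b
      rw [map_neg, map_neg_eq_map, Emb_Fv]
      exact h1 _ (hsFmono i (d + j) (by have := j.2; omega))
  have hR : ∑ l, A.q l * N (Emb D (A.F l)) ^ p ≤ b ^ p := by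
    calc ∑ l, A.q l * N (Emb D (A.F l)) ^ p ≤ ∑ l, A.q l * b ^ p :=
          sum_le_sum fun l _ => mul_le_mul_of_nonneg_left
            (Real.rpow_le_rpow (apply_nonneg _ _) (hF l) hp.le) (A.q_nonneg l)
      _ = b ^ p := by rw [← sum_mul, A.sum_q, one_mul]
  have hub := union_bound A T hT (fun w => N (Emb D (∑ t, A.F (w t))) ^ p)
    (fun w => Real.rpow_nonneg (apply_nonneg _ _) _) (Lb ^ p) (Real.rpow_nonneg hLb _)
    (fun l => l.isLeft = true) (fun l l' => Mt.hsrc l' = Mt.htgt l ∧ l'.isRight = true) (by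
      intro ww hne1 hq hcons
      refine Real.rpow_le_rpow hLb ?_ hp.le
      have hright : ∀ t, ∃ i j i' j' o, ww t = Sum.inr (i, j, i', j', o) := by
        intro t
        have := hne1 t
        rcases h : ww t with (x | ⟨i, j, i', j', o⟩)
        · rw [h] at this; exact absurd rfl this
        · exact ⟨i, j, i', j', o, rfl⟩
      -- matched sequences
      have hmt : ∀ i j i' j' o, 0 < A.q (Sum.inr (i, j, i', j', o)) → sa i j = sb i' j' := by
        intro i j i' j' o hpos
        by_contra hne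
        have : A.q (Sum.inr (i, j, i', j', o)) = 0 := by
          show Mt.cond w sa sb i j i' j' = 0
          unfold Mt.cond
          rw [if_neg hne]
        linarith
      have htgt : ∀ l : Mt.Lb r d, 0 < A.q l → ∀ i j i' j' o, l = Sum.inr (i, j, i', j', o) →
          sF (Mt.tgtf l) (Mt.htgt l) = sa i j := by
        intro l hl i j i' j' o hlo
        subst hlo
        rcases o with (_ | _)
        · rfl
        · exact (hmt i j i' j' true hl).symm
      have hsrc : ∀ l : Mt.Lb r d, 0 < A.q l → ∀ i j i' j' o, l = Sum.inr (i, j, i', j', o) →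
          sF (Mt.srcf l) (Mt.hsrc l) = sa i j := by
        intro l hl i j i' j' o hlo
        subst hlo
        rcases o with (_ | _)
        · exact (hmt i j i' j' false hl).symm
        · rfl
      obtain ⟨o, hgp, hev⟩ := goodPath_of_path d κ T (by omega)
        (fun t n => ((zD (Mt.tgtf (ww t)) n : Fin D) : ℕ))
        (fun t => by rw [← hM]; exact zDmono _)
        (fun t => Mt.htgt (ww t)) (fun t => Mt.hsrc (ww t))
        (by
          intro t
          obtain ⟨i, j, i', j', (_ | _), e⟩ := hright t <;> rw [e]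
          · show d + (j : ℕ) < 2 * d
            have := j.2; omega
          · show (j' : ℕ) < 2 * d
            have := j'.2; omega)
        (by
          intro t
          obtain ⟨i, j, i', j', (_ | _), e⟩ := hright t <;> rw [e]
          · show (j' : ℕ) < 2 * d
            have := j'.2; omega
          · show d + (j : ℕ) < 2 * d
            have := j.2; omega)
        (by
          intro t
          obtain ⟨i, j, i', j', (_ | _), e⟩ := hright t <;> rw [e]
          · show tb d (d + (j : ℕ)) + tb d (j' : ℕ) = 1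
            unfold tb
            have := j'.2
            rw [if_neg (by omega), if_pos this]
          · show tb d (j' : ℕ) + tb d (d + (j : ℕ)) = 1
            unfold tb
            have := j'.2
            rw [if_neg (by omega : ¬ d + (j : ℕ) < d), if_pos this])
        (by
          intro t t' htt
          have hc := (hcons t t' htt).1
          have hc' : Mt.srcf (ww t') = Mt.tgtf (ww t) := hc
          obtain ⟨i, j, i', j', o, e⟩ := hright t'
          have e1 := hsrc (ww t') (hq t') i j i' j' o e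
          have e2 := htgt (ww t') (hq t') i j i' j' o e
          show (fun q => ((sF (Mt.tgtf (ww t)) (Mt.hsrc (ww t')) q : Fin D) : ℕ)) =
            fun q => ((sF (Mt.tgtf (ww t')) (Mt.htgt (ww t')) q : Fin D) : ℕ)
          rw [← hc', e1, e2])
        (by
          intro t t' htt hcontra
          apply (hcons t t' htt).2
          refine ⟨hcontra.symm, ?_⟩
          obtain ⟨i, j, i', j', o, e⟩ := hright t'
          rw [e]; rfl)
      have hfin := h2 _ o hgp
      have hEG : Emb D (∑ t, A.F (ww t)) =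
          Gvec (fun t => hseq d κ (fun n => ((zD (Mt.tgtf (ww t)) n : Fin D) : ℕ))
            (Mt.htgt (ww t))) o := by
        rw [map_sum]
        unfold Gvec
        refine sum_congr rfl fun t _ => ?_
        obtain ⟨i, j, i', j', (_ | _), e⟩ := hright t
        · have e2 := htgt (ww t) (hq t) i j i' j' false e
          have hev' := hev t
          have e3 : Mt.htgt (ww t) = d + (j : ℕ) := by rw [e]; rfl
          have e4 : tb d (Mt.htgt (ww t)) = 0 := by
            rw [e3]; unfold tb; rw [if_neg (by omega)]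
          rw [e4] at hev'
          have e5 : A.F (ww t) = Fv (sa i j) := by rw [e]; rfl
          rw [e5, Emb_Fv]
          unfold alt
          refine sum_congr rfl fun q _ => ?_
          rw [sgn_add q (o t) 0 hev']
          show _ = Finsupp.single ((sF (Mt.tgtf (ww t)) (Mt.htgt (ww t)) q : Fin D) : ℕ) _
          rw [e2, add_zero]
        · have e2 := htgt (ww t) (hq t) i j i' j' true e
          have hev' := hev t
          have e3 : Mt.htgt (ww t) = (j' : ℕ) := by rw [e]; rfl
          have e4 : tb d (Mt.htgt (ww t)) = 1 := by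
            rw [e3]; unfold tb; rw [if_pos j'.2]
          rw [e4] at hev'
          have e5 : A.F (ww t) = - Fv (sa i j) := by rw [e]; rfl
          rw [e5, map_neg, Emb_Fv]
          unfold alt
          rw [← sum_neg_distrib]
          refine sum_congr rfl fun q _ => ?_
          rw [sgn_add q (o t) 1 hev']
          show _ = Finsupp.single ((sF (Mt.tgtf (ww t)) (Mt.htgt (ww t)) q : Fin D) : ℕ) _
          rw [e2, pow_succ, mul_neg_one, Finsupp.single_neg]
      rw [hEG]
      exact hfin)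
  have hl := Mt.loops_le w sa sb (fun s => Fv s) hw hw1 hd0 (1 / (4 * T)) hlaw'
  have hbk := Mt.back_le w sa sb (fun s => Fv s) hw hw1 hd0
  have hLp : 0 ≤ Lb ^ p := Real.rpow_nonneg hLb _
  have hbk' : ∑ l, ∑ l' with A.src l' = A.tgt l ∧ (Mt.hsrc l' = Mt.htgt l ∧ l'.isRight = true),
      A.q l * A.q l' / A.pi (A.tgt l) ≤ 1 / (4 * T) := by
    refine hbk.trans (le_of_eq ?_)
    rw [hd]; push_cast; ring
  have hl' : ∑ l with l.isLeft = true, A.q l ≤ 1 / (4 * T) := hl
  have hhalf : (1 : ℝ) / 2 ≤ 1 - T * (∑ l with l.isLeft = true, A.q l) -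
      T * (∑ l, ∑ l' with A.src l' = A.tgt l ∧ (Mt.hsrc l' = Mt.htgt l ∧ l'.isRight = true),
      A.q l * A.q l' / A.pi (A.tgt l)) := by
    have t1 := mul_le_mul_of_nonneg_left hbk' hT'.le
    have t2 := mul_le_mul_of_nonneg_left hl' hT'.le
    have t3 : (T : ℝ) * (1 / (4 * T)) = 1 / 4 := by field_simp
    rw [t3] at t1 t2
    linarith
  calc Lb ^ p / 2 = 1 / 2 * Lb ^ p := by ring
    _ ≤ _ := mul_le_mul_of_nonneg_right hhalf hLp
    _ ≤ _ := hub
    _ ≤ _ := hcov
    _ ≤ K ^ p * T * b ^ p := mul_le_mul_of_nonneg_left hR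
        (mul_nonneg (Real.rpow_nonneg hK _) hT'.le)

end Vale.Agent.P125
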