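import Vale.Agent.Lib.P125.Merge

/-! # P125, module COLLAPSE.

If `Psi N (2R) ≤ B` for all `R`, then for a zero-sum `a` and every cut `k`,
`|∑_{i<k} a_i| * N (δ_0 - δ_1) ≤ N a`.
Proof.  Let `supp a ⊆ [0, D)`, `k ≤ D`, `A = ∑_{i<k} a_i`.  For `r < R` put
`κ_r i = r k + i` for `i < k` and `κ_r i = R k + r (D - k) + (i - k)` for `k ≤ i < D` (strictly
increasing on `[0,D)`).  The average `(1/R) ∑_r (spread copy κ_r of a)` has norm `≤ N a`.  It equals
`A ((1/R) ∑_r δ_{κ_r 0} - (1/R) ∑_r δ_{κ_r (D-1)})` plus
`(1/R) ∑_{i<k} a_i ∑_r (δ_{κ_r i} - δ_{κ_r 0})` plus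
`(1/R) ∑_{k≤i<D} a_i ∑_r (δ_{κ_r i} - δ_{κ_r (D-1)})`; every `∑_r (…)` is ± an alternating sum of
length `2R` over increasing positions (norm `≤ B`), or zero.  The first part has norm `|A| θ₀` by
`merge` with `C = 2`, `T = R`.  Let `R → ∞`.  (Cases `k = 0` or `k ≥ D`: `A = 0`.) -/

namespace Vale.Agent.P125

open Finset

variable {p K : ℝ} {N : Seminorm ℝ V}

theorem sum_range_two_mul' {M : Type*} [AddCommMonoid M] (f : ℕ → M) (R : ℕ) :
    ∑ q ∈ range (2 * R), f q = ∑ r ∈ range R, (f (2 * r) + f (2 * r + 1)) := by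
  induction R with
  | zero => simp
  | succ n ih =>
    rw [show 2 * (n + 1) = 2 * n + 1 + 1 by ring, sum_range_succ, sum_range_succ, ih,
      sum_range_succ, add_assoc]

theorem alt_pair (h : Indisc p K N) (R : ℕ) (u v : ℕ → ℕ) (huv : ∀ r, u r < v r)
    (hvu : ∀ r, v r < u (r + 1)) :
    N (∑ r ∈ range R, (Finsupp.single (v r) (1 : ℝ) - Finsupp.single (u r) 1)) =
      Psi N (2 * R) := by
  let s' : ℕ → ℕ := fun q => if q % 2 = 0 then u (q / 2) else v (q / 2)
  have hs' : StrictMono s' := by
    refine strictMono_nat_of_lt_succ fun q => ?_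
    rcases Nat.even_or_odd' q with ⟨c, rfl | rfl⟩
    · have h1 : s' (2 * c) = u c := by simp [s']
      have h2 : s' (2 * c + 1) = v c := by
        have : (2 * c + 1) % 2 = 1 := by omega
        have h3 : (2 * c + 1) / 2 = c := by omega
        simp [s', h3]
      rw [h1, h2]
      exact huv c
    · have h1 : s' (2 * c + 1 + 1) = u (c + 1) := by
        have : (2 * c + 1 + 1) % 2 = 0 := by omega
        have h3 : (2 * c + 1 + 1) / 2 = c + 1 := by omega
        simp [s', this, h3]
      have h2 : s' (2 * c + 1) = v c := by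
        have : (2 * c + 1) % 2 = 1 := by omega
        have h3 : (2 * c + 1) / 2 = c := by omega
        simp [s', h3]
      rw [h1, h2]
      exact hvu c
  have hs : StrictMono (fun q : Fin (2 * R) => s' q) := fun i j hij => hs' hij
  rw [← norm_alt h _ hs]
  unfold alt
  rw [Fin.sum_univ_eq_sum_range (fun q => Finsupp.single (s' q) ((-1 : ℝ) ^ q)) (2 * R),
    sum_range_two_mul', ← map_neg_eq_map N]
  congr 1
  rw [← Finset.sum_neg_distrib]
  refine Finset.sum_congr rfl fun r _ => ?_
  have h1 : s' (2 * r) = u r := by simp [s']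
  have h2 : s' (2 * r + 1) = v r := by
    have : (2 * r + 1) % 2 = 1 := by omega
    have h3 : (2 * r + 1) / 2 = r := by omega
    simp [s', h3]
  rw [h1, h2, neg_sub, pow_succ, pow_mul]
  simp [sub_eq_add_neg]

theorem collapse_aux (h : Indisc p K N) (B : ℝ) (hB : ∀ R, Psi N (2 * R) ≤ B) (D k : ℕ)
    (hk : 0 < k) (hkD : k < D) (b : ℕ → ℝ) (hsum : ∑ i ∈ range D, b i = 0) (R : ℕ) (hR : 0 < R) :
    (R : ℝ) * (|∑ i ∈ range k, b i| * N (Finsupp.single 0 1 - Finsupp.single 1 1)) ≤
      R * N (vec (fun i : Fin D => (i : ℕ)) (fun i => b i)) + B * ∑ i ∈ range D, |b i| := by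
  have hB0 : 0 ≤ B := le_trans (Psi_nonneg N (2 * 0)) (hB 0)
  -- positions
  let κ : ℕ → ℕ → ℕ := fun r i => if i < k then r * k + i else R * k + r * (D - k) + (i - k)
  have hκ1 : ∀ r i, i < k → κ r i = r * k + i := fun r i hi => if_pos hi
  have hκ2 : ∀ r i, ¬ i < k → κ r i = R * k + r * (D - k) + (i - k) := fun r i hi => if_neg hi
  have hκm : ∀ r, r < R → StrictMono (fun i : Fin D => κ r i) := by
    intro r hr i j hij
    have hij' : (i : ℕ) < j := hij
    show κ r i < κ r j
    by_cases hj : (j : ℕ) < k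
    · rw [hκ1 r _ hj, hκ1 r _ (hij'.trans hj)]
      omega
    · by_cases hi : (i : ℕ) < k
      · rw [hκ1 r _ hi, hκ2 r _ hj]
        have : (r + 1) * k ≤ R * k := Nat.mul_le_mul_right k hr
        have h5 : (r + 1) * k = r * k + k := by ring
        have h6 : 0 ≤ r * (D - k) := Nat.zero_le _
        omega
      · rw [hκ2 r _ hi, hκ2 r _ hj]
        omega
  let E : ℕ → V := fun i => ∑ r ∈ range R, Finsupp.single (κ r i) (1 : ℝ)
  let S : V := ∑ r ∈ range R, vec (fun i : Fin D => κ r i) (fun i => b i)
  have hS1 : N S ≤ R * N (vec (fun i : Fin D => (i : ℕ)) (fun i => b i)) := by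
    refine (Finset.le_sum_of_subadditive N (map_zero N).le (map_add_le_add N) _ _).trans ?_
    rw [← nsmul_eq_mul]
    conv_rhs => rw [← Finset.card_range R]
    refine Finset.sum_le_card_nsmul _ _ _ fun r hr => ?_
    exact (h.spread D _ _ (hκm r (Finset.mem_range.1 hr))).le
  have hS2 : S = ∑ i ∈ range D, b i • E i := by
    show ∑ r ∈ range R, vec (fun i : Fin D => κ r i) (fun i => b i) = _
    unfold vec
    simp only [E, Finset.smul_sum, Finsupp.smul_single, smul_eq_mul, mul_one]
    rw [Finset.sum_comm (s := range D)]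
    refine Finset.sum_congr rfl fun r _ => ?_
    exact Fin.sum_univ_eq_sum_range (fun i => Finsupp.single (κ r i) (b i)) D
  set A : ℝ := ∑ i ∈ range k, b i with hA
  have hA2 : ∑ i ∈ Ico k D, b i = -A := by
    have := Finset.sum_range_add_sum_Ico b hkD.le
    linarith
  let G : ℕ → V := fun i => if i < k then E i - E 0 else E i - E (D - 1)
  have hdec : S = A • (E 0 - E (D - 1)) + ∑ i ∈ range D, b i • G i := by
    rw [hS2]
    have h1 : ∑ i ∈ range D, b i • G i = ∑ i ∈ range D, b i • E i -
        ∑ i ∈ range D, b i • (if i < k then E 0 else E (D - 1)) := by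
      rw [← Finset.sum_sub_distrib]
      refine Finset.sum_congr rfl fun i _ => ?_
      rw [← smul_sub]
      congr 1
      by_cases hi : i < k <;> simp [G, hi]
    have h2 : ∑ i ∈ range D, b i • (if i < k then E 0 else E (D - 1)) =
        A • (E 0 - E (D - 1)) := by
      rw [← Finset.sum_range_add_sum_Ico _ hkD.le]
      have h3 : ∑ i ∈ range k, b i • (if i < k then E 0 else E (D - 1)) = A • E 0 := by
        rw [hA, Finset.sum_smul]
        refine Finset.sum_congr rfl fun i hi => ?_
        rw [if_pos (Finset.mem_range.1 hi)]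
      have h4 : ∑ i ∈ Ico k D, b i • (if i < k then E 0 else E (D - 1)) =
          (-A) • E (D - 1) := by
        rw [← hA2, Finset.sum_smul]
        refine Finset.sum_congr rfl fun i hi => ?_
        rw [if_neg (not_lt.2 (Finset.mem_Ico.1 hi).1)]
      rw [h3, h4, smul_sub, neg_smul, sub_eq_add_neg]
    rw [h1, h2]
    abel
  have hG : ∀ i ∈ range D, N (G i) ≤ B := by
    intro i hi
    have hiD := Finset.mem_range.1 hi
    by_cases hik : i < k
    · have h1 : G i = E i - E 0 := if_pos hik
      rw [h1]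
      rcases Nat.eq_zero_or_pos i with rfl | hi0
      · rw [sub_self, map_zero]
        exact hB0
      · have h2 : E i - E 0 = ∑ r ∈ range R, (Finsupp.single (r * k + i) (1 : ℝ) -
            Finsupp.single (r * k) 1) := by
          show ∑ r ∈ range R, _ - ∑ r ∈ range R, _ = _
          rw [← Finset.sum_sub_distrib]
          refine Finset.sum_congr rfl fun r _ => ?_
          rw [hκ1 r i hik, hκ1 r 0 hk, add_zero]
        rw [h2, alt_pair h R (fun r => r * k) (fun r => r * k + i) (fun r => by
          show r * k < r * k + i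
          omega) (fun r => by
          show r * k + i < (r + 1) * k
          rw [add_mul, one_mul]
          omega)]
        exact hB R
    · have h1 : G i = E i - E (D - 1) := if_neg hik
      rw [h1]
      rcases eq_or_ne i (D - 1) with hi1 | hi1
      · rw [← hi1, sub_self, map_zero]
        exact hB0
      · have hik' := not_lt.1 hik
        have hD1 : ¬ (D - 1 < k) := by omega
        have h2 : E i - E (D - 1) = -∑ r ∈ range R,
            (Finsupp.single (R * k + r * (D - k) + (D - 1 - k)) (1 : ℝ) -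
            Finsupp.single (R * k + r * (D - k) + (i - k)) 1) := by
          show ∑ r ∈ range R, _ - ∑ r ∈ range R, _ = _
          rw [← Finset.sum_sub_distrib, ← Finset.sum_neg_distrib]
          refine Finset.sum_congr rfl fun r _ => ?_
          rw [hκ2 r i hik, hκ2 r _ hD1, neg_sub]
        rw [h2, map_neg_eq_map, alt_pair h R (fun r => R * k + r * (D - k) + (i - k))
          (fun r => R * k + r * (D - k) + (D - 1 - k)) (fun r => by
          show R * k + r * (D - k) + (i - k) < R * k + r * (D - k) + (D - 1 - k)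
          omega) (fun r => by
          show R * k + r * (D - k) + (D - 1 - k) < R * k + (r + 1) * (D - k) + (i - k)
          rw [add_mul, one_mul]
          omega)]
        exact hB R
  have hE : N (E 0 - E (D - 1)) = R * N (Finsupp.single 0 1 - Finsupp.single 1 1) := by
    let pos : Fin 2 → Fin R → ℕ := fun n t =>
      if n = 0 then (t : ℕ) * k else R * k + (t : ℕ) * (D - k) + (D - 1 - k)
    have hD1 : ¬ (D - 1 < k) := by omega
    have hpos0 : ∀ t, pos 0 t = (t : ℕ) * k := fun t => rfl
    have hpos1 : ∀ t, pos 1 t = R * k + (t : ℕ) * (D - k) + (D - 1 - k) := fun t => rfl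
    have hm := merge h 2 R hR pos (by
      intro n n' hn t t'
      have hn0 : n = 0 := by omega
      have hn1 : n' = 1 := by omega
      subst hn0 hn1
      rw [hpos0, hpos1]
      have : (t : ℕ) * k < R * k := Nat.mul_lt_mul_of_pos_right t.2 hk
      have : 0 ≤ (t' : ℕ) * (D - k) := Nat.zero_le _
      omega) (by
      intro n
      left
      intro t t' htt
      have htt' : (t : ℕ) < t' := htt
      fin_cases n
      · show (t : ℕ) * k < (t' : ℕ) * k
        exact Nat.mul_lt_mul_of_pos_right htt' hk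
      · show R * k + (t : ℕ) * (D - k) + (D - 1 - k) < R * k + (t' : ℕ) * (D - k) + (D - 1 - k)
        have : (t : ℕ) * (D - k) < (t' : ℕ) * (D - k) :=
          Nat.mul_lt_mul_of_pos_right htt' (by omega)
        omega) ![1, -1]
    have h1 : (∑ n : Fin 2, ∑ t : Fin R, Finsupp.single (pos n t) ((![1, -1] : Fin 2 → ℝ) n)) =
        E 0 - E (D - 1) := by
      rw [Fin.sum_univ_two]
      have h2 : ∑ t : Fin R, Finsupp.single (pos 0 t) ((![1, -1] : Fin 2 → ℝ) 0) = E 0 := by
        show _ = ∑ r ∈ range R, Finsupp.single (κ r 0) (1 : ℝ)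
        rw [← Fin.sum_univ_eq_sum_range (fun r => Finsupp.single (κ r 0) (1 : ℝ)) R]
        refine Finset.sum_congr rfl fun t _ => ?_
        rw [hpos0, hκ1 _ 0 hk, add_zero]
        rfl
      have h3 : ∑ t : Fin R, Finsupp.single (pos 1 t) ((![1, -1] : Fin 2 → ℝ) 1) =
          - E (D - 1) := by
        show _ = -∑ r ∈ range R, Finsupp.single (κ r (D - 1)) (1 : ℝ)
        rw [← Fin.sum_univ_eq_sum_range (fun r => Finsupp.single (κ r (D - 1)) (1 : ℝ)) R,
          ← Finset.sum_neg_distrib]
        refine Finset.sum_congr rfl fun t _ => ?_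
        rw [hpos1, hκ2 _ _ hD1, ← Finsupp.single_neg]
        rfl
      rw [h2, h3, sub_eq_add_neg]
    have h4 : vec (fun i : Fin 2 => (i : ℕ)) (![1, -1] : Fin 2 → ℝ) =
        Finsupp.single 0 1 - Finsupp.single 1 1 := by
      unfold vec
      rw [Fin.sum_univ_two]
      simp [sub_eq_add_neg]
    rw [h1, h4] at hm
    exact hm
  have hfin : |A| * N (E 0 - E (D - 1)) ≤ N S + B * ∑ i ∈ range D, |b i| := by
    have h1 : A • (E 0 - E (D - 1)) = S - ∑ i ∈ range D, b i • G i := by
      rw [hdec]
      abel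
    have h2 : N (A • (E 0 - E (D - 1))) = |A| * N (E 0 - E (D - 1)) := by
      rw [map_smul_eq_mul, Real.norm_eq_abs]
    rw [← h2, h1]
    refine (map_sub_le_add N _ _).trans ?_
    gcongr
    refine (Finset.le_sum_of_subadditive N (map_zero N).le (map_add_le_add N) _ _).trans ?_
    rw [Finset.mul_sum]
    refine Finset.sum_le_sum fun i hi => ?_
    rw [map_smul_eq_mul, Real.norm_eq_abs, mul_comm]
    exact mul_le_mul_of_nonneg_right (hG i hi) (abs_nonneg _)
  rw [hE] at hfin
  calc (R : ℝ) * (|A| * N (Finsupp.single 0 1 - Finsupp.single 1 1))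
      = |A| * (R * N (Finsupp.single 0 1 - Finsupp.single 1 1)) := by ring
    _ ≤ _ := hfin
    _ ≤ _ := by gcongr

theorem collapse (h : Indisc p K N) (B : ℝ) (hB : ∀ R, Psi N (2 * R) ≤ B) (a : V) (k : ℕ)
    (hsum : a.sum (fun _ x => x) = 0) :
    |∑ i ∈ range k, a i| * N (Finsupp.single 0 1 - Finsupp.single 1 1) ≤ N a := by
  rcases Nat.eq_zero_or_pos k with rfl | hk
  · simp
  obtain ⟨D, hD⟩ : ∃ D, D = max (a.support.sup id + 1) k + 1 := ⟨_, rfl⟩
  have hkD : k < D := by
    have := le_max_right (a.support.sup id + 1) k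
    omega
  have hsupp : ∀ i ∈ a.support, i < D := by
    intro i hi
    have h1 : i ≤ a.support.sup id := Finset.le_sup (f := id) hi
    have := le_max_left (a.support.sup id + 1) k
    omega
  have hsub : a.support ⊆ range D := fun i hi => Finset.mem_range.2 (hsupp i hi)
  have hsum' : ∑ i ∈ range D, a i = 0 := by
    rw [← hsum, Finsupp.sum]
    symm
    refine Finset.sum_subset hsub fun i _ hi => ?_
    simpa using hi
  have hvec : vec (fun i : Fin D => (i : ℕ)) (fun i => a i) = a := by
    unfold vec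
    rw [Fin.sum_univ_eq_sum_range (fun i => Finsupp.single i (a i)) D]
    conv_rhs => rw [← Finsupp.sum_single a]
    rw [Finsupp.sum]
    symm
    refine Finset.sum_subset hsub fun i _ hi => ?_
    have : a i = 0 := by simpa using hi
    rw [this, Finsupp.single_zero]
  have key := fun R hR => collapse_aux h B hB D k hk hkD (fun i => a i) hsum' R hR
  simp only [hvec] at key
  by_contra hcon
  push Not at hcon
  set x := |∑ i ∈ range k, a i| * N (Finsupp.single 0 1 - Finsupp.single 1 1) with hx
  set y := B * ∑ i ∈ range D, |a i| with hy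
  obtain ⟨R, hR⟩ := exists_nat_gt (y / (x - N a))
  have hpos : 0 < x - N a := sub_pos.2 hcon
  have hR' : 0 < R + 1 := Nat.succ_pos R
  have h1 := key (R + 1) hR'
  rw [div_lt_iff₀ hpos] at hR
  push_cast at h1
  nlinarith

end Vale.Agent.P125
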