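import Mathlib

/-!
# P125: nontrivial Markov type implies superreflexivity.  Basic definitions.
-/

namespace Vale.Agent.P125

open Finset Filter Topology

/-- The real function `N` (a seminorm in all uses) on the additive group `V` satisfies the Markov
type `p` inequality with constant `K`. -/
def MT {V : Type*} [AddCommGroup V] (p K : ℝ) (N : V → ℝ) : Prop :=
  ∀ (S : Type) [Fintype S] [DecidableEq S] (π : S → ℝ) (P : Matrix S S ℝ),
    (∀ i, 0 ≤ π i) → ∑ i, π i = 1 → (∀ i j, 0 ≤ P i j) → (∀ i, ∑ j, P i j = 1) →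
    (∀ i j, π i * P i j = π j * P j i) →
    ∀ (f : S → V) (t : ℕ), 1 ≤ t →
      ∑ i, ∑ j, π i * (P ^ t) i j * N (f j - f i) ^ p ≤
        K ^ p * t * ∑ i, ∑ j, π i * P i j * N (f j - f i) ^ p

/-- finitely supported real sequences -/
abbrev V : Type := ℕ →₀ ℝ

/-- `vec κ a = ∑ a_i δ_{κ i}` -/
noncomputable def vec {m : ℕ} (κ : Fin m → ℕ) (a : Fin m → ℝ) : V :=
  ∑ i, Finsupp.single (κ i) (a i)

/-- alternating sum of the point masses at `s 0, s 1, …` -/
noncomputable def alt {m : ℕ} (s : Fin m → ℕ) : V :=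
  ∑ q : Fin m, Finsupp.single (s q) ((-1 : ℝ) ^ (q : ℕ))

/-- norm of the alternating sum of length `m` -/
noncomputable def Psi (N : Seminorm ℝ V) (m : ℕ) : ℝ := N (alt (fun q : Fin m => (q : ℕ)))

/-- uniform James condition up to `n`: averages of two consecutive (separated) blocks of point
masses are `θ`-separated -/
def JU (N : V → ℝ) (n : ℕ) (θ : ℝ) : Prop :=
  ∀ A B : Finset ℕ, A.card = B.card → A.Nonempty → (∀ a ∈ A, ∀ b ∈ B, a < b) →
    (∀ b ∈ B, b ≤ n) →
    θ * A.card ≤ N (∑ i ∈ A, Finsupp.single i (1 : ℝ) - ∑ i ∈ B, Finsupp.single i (1 : ℝ))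

/-- spreading invariance -/
def Spreading (N : V → ℝ) : Prop :=
  ∀ (m : ℕ) (κ : Fin m → ℕ) (a : Fin m → ℝ), StrictMono κ →
    N (vec κ a) = N (vec (fun i => (i : ℕ)) a)

/-- invariance under splitting every point mass into `T` adjacent equal parts -/
def Splitting (N : V → ℝ) : Prop :=
  ∀ (m T : ℕ) (a : Fin m → ℝ), 0 < T →
    N (∑ i : Fin m, ∑ k : Fin T, Finsupp.single ((i : ℕ) * T + k) (a i / T)) =
      N (vec (fun i => (i : ℕ)) a)

/-- the seminorms whose existence is to be refuted -/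
structure Indisc (p K : ℝ) (N : Seminorm ℝ V) : Prop where
  mt : MT p K (fun v => N v)
  spread : Spreading (fun v => N v)
  split : Splitting (fun v => N v)
  one : ∀ i, N (Finsupp.single i 1) ≤ 1
  pos : 0 < N (Finsupp.single 0 1 - Finsupp.single 1 1)

/-- sign of an integer cluster index -/
noncomputable def sgn (n : ℤ) : ℝ := if Even n then 1 else -1

/-- A nested configuration of `T` increasing sequences `s t` of length `m`, with integer offsets
`o t`; the entry `s t q` belongs to cluster `q + o t`. -/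
structure GoodPath (m T : ℕ) (s : Fin T → Fin m → ℕ) (o : Fin T → ℤ) : Prop where
  mono : ∀ t, StrictMono (s t)
  bd : ∀ t, |o t| ≤ 2 * T + 1
  rel_even : ∀ t t' : Fin T, (t' : ℕ) = t + 1 → ∀ q q' : Fin m,
    (q : ℤ) + o t = q' + o t' → Even ((q : ℤ) + o t) → s t' q' < s t q
  rel_odd : ∀ t t' : Fin T, (t' : ℕ) = t + 1 → ∀ q q' : Fin m,
    (q : ℤ) + o t = q' + o t' → ¬ Even ((q : ℤ) + o t) → s t q < s t' q'
  rel_next : ∀ t t' : Fin T, (t' : ℕ) = t + 1 → ∀ q q' : Fin m,
    (q : ℤ) + o t + 1 = q' + o t' → s t q < s t' q'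
  rel_prev : ∀ t t' : Fin T, (t' : ℕ) = t + 1 → ∀ q q' : Fin m,
    (q : ℤ) + o t = q' + o t' + 1 → s t' q' < s t q

/-- total flip vector of a configuration -/
noncomputable def Gvec {m T : ℕ} (s : Fin T → Fin m → ℕ) (o : Fin T → ℤ) : V :=
  ∑ t : Fin T, ∑ q : Fin m, Finsupp.single (s t q) (sgn ((q : ℤ) + o t))

/-- A finite reversible labelled system: `X` states, `L` oriented edges (labels) with conductances
`q`, and an antisymmetric `ℤ^D`-valued functional `F`. -/
structure LSys (X L : Type) [Fintype X] [Fintype L] [DecidableEq X] (D : ℕ) where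
  src : L → X
  tgt : L → X
  q : L → ℝ
  rev : L → L
  F : L → Fin D → ℤ
  q_nonneg : ∀ l, 0 ≤ q l
  rev_rev : ∀ l, rev (rev l) = l
  src_rev : ∀ l, src (rev l) = tgt l
  q_rev : ∀ l, q (rev l) = q l
  F_rev : ∀ l, F (rev l) = - F l
  sum_q : ∑ l, q l = 1
  pi_pos : ∀ x, 0 < ∑ l with src l = x, q l

namespace LSys

variable {X L : Type} [Fintype X] [Fintype L] [DecidableEq X] {D : ℕ}

/-- stationary measure -/
noncomputable def pi (A : LSys X L D) (x : X) : ℝ := ∑ l with A.src l = x, A.q l

/-- expectation of a function of the label path of length `T` started at `x` -/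
noncomputable def pexp (A : LSys X L D) : (T : ℕ) → X → ((Fin T → L) → ℝ) → ℝ
  | 0, _, g => g Fin.elim0
  | T + 1, x, g => ∑ l with A.src l = x, A.q l / A.pi x *
      A.pexp T (A.tgt l) (fun w => g (Fin.cons l w))

/-- stationary expectation of a function of the label path of length `T` -/
noncomputable def Ex (A : LSys X L D) (T : ℕ) (g : (Fin T → L) → ℝ) : ℝ :=
  ∑ x, A.pi x * A.pexp T x g

end LSys

/-- position (inside a tuple) of the `j`-th flip of the half-edge `h`, where there are `H`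
half-edges at each vertex -/
def aidx (H h j : ℕ) : ℕ := (j / 2) * (2 * H) + 2 * h + j % 2

/-- type bit of a half-edge: half-edges `h < d` are of type `b` (bit 1), the others (`d ≤ h < 2d`)
of type `a` (bit 0) -/
def tb (d h : ℕ) : ℕ := if h < d then 1 else 0

end Vale.Agent.P125
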