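import Vale.Agent.Lib.P125.Collapse

/-! # P125, module GOODLOW: lower bound for good configurations.

Write `C_t n = s t (n - o t)` when `0 ≤ n - o t < m`.  All `C_t n` are defined for
`n ∈ [2T+1, m-2T-2]`.  On this range: for even `n`, `C_{t+1} n < C_t n`; for odd `n`,
`C_t n < C_{t+1} n`; and `C_t n < C_{t'} (n+1)` for all `t, t'` (for even `n`:
`C_t n ≤ C_0 n < C_0 (n+1) ≤ C_{t'} (n+1)`; for odd `n`:
`C_t n ≤ C_{T-1} n < C_{T-1} (n+1) ≤ C_{t'} (n+1)`).
Case 1 (`Psi` unbounded): pick even `m` with `Psi N m ≥ 4 (4T+3)` (or so).  The main part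
(clusters `2T+1 … m-2T-2`) has norm `T * Psi N (m-4T-2)` by `merge_alt`, the rest consists of at
most `T (4T+2)` point masses.
Case 2 (`Psi ≤ B`): `m = 4T+8`; the partial sums of `Gvec` before and after one complete cluster
(with complete neighbours) differ by `± T`, `Gvec` has sum zero (`m` even), so `collapse` gives
`N Gvec ≥ (T/2) θ₀`; take `b = max B 1`, `c = θ₀ / (2 b)`. -/

namespace Vale.Agent.P125

open Finset

variable {p K : ℝ} {N : Seminorm ℝ V}

section clusters

variable {m T : ℕ} {s : Fin T → Fin m → ℕ} {o : Fin T → ℤ}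

/-- the entry of the `t`-th sequence in cluster `n` -/
def cl (s : Fin T → Fin m → ℕ) (o : Fin T → ℤ) (t : Fin T) (n : ℤ) : ℕ :=
  if h : 0 ≤ n - o t ∧ n - o t < m then s t ⟨(n - o t).toNat, by omega⟩ else 0

theorem cl_eq (t : Fin T) (q : Fin m) : cl s o t ((q : ℤ) + o t) = s t q := by
  unfold cl
  have hq := q.2
  rw [dif_pos (by constructor <;> omega)]
  congr 1
  apply Fin.ext
  show ((q : ℤ) + o t - o t).toNat = q
  omega

/-- completeness of cluster `n` -/
def Full (m T : ℕ) (n : ℤ) : Prop := 2 * (T : ℤ) + 1 ≤ n ∧ n ≤ (m : ℤ) - 2 * T - 2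

instance (m T : ℕ) (n : ℤ) : Decidable (Full m T n) := by
  unfold Full; infer_instance

/-- indices not belonging to complete clusters -/
def outer (m T : ℕ) (o : ℤ) : Finset (Fin m) :=
  univ.filter (fun q : Fin m => ¬ Full m T ((q : ℤ) + o))

theorem cl_full (hg : GoodPath m T s o) (t : Fin T) (n : ℤ) (hn : Full m T n) :
    ∃ q : Fin m, (q : ℤ) + o t = n ∧ cl s o t n = s t q := by
  obtain ⟨h1, h2⟩ := hn
  have hb := abs_le.1 (hg.bd t)
  refine ⟨⟨(n - o t).toNat, by omega⟩, ?_, ?_⟩
  · show ((n - o t).toNat : ℤ) + o t = n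
    omega
  · unfold cl
    rw [dif_pos (by constructor <;> omega)]

theorem cl_step_even (hg : GoodPath m T s o) (n : ℤ) (hn : Full m T n) (he : Even n)
    (t t' : Fin T) (htt : (t' : ℕ) = t + 1) : cl s o t' n < cl s o t n := by
  obtain ⟨q, hq, e⟩ := cl_full hg t n hn
  obtain ⟨q', hq', e'⟩ := cl_full hg t' n hn
  rw [e, e']
  exact hg.rel_even t t' htt q q' (by rw [hq, hq']) (by rw [hq]; exact he)

theorem cl_step_odd (hg : GoodPath m T s o) (n : ℤ) (hn : Full m T n) (he : ¬ Even n)
    (t t' : Fin T) (htt : (t' : ℕ) = t + 1) : cl s o t n < cl s o t' n := by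
  obtain ⟨q, hq, e⟩ := cl_full hg t n hn
  obtain ⟨q', hq', e'⟩ := cl_full hg t' n hn
  rw [e, e']
  exact hg.rel_odd t t' htt q q' (by rw [hq, hq']) (by rw [hq]; exact he)

theorem cl_anti (hg : GoodPath m T s o) (n : ℤ) (hn : Full m T n) (he : Even n) :
    StrictAnti (fun t => cl s o t n) := by
  have key : ∀ k : ℕ, ∀ t t' : Fin T, (t' : ℕ) = t + (k + 1) → cl s o t' n < cl s o t n := by
    intro k
    induction k with
    | zero => intro t t' h; exact cl_step_even hg n hn he t t' h
    | succ k ih =>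
      intro t t' h
      have ht' := t'.2
      have h1 := ih t ⟨t + (k + 1), by omega⟩ rfl
      have h2 := cl_step_even hg n hn he ⟨t + (k + 1), by omega⟩ t' (by
        show (t' : ℕ) = t + (k + 1) + 1
        omega)
      exact h2.trans h1
  intro t t' h
  have h' : (t : ℕ) < t' := h
  exact key ((t' : ℕ) - t - 1) t t' (by omega)

theorem cl_mono (hg : GoodPath m T s o) (n : ℤ) (hn : Full m T n) (he : ¬ Even n) :
    StrictMono (fun t => cl s o t n) := by
  have key : ∀ k : ℕ, ∀ t t' : Fin T, (t' : ℕ) = t + (k + 1) → cl s o t n < cl s o t' n := by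
    intro k
    induction k with
    | zero => intro t t' h; exact cl_step_odd hg n hn he t t' h
    | succ k ih =>
      intro t t' h
      have ht' := t'.2
      have h1 := ih t ⟨t + (k + 1), by omega⟩ rfl
      have h2 := cl_step_odd hg n hn he ⟨t + (k + 1), by omega⟩ t' (by
        show (t' : ℕ) = t + (k + 1) + 1
        omega)
      exact h1.trans h2
  intro t t' h
  have h' : (t : ℕ) < t' := h
  exact key ((t' : ℕ) - t - 1) t t' (by omega)

theorem cl_next (hg : GoodPath m T s o) (t : Fin T) (n n' : ℤ) (hn : Full m T n)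
    (hn' : Full m T n') (h : n < n') : cl s o t n < cl s o t n' := by
  obtain ⟨q, hq, e⟩ := cl_full hg t n hn
  obtain ⟨q', hq', e'⟩ := cl_full hg t n' hn'
  rw [e, e']
  apply hg.mono t
  show (q : ℕ) < q'
  omega

theorem cl_lt (hg : GoodPath m T s o) (n n' : ℤ) (hn : Full m T n) (hn' : Full m T n')
    (h : n < n') (t t' : Fin T) : cl s o t n < cl s o t' n' := by
  -- first for consecutive clusters
  have hT : 0 < T := lt_of_le_of_lt (Nat.zero_le _) t.2
  have key : ∀ n : ℤ, Full m T n → Full m T (n + 1) → ∀ t t' : Fin T,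
      cl s o t n < cl s o t' (n + 1) := by
    intro n hn hn1 t t'
    by_cases he : Even n
    · have ho : ¬ Even (n + 1) := by
        rw [Int.even_add_one]; exact fun h => h he
      calc cl s o t n ≤ cl s o ⟨0, hT⟩ n := (cl_anti hg n hn he).antitone (Fin.mk_le_of_le_val
            (Nat.zero_le _))
        _ < cl s o ⟨0, hT⟩ (n + 1) := cl_next hg _ n (n + 1) hn hn1 (by omega)
        _ ≤ cl s o t' (n + 1) := (cl_mono hg (n + 1) hn1 ho).monotone (Fin.mk_le_of_le_val
            (Nat.zero_le _))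
    · have ho : Even (n + 1) := by
        rw [Int.even_add_one]; exact he
      have hle : ∀ u : Fin T, u ≤ ⟨T - 1, by omega⟩ := by
        intro u
        show (u : ℕ) ≤ T - 1
        have := u.2
        omega
      calc cl s o t n ≤ cl s o ⟨T - 1, by omega⟩ n := (cl_mono hg n hn he).monotone (hle t)
        _ < cl s o ⟨T - 1, by omega⟩ (n + 1) := cl_next hg _ n (n + 1) hn hn1 (by omega)
        _ ≤ cl s o t' (n + 1) := (cl_anti hg (n + 1) hn1 ho).antitone (hle t')
  have hn1 : Full m T (n + 1) := ⟨by have := hn.1; omega, by have := hn'.2; omega⟩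
  have h1 := key n hn hn1 t t'
  rcases eq_or_lt_of_le (show n + 1 ≤ n' by omega) with h2 | h2
  · rw [← h2]; exact h1
  · exact h1.trans (cl_next hg t' (n + 1) n' hn1 hn' h2)

end clusters

theorem sgn_succ (n : ℤ) : sgn (n + 1) = - sgn n := by
  unfold sgn
  by_cases h : Even n
  · rw [if_pos h, if_neg (by rw [Int.even_add_one]; exact fun h' => h' h)]
  · rw [if_neg h, if_pos (by rw [Int.even_add_one]; exact h)]
    norm_num

theorem abs_sgn (n : ℤ) : |sgn n| = 1 := by
  unfold sgn; split_ifs <;> simp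

theorem sgn_odd_add (a : ℤ) (ha : ¬ Even a) (n : ℕ) : sgn (a + n) = -1 * (-1 : ℝ) ^ n := by
  induction n with
  | zero => unfold sgn; simp [ha]
  | succ n ih =>
    have : a + ((n + 1 : ℕ) : ℤ) = a + n + 1 := by push_cast; ring
    rw [this, sgn_succ, ih]
    ring

theorem sum_sgn (κ : ℕ) (o : ℤ) : ∑ q : Fin (2 * κ), sgn ((q : ℤ) + o) = 0 := by
  rw [Fin.sum_univ_eq_sum_range (fun q : ℕ => sgn ((q : ℤ) + o)) (2 * κ)]
  induction κ with
  | zero => simp
  | succ κ ih =>
    have : 2 * (κ + 1) = 2 * κ + 1 + 1 := by ring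
    rw [this, sum_range_succ, sum_range_succ, ih]
    have h : ((2 * κ + 1 : ℕ) : ℤ) + o = ((2 * κ : ℕ) : ℤ) + o + 1 := by push_cast; ring
    rw [h, sgn_succ]
    ring

theorem norm_single_le (h : Indisc p K N) (i : ℕ) (x : ℝ) : N (Finsupp.single i x) ≤ |x| := by
  have e : Finsupp.single i x = x • (Finsupp.single i (1 : ℝ) : V) := by
    rw [Finsupp.smul_single, smul_eq_mul, mul_one]
  rw [e, map_smul_eq_mul, Real.norm_eq_abs]
  exact mul_le_of_le_one_right (abs_nonneg _) (h.one i)

theorem sn_sum_le {ι : Type*} (N : Seminorm ℝ V) (A : Finset ι) (f : ι → V) :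
    N (∑ i ∈ A, f i) ≤ ∑ i ∈ A, N (f i) := by
  classical
  induction A using Finset.induction_on with
  | empty => simp
  | insert a A ha ih =>
    rw [sum_insert ha, sum_insert ha]
    exact (map_add_le_add N _ _).trans (by linarith)

/-- norm of the main part and of the rest -/
theorem gvec_lower (h : Indisc p K N) {m T : ℕ} (hT : 1 ≤ T) (hm : 4 * T + 2 ≤ m)
    (s : Fin T → Fin m → ℕ) (o : Fin T → ℤ) (hg : GoodPath m T s o) :
    T * Psi N (m - (4 * T + 2)) - T * (4 * T + 2) ≤ N (Gvec s o) := by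
  obtain ⟨C, hC⟩ : ∃ C, C = m - (4 * T + 2) := ⟨_, rfl⟩
  rw [← hC]
  have hCm : C + (4 * T + 2) = m := by omega
  have hfull : ∀ n : Fin C, Full m T (2 * T + 1 + (n : ℕ)) := by
    intro n
    have := n.2
    constructor <;> omega
  -- main part
  have hmain := merge_alt h C T hT (fun n t => cl s o t (2 * T + 1 + (n : ℕ)))
    (by
      intro n n' hnn t t'
      have : (n : ℕ) < n' := hnn
      exact cl_lt hg _ _ (hfull n) (hfull n') (by omega) t t')
    (by
      intro n
      by_cases he : Even (2 * (T : ℤ) + 1 + (n : ℕ))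
      · exact Or.inr (cl_anti hg _ (hfull n) he)
      · exact Or.inl (cl_mono hg _ (hfull n) he)) (-1) (by simp)
  -- decomposition
  have hdec : ∀ t : Fin T, ∑ q : Fin m, (Finsupp.single (s t q) (sgn ((q : ℤ) + o t)) : V) =
      (∑ n : Fin C, Finsupp.single (cl s o t (2 * T + 1 + (n : ℕ)))
        (-1 * (-1 : ℝ) ^ (n : ℕ))) +
      ∑ q ∈ outer m T (o t), Finsupp.single (s t q) (sgn ((q : ℤ) + o t)) := by
    intro t
    rw [← sum_filter_add_sum_filter_not univ (fun q : Fin m => Full m T ((q : ℤ) + o t))]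
    unfold outer
    congr 1
    have hb := abs_le.1 (hg.bd t)
    symm
    refine sum_bij' (fun (n : Fin C) _ => (⟨(2 * (T : ℤ) + 1 + (n : ℕ) - o t).toNat, by
        have := n.2; omega⟩ : Fin m))
      (fun (q : Fin m) hq => (⟨((q : ℤ) + o t - (2 * T + 1)).toNat, by
        have h1 := (mem_filter.1 hq).2
        have h2 := h1.1
        have h3 := h1.2
        omega⟩ : Fin C)) ?_ ?_ ?_ ?_ ?_
    · intro n _
      rw [mem_filter]
      refine ⟨mem_univ _, ?_⟩
      have := n.2
      constructor
      · show 2 * (T : ℤ) + 1 ≤ ((2 * (T : ℤ) + 1 + (n : ℕ) - o t).toNat : ℤ) + o t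
        omega
      · show ((2 * (T : ℤ) + 1 + (n : ℕ) - o t).toNat : ℤ) + o t ≤ (m : ℤ) - 2 * T - 2
        omega
    · intro q _
      exact mem_univ _
    · intro n _
      apply Fin.ext
      show (((2 * (T : ℤ) + 1 + (n : ℕ) - o t).toNat : ℤ) + o t - (2 * T + 1)).toNat = n
      have := n.2
      omega
    · intro q hq
      apply Fin.ext
      have h1 := (mem_filter.1 hq).2
      have h2 := h1.1
      show (2 * (T : ℤ) + 1 + ((((q : ℤ) + o t - (2 * T + 1)).toNat : ℕ) : ℤ) - o t).toNat = q
      omega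
    · intro n _
      have e : ((⟨(2 * (T : ℤ) + 1 + (n : ℕ) - o t).toNat, by have := n.2; omega⟩ : Fin m) : ℕ) +
          o t = 2 * (T : ℤ) + 1 + (n : ℕ) := by
        show ((2 * (T : ℤ) + 1 + (n : ℕ) - o t).toNat : ℤ) + o t = _
        have := n.2
        omega
      rw [e, ← cl_eq (s := s) (o := o) t, e, sgn_odd_add]
      intro hev
      rw [Int.even_add_one] at hev
      exact hev (even_two_mul _)
  have hG : Gvec s o = (∑ n : Fin C, ∑ t : Fin T,
      Finsupp.single (cl s o t (2 * T + 1 + (n : ℕ))) (-1 * (-1 : ℝ) ^ (n : ℕ))) +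
      ∑ t : Fin T, ∑ q ∈ outer m T (o t),
        Finsupp.single (s t q) (sgn ((q : ℤ) + o t)) := by
    unfold Gvec
    rw [sum_congr rfl fun t _ => hdec t, sum_add_distrib, sum_comm]
  -- the rest
  have hcard : ∀ t : Fin T, ((univ.filter fun q : Fin m => ¬ Full m T ((q : ℤ) + o t)).card : ℝ) =
      4 * T + 2 := by
    intro t
    have hb := abs_le.1 (hg.bd t)
    have h1 : (univ.filter fun q : Fin m => Full m T ((q : ℤ) + o t)).card = C := by
      rw [← Fintype.card_fin C, ← card_univ (α := Fin C)]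
      symm
      refine card_bij' (fun (n : Fin C) _ => (⟨(2 * (T : ℤ) + 1 + (n : ℕ) - o t).toNat, by
          have := n.2; omega⟩ : Fin m))
        (fun (q : Fin m) hq => (⟨((q : ℤ) + o t - (2 * T + 1)).toNat, by
          have h1 := (mem_filter.1 hq).2
          have h2 := h1.1
          have h3 := h1.2
          omega⟩ : Fin C)) ?_ ?_ ?_ ?_
      · intro n _
        rw [mem_filter]
        refine ⟨mem_univ _, ?_⟩
        have := n.2
        constructor
        · show 2 * (T : ℤ) + 1 ≤ ((2 * (T : ℤ) + 1 + (n : ℕ) - o t).toNat : ℤ) + o t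
          omega
        · show ((2 * (T : ℤ) + 1 + (n : ℕ) - o t).toNat : ℤ) + o t ≤ (m : ℤ) - 2 * T - 2
          omega
      · intro q _
        exact mem_univ _
      · intro n _
        apply Fin.ext
        show (((2 * (T : ℤ) + 1 + (n : ℕ) - o t).toNat : ℤ) + o t - (2 * T + 1)).toNat = n
        have := n.2
        omega
      · intro q hq
        apply Fin.ext
        have h1 := (mem_filter.1 hq).2
        have h2 := h1.1
        show (2 * (T : ℤ) + 1 + ((((q : ℤ) + o t - (2 * T + 1)).toNat : ℕ) : ℤ) - o t).toNat = q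
        omega
    have h2 := card_filter_add_card_filter_not (s := (univ : Finset (Fin m)))
      (fun q : Fin m => Full m T ((q : ℤ) + o t))
    rw [card_univ, Fintype.card_fin, h1] at h2
    have h3 : (univ.filter fun q : Fin m => ¬ Full m T ((q : ℤ) + o t)).card = 4 * T + 2 := by
      omega
    rw [h3]; push_cast; ring
  have hrest : N (∑ t : Fin T, ∑ q ∈ outer m T (o t),
      (Finsupp.single (s t q) (sgn ((q : ℤ) + o t)) : V)) ≤ T * (4 * T + 2) := by
    calc N (∑ t : Fin T, ∑ q ∈ outer m T (o t),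
          (Finsupp.single (s t q) (sgn ((q : ℤ) + o t)) : V))
        ≤ ∑ t : Fin T, N (∑ q ∈ outer m T (o t),
          (Finsupp.single (s t q) (sgn ((q : ℤ) + o t)) : V)) :=
          sn_sum_le N _ _
      _ ≤ ∑ t : Fin T, ∑ q ∈ outer m T (o t),
          N (Finsupp.single (s t q) (sgn ((q : ℤ) + o t)) : V) :=
          sum_le_sum fun t _ => sn_sum_le N _ _
      _ ≤ ∑ t : Fin T, ∑ q ∈ outer m T (o t), (1 : ℝ) := by
          refine sum_le_sum fun t _ => sum_le_sum fun q _ => ?_
          refine (norm_single_le h _ _).trans (le_of_eq (abs_sgn _))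
      _ = T * (4 * T + 2) := by
          simp only [sum_const, nsmul_eq_mul, mul_one]
          have hcard' : ∀ t : Fin T, ((outer m T (o t)).card : ℝ) = 4 * T + 2 := hcard
          rw [sum_congr rfl fun t _ => hcard' t]
          simp
          ring
  have htri : N (∑ n : Fin C, ∑ t : Fin T,
      (Finsupp.single (cl s o t (2 * T + 1 + (n : ℕ))) (-1 * (-1 : ℝ) ^ (n : ℕ)) : V)) ≤
      N (Gvec s o) + N (∑ t : Fin T, ∑ q ∈ outer m T (o t),
        (Finsupp.single (s t q) (sgn ((q : ℤ) + o t)) : V)) := by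
    have : (∑ n : Fin C, ∑ t : Fin T,
      (Finsupp.single (cl s o t (2 * T + 1 + (n : ℕ))) (-1 * (-1 : ℝ) ^ (n : ℕ)) : V)) =
      Gvec s o - ∑ t : Fin T, ∑ q ∈ outer m T (o t),
        (Finsupp.single (s t q) (sgn ((q : ℤ) + o t)) : V) := by
      rw [hG]; abel
    rw [this]
    exact map_sub_le_add N _ _
  rw [hmain] at htri
  linarith

/-- total sum of `Gvec` -/
theorem gvec_sum {κ T : ℕ} (s : Fin T → Fin (2 * κ) → ℕ) (o : Fin T → ℤ) :
    (Gvec s o).sum (fun _ x => x) = 0 := by
  unfold Gvec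
  rw [← Finsupp.sum_finsetSum_index (fun _ => rfl) (fun _ _ _ => rfl)]
  apply sum_eq_zero
  intro t _
  rw [← Finsupp.sum_finsetSum_index (fun _ => rfl) (fun _ _ _ => rfl)]
  rw [← sum_sgn κ (o t)]
  refine sum_congr rfl fun q _ => ?_
  rw [Finsupp.sum_single_index rfl]

theorem gvec_partial {m T : ℕ} (s : Fin T → Fin m → ℕ) (o : Fin T → ℤ) (k : ℕ) :
    ∑ i ∈ range k, Gvec s o i =
      ∑ t : Fin T, ∑ q : Fin m, if s t q < k then sgn ((q : ℤ) + o t) else 0 := by
  unfold Gvec
  have h1 : ∀ i, (∑ t : Fin T, ∑ q : Fin m,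
      (Finsupp.single (s t q) (sgn ((q : ℤ) + o t)) : V)) i =
      ∑ t : Fin T, ∑ q : Fin m, if s t q = i then sgn ((q : ℤ) + o t) else 0 := by
    intro i
    rw [Finsupp.finsetSum_apply]
    refine sum_congr rfl fun t _ => ?_
    rw [Finsupp.finsetSum_apply]
    refine sum_congr rfl fun q _ => ?_
    rw [Finsupp.single_apply]
  rw [sum_congr rfl fun i _ => h1 i, sum_comm]
  refine sum_congr rfl fun t _ => ?_
  rw [sum_comm]
  refine sum_congr rfl fun q _ => ?_
  rw [sum_ite_eq]
  simp only [mem_range]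

theorem gvec_cut {m T : ℕ} (hm : 4 * T + 6 ≤ m) (s : Fin T → Fin m → ℕ) (o : Fin T → ℤ)
    (hg : GoodPath m T s o) :
    ∃ k0 k1 : ℕ, ∑ i ∈ range k0, Gvec s o i - ∑ i ∈ range k1, Gvec s o i = T := by
  have hF : ∀ j : ℤ, 1 ≤ j → j ≤ 4 → Full m T (2 * T + j) := by
    intro j h1 h2
    constructor <;> omega
  refine ⟨1 + univ.sup (fun t => cl s o t (2 * T + 2)),
    1 + univ.sup (fun t => cl s o t (2 * T + 3)), ?_⟩
  rw [gvec_partial, gvec_partial, ← sum_sub_distrib]
  have key : ∀ t : Fin T, (∑ q : Fin m, if s t q < 1 + univ.sup (fun t => cl s o t (2 * T + 2))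
        then sgn ((q : ℤ) + o t) else 0) -
      (∑ q : Fin m, if s t q < 1 + univ.sup (fun t => cl s o t (2 * T + 3))
        then sgn ((q : ℤ) + o t) else 0) = 1 := by
    intro t
    obtain ⟨q0, hq0, e0⟩ := cl_full hg t (2 * T + 2) (hF 2 (by norm_num) (by norm_num))
    obtain ⟨q1, hq1, e1⟩ := cl_full hg t (2 * T + 3) (hF 3 (by norm_num) (by norm_num))
    obtain ⟨q2, hq2, e2⟩ := cl_full hg t (2 * T + 4) (hF 4 (by norm_num) (by norm_num))
    rw [← sum_sub_distrib, Finset.sum_eq_single q1]
    · -- the term q1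
      have h1 : s t q1 < 1 + univ.sup (fun t => cl s o t (2 * T + 3)) := by
        rw [← e1]
        have := le_sup (f := fun t => cl s o t (2 * T + 3)) (mem_univ t)
        have h' : cl s o t (2 * T + 3) ≤ univ.sup (fun t => cl s o t (2 * T + 3)) := this
        omega
      have h2 : ¬ s t q1 < 1 + univ.sup (fun t => cl s o t (2 * T + 2)) := by
        rw [← e1]
        have h' : univ.sup (fun t => cl s o t (2 * T + 2)) < cl s o t (2 * T + 3) := by
          rw [Finset.sup_lt_iff]
          · intro t' _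
            exact cl_lt hg _ _ (hF 2 (by norm_num) (by norm_num))
              (hF 3 (by norm_num) (by norm_num)) (by omega) t' t
          · exact lt_of_le_of_lt (Nat.zero_le _) (cl_lt hg _ _ (hF 2 (by norm_num) (by norm_num))
              (hF 3 (by norm_num) (by norm_num)) (by omega) t t)
        omega
      rw [if_pos h1, if_neg h2, hq1]
      have hodd : ¬ Even (2 * (T : ℤ) + 3) := by
        have : 2 * (T : ℤ) + 3 = 2 * (T + 1) + 1 := by ring
        rw [this, Int.even_add_one]
        exact fun h => h (even_two_mul _)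
      unfold sgn
      rw [if_neg hodd]
      norm_num
    · intro q _ hq
      rcases lt_or_gt_of_ne hq with hlt | hgt
      · -- q < q1 : both conditions hold
        have hq0' : q ≤ q0 := by
          show (q : ℕ) ≤ q0
          have : (q : ℕ) < q1 := hlt
          omega
        have ha : s t q ≤ s t q0 := (hg.mono t).monotone hq0'
        have hb : s t q0 ≤ univ.sup (fun t => cl s o t (2 * T + 2)) := by
          rw [← e0]
          exact le_sup (f := fun t => cl s o t (2 * T + 2)) (mem_univ t)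
        have hc : s t q < s t q1 := (hg.mono t) hlt
        have hd : s t q1 ≤ univ.sup (fun t => cl s o t (2 * T + 3)) := by
          rw [← e1]
          exact le_sup (f := fun t => cl s o t (2 * T + 3)) (mem_univ t)
        rw [if_pos (by omega), if_pos (by omega), sub_self]
      · have hq2' : q2 ≤ q := by
          show (q2 : ℕ) ≤ q
          have : (q1 : ℕ) < q := hgt
          omega
        have ha : s t q2 ≤ s t q := (hg.mono t).monotone hq2'
        have hb : univ.sup (fun t => cl s o t (2 * T + 3)) < s t q2 := by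
          rw [← e2, Finset.sup_lt_iff]
          · intro t' _
            exact cl_lt hg _ _ (hF 3 (by norm_num) (by norm_num))
              (hF 4 (by norm_num) (by norm_num)) (by omega) t' t
          · exact lt_of_le_of_lt (Nat.zero_le _) (cl_lt hg _ _ (hF 3 (by norm_num) (by norm_num))
              (hF 4 (by norm_num) (by norm_num)) (by omega) t t)
        have hc : univ.sup (fun t => cl s o t (2 * T + 2)) < s t q2 := by
          rw [← e2, Finset.sup_lt_iff]
          · intro t' _
            exact cl_lt hg _ _ (hF 2 (by norm_num) (by norm_num))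
              (hF 4 (by norm_num) (by norm_num)) (by omega) t' t
          · exact lt_of_le_of_lt (Nat.zero_le _) (cl_lt hg _ _ (hF 3 (by norm_num) (by norm_num))
              (hF 4 (by norm_num) (by norm_num)) (by omega) t t)
        rw [if_neg (by omega), if_neg (by omega), sub_self]
    · intro h; exact absurd (mem_univ _) h
  rw [sum_congr rfl fun t _ => key t]
  simp

theorem lower_bound (h : Indisc p K N) :
    ∃ c : ℝ, 0 < c ∧ ∀ T : ℕ, 1 ≤ T → ∃ (κ : ℕ) (b : ℝ), 1 ≤ κ ∧ 0 < b ∧
      (∀ s : Fin (2 * κ) → ℕ, StrictMono s → N (alt s) ≤ b) ∧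
      ∀ (s : Fin T → Fin (2 * κ) → ℕ) (o : Fin T → ℤ), GoodPath (2 * κ) T s o →
        c * T * b ≤ N (Gvec s o) := by
  by_cases hB : ∃ B, ∀ R, Psi N (2 * R) ≤ B
  · obtain ⟨B, hB⟩ := hB
    have hpos := h.pos
    obtain ⟨θ, hθ⟩ : ∃ θ, θ = N (Finsupp.single 0 1 - Finsupp.single 1 1) := ⟨_, rfl⟩
    rw [← hθ] at hpos
    have hb1 : (1 : ℝ) ≤ max B 1 := le_max_right _ _
    refine ⟨θ / (2 * max B 1), by positivity, fun T hT => ⟨2 * T + 4, max B 1, by omega,
      by linarith, ?_, ?_⟩⟩
    · intro s hs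
      rw [norm_alt h s hs]
      exact (hB _).trans (le_max_left _ _)
    · intro s o hg
      obtain ⟨k0, k1, hk⟩ := gvec_cut (by omega) s o hg
      have h0 := collapse h B hB (Gvec s o) k0 (gvec_sum s o)
      have h1 := collapse h B hB (Gvec s o) k1 (gvec_sum s o)
      rw [← hθ] at h0 h1
      have e : θ / (2 * max B 1) * T * max B 1 = T / 2 * θ := by
        have : max B 1 ≠ 0 := by linarith
        field_simp
      rw [e]
      have h2 : (T : ℝ) ≤ |∑ i ∈ range k0, Gvec s o i| + |∑ i ∈ range k1, Gvec s o i| := by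
        rw [← hk]
        exact (le_abs_self _).trans (abs_sub _ _)
      nlinarith
  · push Not at hB
    refine ⟨1 / 2, by norm_num, fun T hT => ?_⟩
    obtain ⟨R, hR⟩ := hB (16 * T + 8)
    have hT1 : (1 : ℝ) ≤ T := by exact_mod_cast hT
    have hle := Psi_le_add h 0 (2 * R)
    rw [zero_add, Psi_zero, zero_add] at hle
    have hR2 : 16 * T + 8 < 2 * R := by
      have : (16 * (T : ℝ) + 8) < ((2 * R : ℕ) : ℝ) := lt_of_lt_of_le hR hle
      exact_mod_cast this
    refine ⟨R, Psi N (2 * R), by omega, by linarith, ?_, ?_⟩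
    · intro s hs
      rw [norm_alt h s hs]
    · intro s o hg
      have h1 := gvec_lower h hT (by omega) s o hg
      have h2 := Psi_le_add h (2 * R - (4 * T + 2)) (4 * T + 2)
      rw [show 2 * R - (4 * T + 2) + (4 * T + 2) = 2 * R by omega] at h2
      push_cast at h2
      nlinarith

end Vale.Agent.P125
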