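import Vale.Agent.Lib.P125.Ultra

/-! # P125, module LAW: approximately spreadable laws on increasing tuples.

Proof: Hahn-Banach in the space of bounded functions on `(ι × ι) × {φ | |φ| ≤ 1}`.
`pt z ((j,j'),φ) = φ (z ∘ κ j) - φ (z ∘ κ j')`.
If the convex hull of `{pt z | StrictMono z}` does not meet the ball of radius `ε`, there is a
continuous functional `f` and `u > 0` with `u ≤ f (pt z)` for all strictly increasing `z`; but
`f (pt z) = ∑_{j,j'} (g_{jj'} (z ∘ κ j) - g_{jj'} (z ∘ κ j'))` with bounded `g`, and along the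
ultrafilter `U M` both terms have the same limit (limit of `g_{jj'}` along `U m`).  -/

namespace Vale.Agent.P125

open Finset Filter Topology

namespace Law

/-- test functions -/
structure Tst (m : ℕ) : Type where
  φ : (Fin m → ℕ) → ℝ
  le : ∀ s, |φ s| ≤ 1

instance (m : ℕ) : TopologicalSpace (Tst m) := ⊥
instance (m : ℕ) : DiscreteTopology (Tst m) := ⟨rfl⟩

/-- index set -/
structure Idx (ι : Type) (m : ℕ) : Type where
  a : ι
  b : ι
  t : Tst m

instance (ι : Type) (m : ℕ) : TopologicalSpace (Idx ι m) := ⊥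
instance (ι : Type) (m : ℕ) : DiscreteTopology (Idx ι m) := ⟨rfl⟩

open Classical in
/-- evaluation in the component `(j, j')` -/
noncomputable def ev {ι : Type} {m : ℕ} (j j' : ι) (s : Fin m → ℕ) :
    BoundedContinuousFunction (Idx ι m) ℝ :=
  BoundedContinuousFunction.ofNormedAddCommGroupDiscrete
    (fun x => if x.a = j ∧ x.b = j' then x.t.φ s else 0) 1 (by
      intro x
      split_ifs
      · exact x.t.le s
      · simp)

open Classical in
theorem ev_apply {ι : Type} {m : ℕ} (j j' : ι) (s : Fin m → ℕ) (x : Idx ι m) :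
    ev j j' s x = if x.a = j ∧ x.b = j' then x.t.φ s else 0 := rfl

theorem norm_ev_le {ι : Type} {m : ℕ} (j j' : ι) (s : Fin m → ℕ) : ‖ev j j' s‖ ≤ 1 := by
  rw [BoundedContinuousFunction.norm_le zero_le_one]
  intro x
  rw [ev_apply]
  split_ifs
  · exact x.t.le s
  · simp

/-- the point of a tuple -/
noncomputable def pt {ι : Type} [Fintype ι] {m M : ℕ} (κ : ι → Fin m → Fin M) (z : Fin M → ℕ) :
    BoundedContinuousFunction (Idx ι m) ℝ :=
  ∑ j, ∑ j', (ev j j' (z ∘ κ j) - ev j j' (z ∘ κ j'))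

theorem pt_apply {ι : Type} [Fintype ι] {m M : ℕ} (κ : ι → Fin m → Fin M) (z : Fin M → ℕ)
    (x : Idx ι m) : pt κ z x = x.t.φ (z ∘ κ x.a) - x.t.φ (z ∘ κ x.b) := by
  classical
  unfold pt
  rw [BoundedContinuousFunction.sum_apply]
  rw [Finset.sum_eq_single x.a]
  · rw [BoundedContinuousFunction.sum_apply, Finset.sum_eq_single x.b]
    · rw [BoundedContinuousFunction.sub_apply, ev_apply, ev_apply]
      simp
    · intro b _ hb
      rw [BoundedContinuousFunction.sub_apply, ev_apply, ev_apply]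
      simp [Ne.symm hb]
    · simp
  · intro a _ ha
    rw [BoundedContinuousFunction.sum_apply]
    refine Finset.sum_eq_zero fun b _ => ?_
    rw [BoundedContinuousFunction.sub_apply, ev_apply, ev_apply]
    simp [Ne.symm ha]
  · simp

end Law

open Law

theorem exists_law {ι : Type} [Fintype ι] (m M : ℕ) (κ : ι → Fin m → Fin M)
    (hκ : ∀ j, StrictMono (κ j)) (ε : ℝ) (hε : 0 < ε) :
    ∃ (r : ℕ) (w : Fin r → ℝ) (z : Fin r → Fin M → ℕ),
      (∀ i, 0 < w i) ∧ ∑ i, w i = 1 ∧ (∀ i, StrictMono (z i)) ∧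
      ∀ (j j' : ι) (φ : (Fin m → ℕ) → ℝ), (∀ s, |φ s| ≤ 1) →
        |∑ i, w i * (φ (z i ∘ κ j) - φ (z i ∘ κ j'))| ≤ ε := by
  classical
  obtain ⟨U, hUmono, hUmap⟩ := exists_ultra
  set S : Set (BoundedContinuousFunction (Idx ι m) ℝ) := {y | ∃ z, StrictMono z ∧ pt κ z = y} with hS
  by_cases hdis : Disjoint (Metric.ball (0 : BoundedContinuousFunction (Idx ι m) ℝ) ε)
      (convexHull ℝ S)
  · exfalso
    obtain ⟨f, u, hf1, hf2⟩ := geometric_hahn_banach_open (convex_ball _ _) Metric.isOpen_ball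
      (convex_convexHull ℝ S) hdis
    have hu : 0 < u := by
      have := hf1 0 (Metric.mem_ball_self hε)
      simpa using this
    -- limits
    have hlim : ∀ j j' : ι, ∃ c : ℝ, Tendsto (fun s => f (ev j j' s)) (U m : Filter (Fin m → ℕ))
        (𝓝 c) := by
      intro j j'
      have hb : ∀ s, f (ev j j' s) ∈ Set.Icc (-‖f‖) ‖f‖ := by
        intro s
        have h1 : |f (ev j j' s)| ≤ ‖f‖ := by
          calc |f (ev j j' s)| = ‖f (ev j j' s)‖ := rfl
            _ ≤ ‖f‖ * ‖ev j j' s‖ := f.le_opNorm _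
            _ ≤ ‖f‖ * 1 := by
                exact mul_le_mul_of_nonneg_left (norm_ev_le j j' s) (norm_nonneg _)
            _ = ‖f‖ := mul_one _
        exact abs_le.mp h1
      obtain ⟨c, _, hc⟩ := (isCompact_Icc (a := -‖f‖) (b := ‖f‖)).ultrafilter_le_nhds
        ((U m).map (fun s => f (ev j j' s))) (by
          rw [Ultrafilter.coe_map, Filter.le_principal_iff, Filter.mem_map]
          exact Filter.univ_mem' hb)
      exact ⟨c, hc⟩
    choose c hc using hlim
    have hcomp : ∀ j j' i : ι, Tendsto (fun z : Fin M → ℕ => f (ev j j' (z ∘ κ i)))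
        (U M : Filter (Fin M → ℕ)) (𝓝 (c j j')) := by
      intro j j' i
      have h1 := hUmap m M (κ i) (hκ i)
      have h2 := hc j j'
      rw [← h1] at h2
      exact h2
    have htend : Tendsto (fun z : Fin M → ℕ => f (pt κ z)) (U M : Filter (Fin M → ℕ)) (𝓝 0) := by
      have h1 : Tendsto (fun z : Fin M → ℕ => ∑ j, ∑ j', (f (ev j j' (z ∘ κ j)) -
          f (ev j j' (z ∘ κ j')))) (U M : Filter (Fin M → ℕ)) (𝓝 (∑ j, ∑ j', (c j j' - c j j'))) := by
        refine tendsto_finsetSum _ fun j _ => tendsto_finsetSum _ fun j' _ => ?_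
        exact (hcomp j j' j).sub (hcomp j j' j')
      have h2 : ∑ j, ∑ j', (c j j' - c j j') = 0 := by simp
      rw [h2] at h1
      refine h1.congr fun z => ?_
      unfold pt
      simp only [map_sum, map_sub]
    have hge : u ≤ 0 := by
      refine ge_of_tendsto htend ?_
      filter_upwards [hUmono M] with z hz
      exact hf2 _ (subset_convexHull ℝ S ⟨z, hz, rfl⟩)
    linarith
  · rw [Set.not_disjoint_iff] at hdis
    obtain ⟨x, hxball, hxhull⟩ := hdis
    rw [mem_ball_zero_iff] at hxball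
    rw [mem_convexHull_iff_exists_fintype] at hxhull
    obtain ⟨τ, hτ, w, y, hw0, hw1, hy, hx⟩ := hxhull
    choose z hz hzy using hy
    -- restrict to positive weights
    let P : Finset τ := Finset.univ.filter (fun i => 0 < w i)
    have hPsum : ∀ g : τ → ℝ, ∑ i ∈ P, w i * g i = ∑ i, w i * g i := by
      intro g
      rw [Finset.sum_filter]
      refine Finset.sum_congr rfl fun i _ => ?_
      split_ifs with h
      · rfl
      · have : w i = 0 := le_antisymm (not_lt.mp h) (hw0 i)
        simp [this]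
    let e := P.equivFin
    refine ⟨P.card, fun i => w (e.symm i), fun i => z (e.symm i), ?_, ?_, ?_, ?_⟩
    · intro i
      exact (Finset.mem_filter.mp (e.symm i).2).2
    · have h1 : ∑ i : Fin P.card, w (e.symm i) = ∑ i : P, w i :=
        e.symm.sum_comp (fun i : P => w i)
      rw [h1, Finset.sum_coe_sort P (fun i => w i)]
      have := hPsum (fun _ => 1)
      simp only [mul_one] at this
      rw [this, hw1]
    · intro i
      exact hz _
    · intro j j' φ hφ
      have h1 : ∑ i : Fin P.card, w (e.symm i) * (φ (z (e.symm i) ∘ κ j) -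
          φ (z (e.symm i) ∘ κ j')) = ∑ i : P, w i * (φ (z i ∘ κ j) - φ (z i ∘ κ j')) :=
        e.symm.sum_comp (fun i : P => w i * (φ (z i ∘ κ j) - φ (z i ∘ κ j')))
      rw [h1, Finset.sum_coe_sort P (fun i => w i * (φ (z i ∘ κ j) - φ (z i ∘ κ j'))),
        hPsum (fun i => φ (z i ∘ κ j) - φ (z i ∘ κ j'))]
      have h2 : x ⟨j, j', ⟨φ, hφ⟩⟩ = ∑ i, w i * (φ (z i ∘ κ j) - φ (z i ∘ κ j')) := by
        rw [← hx, BoundedContinuousFunction.sum_apply]
        refine Finset.sum_congr rfl fun i _ => ?_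
        rw [BoundedContinuousFunction.smul_apply, ← hzy i, pt_apply]
        rfl
      rw [← h2]
      calc |x ⟨j, j', ⟨φ, hφ⟩⟩| = ‖x ⟨j, j', ⟨φ, hφ⟩⟩‖ := rfl
        _ ≤ ‖x‖ := x.norm_coe_le_norm _
        _ ≤ ε := hxball.le

end Vale.Agent.P125
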