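import Vale.Agent.Lib.P125.Defs

/-! # P125, module MERGE: first consequences of spreading and splitting invariance. -/

namespace Vale.Agent.P125

open Finset

variable {p K : ℝ} {N : Seminorm ℝ V}

theorem norm_alt (h : Indisc p K N) {m : ℕ} (s : Fin m → ℕ) (hs : StrictMono s) :
    N (alt s) = Psi N m :=
  h.spread m s (fun q : Fin m => (-1 : ℝ) ^ (q : ℕ)) hs

theorem Psi_nonneg (N : Seminorm ℝ V) (m : ℕ) : 0 ≤ Psi N m := apply_nonneg _ _

theorem Psi_zero (N : Seminorm ℝ V) : Psi N 0 = 0 := by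
  unfold Psi alt
  rw [Finset.univ_eq_empty, Finset.sum_empty, map_zero]

theorem Psi_le_add (h : Indisc p K N) (m k : ℕ) : Psi N (m + k) ≤ Psi N m + k := by
  have hr : ∀ n, Psi N n = N (∑ q ∈ range n, Finsupp.single q ((-1 : ℝ) ^ q)) := by
    intro n
    unfold Psi alt
    rw [Fin.sum_univ_eq_sum_range (fun q => Finsupp.single q ((-1 : ℝ) ^ q)) n]
  induction k with
  | zero => simp
  | succ k ih =>
    rw [← add_assoc, hr, Finset.sum_range_succ]
    refine (map_add_le_add N _ _).trans ?_
    rw [← hr (m + k)]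
    have h1 : N (Finsupp.single (m + k) ((-1 : ℝ) ^ (m + k))) ≤ 1 := by
      have : Finsupp.single (m + k) ((-1 : ℝ) ^ (m + k)) =
          ((-1 : ℝ) ^ (m + k)) • Finsupp.single (m + k) (1 : ℝ) := by
        rw [Finsupp.smul_single, smul_eq_mul, mul_one]
      rw [this, map_smul_eq_mul, Real.norm_eq_abs, abs_pow, abs_neg, abs_one, one_pow, one_mul]
      exact h.one _
    push_cast
    linarith

/-- clusters of `T` equal masses merge -/
theorem merge (h : Indisc p K N) (C T : ℕ) (hT : 0 < T) (pos : Fin C → Fin T → ℕ)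
    (h1 : ∀ n n' : Fin C, n < n' → ∀ t t', pos n t < pos n' t')
    (h2 : ∀ n, StrictMono (pos n) ∨ StrictAnti (pos n)) (a : Fin C → ℝ) :
    N (∑ n, ∑ t, Finsupp.single (pos n t) (a n)) = T * N (vec (fun i : Fin C => (i : ℕ)) a) := by
  classical
  let pos' : Fin C → Fin T → ℕ := fun n t => if StrictMono (pos n) then pos n t
    else pos n (Fin.rev t)
  have hmono : ∀ n, StrictMono (pos' n) := by
    intro n
    by_cases hn : StrictMono (pos n)
    · have : pos' n = pos n := by
        funext t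
        exact if_pos hn
      rw [this]
      exact hn
    · have : pos' n = fun t => pos n (Fin.rev t) := by
        funext t
        exact if_neg hn
      rw [this]
      intro t t' htt
      exact (h2 n).resolve_left hn (Fin.rev_lt_rev.2 htt)
  have hsum : ∀ n, ∑ t, Finsupp.single (pos n t) (a n) = ∑ t, Finsupp.single (pos' n t) (a n) := by
    intro n
    by_cases hn : StrictMono (pos n)
    · refine Finset.sum_congr rfl fun t _ => ?_
      rw [show pos' n t = pos n t from if_pos hn]
    · have : ∀ t, pos' n t = pos n (Fin.rev t) := fun t => if_neg hn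
      simp only [this]
      exact (Equiv.sum_comp Fin.revPerm (fun t => Finsupp.single (pos n t) (a n))).symm
  have hpos' : ∀ n n' : Fin C, n < n' → ∀ t t', pos' n t < pos' n' t' := by
    intro n n' hn t t'
    have e1 : ∃ u, pos' n t = pos n u := by
      by_cases hh : StrictMono (pos n)
      · exact ⟨t, if_pos hh⟩
      · exact ⟨Fin.rev t, if_neg hh⟩
    have e2 : ∃ u, pos' n' t' = pos n' u := by
      by_cases hh : StrictMono (pos n')
      · exact ⟨t', if_pos hh⟩
      · exact ⟨Fin.rev t', if_neg hh⟩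
    obtain ⟨u, hu⟩ := e1
    obtain ⟨u', hu'⟩ := e2
    rw [hu, hu']
    exact h1 n n' hn u u'
  let e : Fin C × Fin T ≃ Fin (C * T) := finProdFinEquiv
  have he : ∀ n t, ((e (n, t) : Fin (C * T)) : ℕ) = t + T * n := fun n t => rfl
  let κ : Fin (C * T) → ℕ := fun i => pos' (e.symm i).1 (e.symm i).2
  let b : Fin (C * T) → ℝ := fun i => a (e.symm i).1
  have hκ : StrictMono κ := by
    intro i j hij
    obtain ⟨⟨n, t⟩, rfl⟩ := e.surjective i
    obtain ⟨⟨n', t'⟩, rfl⟩ := e.surjective j
    have hij' : (t : ℕ) + T * n < t' + T * n' := hij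
    show pos' (e.symm (e (n, t))).1 (e.symm (e (n, t))).2 <
      pos' (e.symm (e (n', t'))).1 (e.symm (e (n', t'))).2
    rw [Equiv.symm_apply_apply, Equiv.symm_apply_apply]
    show pos' n t < pos' n' t'
    rcases lt_trichotomy n n' with hn | hn | hn
    · exact hpos' n n' hn t t'
    · subst hn
      refine hmono n ?_
      show (t : ℕ) < t'
      omega
    · exfalso
      have hn' : (n' : ℕ) + 1 ≤ n := hn
      have h3 : T * ((n' : ℕ) + 1) ≤ T * n := Nat.mul_le_mul_left T hn'
      have h4 := t'.2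
      rw [mul_add, mul_one] at h3
      omega
  have hv : ∀ κ' : Fin (C * T) → ℕ, vec κ' b =
      ∑ n : Fin C, ∑ t : Fin T, Finsupp.single (κ' (e (n, t))) (a n) := by
    intro κ'
    unfold vec
    rw [← Equiv.sum_comp e (fun i => Finsupp.single (κ' i) (b i)), Fintype.sum_prod_type]
    refine Finset.sum_congr rfl fun n _ => Finset.sum_congr rfl fun t _ => ?_
    have : b (e (n, t)) = a n := by
      show a (e.symm (e (n, t))).1 = a n
      rw [Equiv.symm_apply_apply]
    rw [this]
  have hS : N (∑ n, ∑ t, Finsupp.single (pos n t) (a n)) = N (vec κ b) := by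
    rw [hv κ]
    congr 1
    refine Finset.sum_congr rfl fun n _ => ?_
    rw [hsum n]
    refine Finset.sum_congr rfl fun t _ => ?_
    have : κ (e (n, t)) = pos' n t := by
      show pos' (e.symm (e (n, t))).1 (e.symm (e (n, t))).2 = _
      rw [Equiv.symm_apply_apply]
    rw [this]
  rw [hS]
  have h3 : N (vec κ b) = N (vec (fun i => (i : ℕ)) b) := h.spread _ κ b hκ
  have hT' : (T : ℝ) ≠ 0 := by exact_mod_cast hT.ne'
  have h4 := h.split C T (fun n => T * a n) hT
  have h5 : (∑ i : Fin C, ∑ k : Fin T, Finsupp.single ((i : ℕ) * T + k) ((T * a i) / T : ℝ)) =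
      vec (fun i => (i : ℕ)) b := by
    rw [hv]
    refine Finset.sum_congr rfl fun n _ => Finset.sum_congr rfl fun t _ => ?_
    rw [he, mul_div_cancel_left₀ _ hT']
    congr 1
    ring
  have h6 : vec (fun i : Fin C => (i : ℕ)) (fun n => (T : ℝ) * a n) =
      (T : ℝ) • vec (fun i : Fin C => (i : ℕ)) a := by
    unfold vec
    rw [Finset.smul_sum]
    refine Finset.sum_congr rfl fun n _ => ?_
    rw [Finsupp.smul_single, smul_eq_mul]
  rw [h3, ← h5]
  have h4' : N (∑ i : Fin C, ∑ k : Fin T, Finsupp.single ((i : ℕ) * T + k) ((T * a i) / T : ℝ)) =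
    N (vec (fun i : Fin C => (i : ℕ)) (fun n => (T : ℝ) * a n)) := h4
  rw [h4', h6, map_smul_eq_mul, Real.norm_eq_abs, Nat.abs_cast]

/-- with alternating signs -/
theorem merge_alt (h : Indisc p K N) (C T : ℕ) (hT : 0 < T) (pos : Fin C → Fin T → ℕ)
    (h1 : ∀ n n' : Fin C, n < n' → ∀ t t', pos n t < pos n' t')
    (h2 : ∀ n, StrictMono (pos n) ∨ StrictAnti (pos n)) (c : ℝ) (hc : |c| = 1) :
    N (∑ n, ∑ t, Finsupp.single (pos n t) (c * (-1 : ℝ) ^ (n : ℕ))) = T * Psi N C := by
  have hm := merge h C T hT pos h1 h2 (fun n => c * (-1 : ℝ) ^ (n : ℕ))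
  rw [hm]
  have h6 : vec (fun i : Fin C => (i : ℕ)) (fun n => c * (-1 : ℝ) ^ (n : ℕ)) =
      c • alt (fun q : Fin C => (q : ℕ)) := by
    unfold vec alt
    rw [Finset.smul_sum]
    refine Finset.sum_congr rfl fun n _ => ?_
    rw [Finsupp.smul_single, smul_eq_mul]
  rw [h6, map_smul_eq_mul, Real.norm_eq_abs, hc, one_mul]
  rfl

end Vale.Agent.P125
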