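import Vale.Agent.Lib.P125.Defs

/-! # P125, module MIX: `p`-mixtures of seminorms. -/

namespace Vale.Agent.P125

open Finset

/-- The class of functions `Q = N ^ p` with `N` a seminorm on `V` with Markov type `p`, constant
`K`. -/
structure PS (p K : ℝ) (Q : V → ℝ) : Prop where
  nonneg : ∀ a, 0 ≤ Q a
  smul : ∀ (c : ℝ) (a : V), Q (c • a) = |c| ^ p * Q a
  add : ∀ a b : V, Q (a + b) ^ (1 / p) ≤ Q a ^ (1 / p) + Q b ^ (1 / p)
  mt : MT p K (fun a => Q a ^ (1 / p))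

/-- from `PS` to a seminorm -/
theorem PS.exists_seminorm {p K : ℝ} (hp : 1 ≤ p) {Q : V → ℝ} (h : PS p K Q) :
    ∃ N : Seminorm ℝ V, ∀ a, N a = Q a ^ (1 / p) := by
  have hp0 : 0 < p := by linarith
  have hsm : ∀ (c : ℝ) (x : V), Q (c • x) ^ (1 / p) = ‖c‖ * Q x ^ (1 / p) := by
    intro c x
    rw [h.smul, Real.mul_rpow (by positivity) (h.nonneg x), ← Real.rpow_mul (abs_nonneg c),
      mul_one_div_cancel hp0.ne', Real.rpow_one, Real.norm_eq_abs]
  exact ⟨Seminorm.of (fun x => Q x ^ (1 / p)) h.add hsm, fun x => rfl⟩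

/-- the Markov type inequality in terms of `Q` -/
theorem MT_iff_pow {p K : ℝ} (hp : 1 ≤ p) {Q : V → ℝ} (h0 : ∀ a, 0 ≤ Q a) :
    MT p K (fun a => Q a ^ (1 / p)) ↔
      ∀ (S : Type) [Fintype S] [DecidableEq S] (π : S → ℝ) (P : Matrix S S ℝ),
    (∀ i, 0 ≤ π i) → ∑ i, π i = 1 → (∀ i j, 0 ≤ P i j) → (∀ i, ∑ j, P i j = 1) →
    (∀ i j, π i * P i j = π j * P j i) →
    ∀ (f : S → V) (t : ℕ), 1 ≤ t →
      ∑ i, ∑ j, π i * (P ^ t) i j * Q (f j - f i) ≤
        K ^ p * t * ∑ i, ∑ j, π i * P i j * Q (f j - f i) := by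
  have hp0 : p ≠ 0 := by linarith
  have e : ∀ a, (Q a ^ (1 / p)) ^ p = Q a := by
    intro a
    rw [← Real.rpow_mul (h0 a), one_div_mul_cancel hp0, Real.rpow_one]
  constructor
  · intro h S _ _ π P h1 h2 h3 h4 h5 f t ht
    have := h S π P h1 h2 h3 h4 h5 f t ht
    simpa only [e] using this
  · intro h S _ _ π P h1 h2 h3 h4 h5 f t ht
    have := h S π P h1 h2 h3 h4 h5 f t ht
    simpa only [e] using this

/-- base case -/
theorem PS.of_linear {p K : ℝ} (hp : 1 ≤ p) {X : Type*} [NormedAddCommGroup X] [NormedSpace ℝ X]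
    (hX : MT p K (fun x : X => ‖x‖)) (L : V →ₗ[ℝ] X) : PS p K (fun a => ‖L a‖ ^ p) := by
  have hp0 : p ≠ 0 := by linarith
  have e : ∀ a, (‖L a‖ ^ p) ^ (1 / p) = ‖L a‖ := by
    intro a
    rw [← Real.rpow_mul (norm_nonneg _), mul_one_div_cancel hp0, Real.rpow_one]
  refine ⟨fun a => by positivity, ?_, ?_, ?_⟩
  · intro c a
    rw [map_smul, norm_smul, Real.norm_eq_abs, Real.mul_rpow (abs_nonneg c) (norm_nonneg _)]
  · intro a b
    rw [e, e, e, map_add]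
    exact norm_add_le _ _
  · rw [MT_iff_pow hp (fun a => by positivity)]
    intro S _ _ π P h1 h2 h3 h4 h5 f t ht
    have := hX S π P h1 h2 h3 h4 h5 (fun i => L (f i)) t ht
    simpa only [map_sub] using this

/-- mixtures (Minkowski) -/
theorem PS.mix {p K : ℝ} (hp : 1 ≤ p) {Q₁ Q₂ : V → ℝ} (h₁ : PS p K Q₁) (h₂ : PS p K Q₂)
    (lam : ℝ) (h0 : 0 ≤ lam) (hl : lam ≤ 1) :
    PS p K (fun a => lam * Q₁ a + (1 - lam) * Q₂ a) := by
  have hp0 : 0 < p := by linarith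
  have hl' : 0 ≤ 1 - lam := sub_nonneg.2 hl
  have hnn : ∀ a, 0 ≤ lam * Q₁ a + (1 - lam) * Q₂ a := fun a =>
    add_nonneg (mul_nonneg h0 (h₁.nonneg a)) (mul_nonneg hl' (h₂.nonneg a))
  refine ⟨hnn, ?_, ?_, ?_⟩
  · intro c a
    simp only [h₁.smul, h₂.smul]
    ring
  · intro a b
    set u : Fin 2 → ℝ := ![lam ^ (1 / p) * Q₁ a ^ (1 / p), (1 - lam) ^ (1 / p) * Q₂ a ^ (1 / p)]
      with hu
    set v : Fin 2 → ℝ := ![lam ^ (1 / p) * Q₁ b ^ (1 / p), (1 - lam) ^ (1 / p) * Q₂ b ^ (1 / p)]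
      with hv
    have key := Real.Lp_add_le univ u v hp
    have e1 : ∀ w x : ℝ, 0 ≤ w → 0 ≤ x → |w ^ (1 / p) * x ^ (1 / p)| ^ p = w * x := by
      intro w x hw hx
      rw [abs_of_nonneg (by positivity), ← Real.mul_rpow hw hx,
        ← Real.rpow_mul (mul_nonneg hw hx), one_div_mul_cancel hp0.ne', Real.rpow_one]
    have e2 : ∀ (w x y z : ℝ), 0 ≤ w → 0 ≤ x → 0 ≤ y → 0 ≤ z →
        z ^ (1 / p) ≤ x ^ (1 / p) + y ^ (1 / p) →
        w * z ≤ |w ^ (1 / p) * x ^ (1 / p) + w ^ (1 / p) * y ^ (1 / p)| ^ p := by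
      intro w x y z hw hx hy hz hle
      rw [← mul_add, abs_of_nonneg (by positivity),
        Real.mul_rpow (by positivity) (by positivity), ← Real.rpow_mul hw,
        one_div_mul_cancel hp0.ne', Real.rpow_one]
      refine mul_le_mul_of_nonneg_left ?_ hw
      have := Real.rpow_le_rpow (by positivity) hle hp0.le
      rwa [← Real.rpow_mul hz, one_div_mul_cancel hp0.ne', Real.rpow_one] at this
    simp only [Fin.sum_univ_two, hu, hv, Matrix.cons_val_zero, Matrix.cons_val_one] at key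
    rw [e1 _ _ h0 (h₁.nonneg a), e1 _ _ hl' (h₂.nonneg a), e1 _ _ h0 (h₁.nonneg b),
      e1 _ _ hl' (h₂.nonneg b)] at key
    refine le_trans (Real.rpow_le_rpow (hnn _) ?_ (by positivity)) key
    exact add_le_add
      (e2 _ _ _ _ h0 (h₁.nonneg a) (h₁.nonneg b) (h₁.nonneg _) (h₁.add a b))
      (e2 _ _ _ _ hl' (h₂.nonneg a) (h₂.nonneg b) (h₂.nonneg _) (h₂.add a b))
  · rw [MT_iff_pow hp hnn]
    have m1 := (MT_iff_pow hp h₁.nonneg).1 h₁.mt
    have m2 := (MT_iff_pow hp h₂.nonneg).1 h₂.mt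
    intro S _ _ π P g1 g2 g3 g4 g5 f t ht
    have k1 := mul_le_mul_of_nonneg_left (m1 S π P g1 g2 g3 g4 g5 f t ht) h0
    have k2 := mul_le_mul_of_nonneg_left (m2 S π P g1 g2 g3 g4 g5 f t ht) hl'
    have lin : ∀ (R : Matrix S S ℝ),
        ∑ i, ∑ j, π i * R i j * (lam * Q₁ (f j - f i) + (1 - lam) * Q₂ (f j - f i)) =
        lam * ∑ i, ∑ j, π i * R i j * Q₁ (f j - f i) +
          (1 - lam) * ∑ i, ∑ j, π i * R i j * Q₂ (f j - f i) := by
      intro R
      rw [mul_sum, mul_sum, ← sum_add_distrib]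
      refine sum_congr rfl fun i _ => ?_
      rw [mul_sum, mul_sum, ← sum_add_distrib]
      refine sum_congr rfl fun j _ => ?_
      ring
    rw [lin, lin]
    linarith

/-- scaling by a nonnegative constant -/
theorem PS.const_mul {p K : ℝ} (hp : 1 ≤ p) {Q : V → ℝ} (h : PS p K Q) (c : ℝ) (hc : 0 ≤ c) :
    PS p K (fun a => c * Q a) := by
  have hp0 : 0 < p := by linarith
  have hnn : ∀ a, 0 ≤ c * Q a := fun a => mul_nonneg hc (h.nonneg a)
  refine ⟨hnn, ?_, ?_, ?_⟩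
  · intro d a
    simp only [h.smul]
    ring
  · intro a b
    rw [Real.mul_rpow hc (h.nonneg _), Real.mul_rpow hc (h.nonneg _),
      Real.mul_rpow hc (h.nonneg _), ← mul_add]
    exact mul_le_mul_of_nonneg_left (h.add a b) (by positivity)
  · rw [MT_iff_pow hp hnn]
    have m1 := (MT_iff_pow hp h.nonneg).1 h.mt
    intro S _ _ π P g1 g2 g3 g4 g5 f t ht
    have k1 := mul_le_mul_of_nonneg_left (m1 S π P g1 g2 g3 g4 g5 f t ht) hc
    have lin : ∀ (R : Matrix S S ℝ),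
        ∑ i, ∑ j, π i * R i j * (c * Q (f j - f i)) =
        c * ∑ i, ∑ j, π i * R i j * Q (f j - f i) := by
      intro R
      rw [mul_sum]
      refine sum_congr rfl fun i _ => ?_
      rw [mul_sum]
      refine sum_congr rfl fun j _ => ?_
      ring
    rw [lin, lin]
    linarith

end Vale.Agent.P125
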