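import Vale.Agent.Lib.P125.TreeBound

/-! # P125, module RENORM: the equivalent uniformly convex norm.

For `ε > 0` let `φ_ε x = inf { cost t - η gam t : t WF, val t = x }`.  Then
`3/4 ‖x‖^p ≤ φ_ε x ≤ ‖x‖^p`, `φ_ε (c x) = |c|^p φ_ε x`, `φ_ε` is convex, and
`φ_ε ((x+y)/2) ≤ (φ_ε x + φ_ε y)/2 - η ‖(x+y)/2‖^p` if `‖(x-y)/2‖ ≥ ε ‖(x+y)/2‖`.
Put `φ = ∑_j 2^{-j-1} φ_{1/(j+1)}` and `|x| = φ(x)^{1/p}`. -/

namespace Vale.Agent.P125

open Finset

variable {X : Type*} [NormedAddCommGroup X] [NormedSpace ℝ X]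

namespace MTree

/-- scaling of a tree -/
noncomputable def scale (c : ℝ) : MTree X → MTree X
  | leaf x => leaf (c • x)
  | node lam l r => node lam (l.scale c) (r.scale c)

theorem val_scale (c : ℝ) (t : MTree X) : (t.scale c).val = c • t.val := by
  induction t with
  | leaf x => rfl
  | node lam l r hl hr =>
    simp only [scale, val, hl, hr, smul_add, smul_smul]
    congr 2 <;> ring

theorem WF_scale (c : ℝ) (t : MTree X) (ht : t.WF) : (t.scale c).WF := by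
  induction t with
  | leaf x => trivial
  | node lam l r hl hr =>
    exact ⟨ht.1, ht.2.1, hl ht.2.2.1, hr ht.2.2.2⟩

theorem norm_smul_rpow (p c : ℝ) (x : X) : ‖c • x‖ ^ p = |c| ^ p * ‖x‖ ^ p := by
  rw [norm_smul, Real.norm_eq_abs, Real.mul_rpow (abs_nonneg c) (norm_nonneg x)]

theorem cost_scale (p c : ℝ) (t : MTree X) : (t.scale c).cost p = |c| ^ p * t.cost p := by
  induction t with
  | leaf x => exact norm_smul_rpow p c x
  | node lam l r hl hr =>
    simp only [scale, cost, hl, hr]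
    ring

theorem sig_scale {ε c lam : ℝ} (hc : c ≠ 0) (x y : X) :
    Sig ε lam (c • x) (c • y) ↔ Sig ε lam x y := by
  unfold Sig
  have h1 : (1 / 2 : ℝ) • (c • x + c • y) = c • ((1 / 2 : ℝ) • (x + y)) := by
    rw [← smul_add, smul_comm]
  have h2 : (1 / 2 : ℝ) • (c • x - c • y) = c • ((1 / 2 : ℝ) • (x - y)) := by
    rw [← smul_sub, smul_comm]
  rw [h1, h2, norm_smul c, norm_smul c]
  have hc' : 0 < ‖c‖ := norm_pos_iff.2 hc
  constructor
  · rintro ⟨h, h'⟩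
    refine ⟨h, ?_⟩
    have : ‖c‖ * (ε * ‖(1 / 2 : ℝ) • (x + y)‖) ≤ ‖c‖ * ‖(1 / 2 : ℝ) • (x - y)‖ := by
      linarith [h']
    exact le_of_mul_le_mul_left this hc'
  · rintro ⟨h, h'⟩
    refine ⟨h, ?_⟩
    have := mul_le_mul_of_nonneg_left h' hc'.le
    linarith

theorem gam_scale {p ε c : ℝ} (hc : c ≠ 0) (t : MTree X) :
    (t.scale c).gam p ε = |c| ^ p * t.gam p ε := by
  induction t with
  | leaf x => simp [scale, gam]
  | node lam l r hl hr =>
    simp only [scale, gam, hl, hr]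
    have e1 : lam • (l.scale c).val + (1 - lam) • (r.scale c).val
        = c • (lam • l.val + (1 - lam) • r.val) := by
      rw [val_scale, val_scale, smul_add, smul_comm c lam, smul_comm c (1 - lam)]
    have e2 : Sig ε lam (l.scale c).val (r.scale c).val ↔ Sig ε lam l.val r.val := by
      rw [val_scale, val_scale, sig_scale hc]
    rw [e1, norm_smul_rpow]
    by_cases h : Sig ε lam l.val r.val
    · rw [if_pos h, if_pos (e2.2 h)]
      ring
    · rw [if_neg h, if_neg (fun h' => h (e2.1 h'))]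
      ring

end MTree

open MTree

/-- the set of values whose infimum is `φ x` -/
def phiSet (p ε η : ℝ) (x : X) : Set ℝ :=
  {c | ∃ t : MTree X, t.WF ∧ t.val = x ∧ c = t.cost p - η * t.gam p ε}

/-- for a single `ε` -/
theorem exists_phi (p K ε : ℝ) (hp : 1 < p) (hK : 0 ≤ K) (hX : MT p K (fun x : X => ‖x‖))
    (hε : 0 < ε) :
    ∃ (φ : X → ℝ) (η : ℝ), 0 < η ∧ (∀ x, (3 / 4) * ‖x‖ ^ p ≤ φ x) ∧ (∀ x, φ x ≤ ‖x‖ ^ p) ∧
      (∀ (c : ℝ) x, φ (c • x) = |c| ^ p * φ x) ∧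
      (∀ x y (lam : ℝ), 0 ≤ lam → lam ≤ 1 →
        φ (lam • x + (1 - lam) • y) ≤ lam * φ x + (1 - lam) * φ y) ∧
      ∀ x y, ε * ‖(1 / 2 : ℝ) • (x + y)‖ ≤ ‖(1 / 2 : ℝ) • (x - y)‖ →
        φ ((1 / 2 : ℝ) • (x + y)) ≤ (φ x + φ y) / 2 - η * ‖(1 / 2 : ℝ) • (x + y)‖ ^ p := by
  obtain ⟨η, hη, hb⟩ := MTree.tree_bound (X := X) hp hK hX hε
  have hp0 : 0 < p := by linarith
  have hlow : ∀ x : X, ∀ c ∈ phiSet p ε η x, (3 / 4) * ‖x‖ ^ p ≤ c := by
    rintro x c ⟨t, ht, rfl, rfl⟩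
    exact hb t ht
  have hbdd : ∀ x : X, BddBelow (phiSet p ε η x) := fun x => ⟨_, hlow x⟩
  have hleaf : ∀ x : X, ‖x‖ ^ p ∈ phiSet p ε η x := fun x =>
    ⟨MTree.leaf x, trivial, rfl, by simp [MTree.cost, MTree.gam]⟩
  have hne : ∀ x : X, (phiSet p ε η x).Nonempty := fun x => ⟨_, hleaf x⟩
  have hexl : ∀ (x : X) (δ : ℝ), 0 < δ → ∃ t : MTree X, t.WF ∧ t.val = x ∧
      t.cost p - η * t.gam p ε < sInf (phiSet p ε η x) + δ := by
    intro x δ hδ
    obtain ⟨c, ⟨t, ht, hv, rfl⟩, hc⟩ := exists_lt_of_csInf_lt (hne x)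
      (show sInf (phiSet p ε η x) < sInf (phiSet p ε η x) + δ by linarith)
    exact ⟨t, ht, hv, hc⟩
  have hle : ∀ (x : X) (t : MTree X), t.WF → t.val = x →
      sInf (phiSet p ε η x) ≤ t.cost p - η * t.gam p ε := fun x t ht hv =>
    csInf_le (hbdd x) ⟨t, ht, hv, rfl⟩
  have hlo : ∀ x : X, (3 / 4) * ‖x‖ ^ p ≤ sInf (phiSet p ε η x) := fun x =>
    le_csInf (hne x) (hlow x)
  have hup : ∀ x : X, sInf (phiSet p ε η x) ≤ ‖x‖ ^ p := fun x => csInf_le (hbdd x) (hleaf x)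
  have hsc : ∀ (c : ℝ) (x : X), c ≠ 0 →
      sInf (phiSet p ε η (c • x)) ≤ |c| ^ p * sInf (phiSet p ε η x) := by
    intro c x hc
    have hc' : 0 < |c| ^ p := Real.rpow_pos_of_pos (abs_pos.2 hc) p
    refine le_of_forall_pos_le_add fun δ hδ => ?_
    obtain ⟨t, ht, hv, hlt⟩ := hexl x (δ / |c| ^ p) (by positivity)
    have h1 := hle (c • x) (t.scale c) (WF_scale c t ht) (by rw [val_scale, hv])
    rw [cost_scale, gam_scale hc] at h1
    have h2 := mul_le_mul_of_nonneg_left hlt.le hc'.le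
    have h3 : |c| ^ p * (sInf (phiSet p ε η x) + δ / |c| ^ p)
        = |c| ^ p * sInf (phiSet p ε η x) + δ := by
      field_simp
    nlinarith
  refine ⟨fun x => sInf (phiSet p ε η x), η, hη, hlo, hup, ?_, ?_, ?_⟩
  · intro c x
    by_cases hc : c = 0
    · subst hc
      have h1 := hlo ((0 : ℝ) • x)
      have h2 := hup ((0 : ℝ) • x)
      rw [zero_smul, norm_zero, Real.zero_rpow hp0.ne'] at h1 h2
      simp only [zero_smul, abs_zero, Real.zero_rpow hp0.ne', zero_mul]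
      linarith
    · refine le_antisymm (hsc c x hc) ?_
      have h1 := hsc c⁻¹ (c • x) (inv_ne_zero hc)
      rw [smul_smul, inv_mul_cancel₀ hc, one_smul, abs_inv, Real.inv_rpow (abs_nonneg c)] at h1
      have hc' : 0 < |c| ^ p := Real.rpow_pos_of_pos (abs_pos.2 hc) p
      have h2 := mul_le_mul_of_nonneg_left h1 hc'.le
      rw [← mul_assoc, mul_inv_cancel₀ hc'.ne', one_mul] at h2
      exact h2
  · intro x y lam h0 h1
    refine le_of_forall_pos_le_add fun δ hδ => ?_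
    obtain ⟨t, ht, hv, hlt⟩ := hexl x δ hδ
    obtain ⟨s, hs, hw, hls⟩ := hexl y δ hδ
    have h3 := hle (lam • x + (1 - lam) • y) (MTree.node lam t s) ⟨h0, h1, ht, hs⟩
      (by simp only [MTree.val, hv, hw])
    simp only [MTree.cost, MTree.gam] at h3
    have h6 := mul_le_mul_of_nonneg_left hlt.le h0
    have h7 := mul_le_mul_of_nonneg_left hls.le (sub_nonneg.2 h1)
    have h5 : (0 : ℝ) ≤ η * ‖lam • t.val + (1 - lam) • s.val‖ ^ p :=
      mul_nonneg hη.le (by positivity)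
    simp only
    by_cases h : Sig ε lam t.val s.val
    · rw [if_pos h] at h3
      nlinarith
    · rw [if_neg h] at h3
      nlinarith
  · intro x y hxy
    refine le_of_forall_pos_le_add fun δ hδ => ?_
    obtain ⟨t, ht, hv, hlt⟩ := hexl x δ hδ
    obtain ⟨s, hs, hw, hls⟩ := hexl y δ hδ
    have hval : (1 / 2 : ℝ) • x + (1 - 1 / 2 : ℝ) • y = (1 / 2 : ℝ) • (x + y) := by
      rw [smul_add]; norm_num
    have h3 := hle ((1 / 2 : ℝ) • (x + y)) (MTree.node (1 / 2) t s)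
      ⟨by norm_num, by norm_num, ht, hs⟩ (by simp only [MTree.val, hv, hw, hval])
    have hsig : Sig ε (1 / 2) t.val s.val := by
      rw [hv, hw]; exact ⟨rfl, hxy⟩
    simp only [MTree.cost, MTree.gam, if_pos hsig] at h3
    rw [hv, hw, hval] at h3
    simp only
    linarith

/-- a `p`-homogeneous convex function is the `p`-th power of a seminorm -/
theorem seminorm_of_convex (p : ℝ) (hp : 1 ≤ p) (φ : X → ℝ) (h0 : ∀ x, 0 ≤ φ x)
    (hs : ∀ (c : ℝ) x, φ (c • x) = |c| ^ p * φ x)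
    (hc : ∀ x y (lam : ℝ), 0 ≤ lam → lam ≤ 1 →
        φ (lam • x + (1 - lam) • y) ≤ lam * φ x + (1 - lam) * φ y) :
    ∃ N : Seminorm ℝ X, ∀ x, N x = φ x ^ (1 / p) := by
  have hp0 : 0 < p := by linarith
  have hsm : ∀ (c : ℝ) (x : X), φ (c • x) ^ (1 / p) = ‖c‖ * φ x ^ (1 / p) := by
    intro c x
    rw [hs, Real.mul_rpow (by positivity) (h0 x), ← Real.rpow_mul (abs_nonneg c),
      mul_one_div_cancel hp0.ne', Real.rpow_one, Real.norm_eq_abs]
  have hadd : ∀ x y : X, φ (x + y) ^ (1 / p) ≤ φ x ^ (1 / p) + φ y ^ (1 / p) := by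
    intro x y
    refine le_of_forall_pos_le_add fun δ hδ => ?_
    set a : ℝ := φ x ^ (1 / p) + δ / 2 with ha
    set b : ℝ := φ y ^ (1 / p) + δ / 2 with hb
    have hax : 0 ≤ φ x ^ (1 / p) := Real.rpow_nonneg (h0 x) _
    have hay : 0 ≤ φ y ^ (1 / p) := Real.rpow_nonneg (h0 y) _
    have ha0 : 0 < a := by positivity
    have hb0 : 0 < b := by positivity
    have key : ∀ (z : X) (c : ℝ), 0 < c → φ z ^ (1 / p) ≤ c → φ (c⁻¹ • z) ≤ 1 := by
      intro z c hc0 hz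
      have h1 : φ z ≤ c ^ p := by
        have := Real.rpow_le_rpow (Real.rpow_nonneg (h0 z) _) hz hp0.le
        rwa [← Real.rpow_mul (h0 z), one_div_mul_cancel hp0.ne', Real.rpow_one] at this
      rw [hs, abs_of_pos (inv_pos.2 hc0), Real.inv_rpow hc0.le]
      have hcp : 0 < c ^ p := Real.rpow_pos_of_pos hc0 p
      rw [inv_mul_le_iff₀ hcp]
      linarith
    have hx1 := key x a ha0 (by rw [ha]; linarith)
    have hy1 := key y b hb0 (by rw [hb]; linarith)
    have hab : 0 < a + b := by linarith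
    have hl0 : 0 ≤ a / (a + b) := by positivity
    have hl1 : a / (a + b) ≤ 1 := by rw [div_le_one hab]; linarith
    have hl2 : 1 - a / (a + b) = b / (a + b) := by field_simp; ring
    have h2 := hc (a⁻¹ • x) (b⁻¹ • y) (a / (a + b)) hl0 hl1
    have h3 : (a / (a + b)) • (a⁻¹ • x) + (1 - a / (a + b)) • (b⁻¹ • y) = (a + b)⁻¹ • (x + y) := by
      rw [hl2, smul_smul, smul_smul, smul_add]
      congr 2 <;> field_simp
    rw [h3] at h2
    have h4 : φ ((a + b)⁻¹ • (x + y)) ≤ 1 := by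
      have e1 := mul_le_mul_of_nonneg_left hx1 hl0
      have e2 := mul_le_mul_of_nonneg_left hy1 (sub_nonneg.2 hl1)
      linarith
    rw [hs, abs_of_pos (inv_pos.2 hab), Real.inv_rpow hab.le] at h4
    have habp : 0 < (a + b) ^ p := Real.rpow_pos_of_pos hab p
    rw [inv_mul_le_iff₀ habp, mul_one] at h4
    have h5 := Real.rpow_le_rpow (h0 _) h4 (by positivity : (0 : ℝ) ≤ 1 / p)
    rw [← Real.rpow_mul hab.le, mul_one_div_cancel hp0.ne', Real.rpow_one] at h5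
    rw [ha, hb] at h5
    linarith
  exact ⟨Seminorm.of (fun x => φ x ^ (1 / p)) hadd hsm, fun x => rfl⟩

theorem exists_uniformly_convex (p K : ℝ) (hp : 1 < p) (hK : 0 ≤ K)
    (hX : MT p K (fun x : X => ‖x‖)) :
    ∃ N : Seminorm ℝ X, (∃ a b : ℝ, 0 < a ∧ 0 < b ∧ ∀ x, a * ‖x‖ ≤ N x ∧ N x ≤ b * ‖x‖) ∧
      ∀ ε : ℝ, 0 < ε → ∃ δ : ℝ, 0 < δ ∧ ∀ x y : X, N x ≤ 1 → N y ≤ 1 → ε ≤ N (x - y) →
        N ((1 / 2 : ℝ) • (x + y)) ≤ 1 - δ := by
  have hp0 : 0 < p := by linarith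
  choose f e he hlow hup hhom hconv hsig using fun j : ℕ =>
    exists_phi (X := X) p K (1 / ((j : ℝ) + 1)) hp hK hX (by positivity)
  set w : ℕ → ℝ := fun j => (1 / 2 : ℝ) ^ (j + 1) with hw
  have hw0 : ∀ j, 0 < w j := fun j => by positivity
  have hwsum : HasSum w 1 := by
    have h := (hasSum_geometric_two).mul_left (1 / 2 : ℝ)
    simpa [hw, pow_succ'] using h
  have hf0 : ∀ j x, 0 ≤ f j x := fun j x => le_trans (by positivity) (hlow j x)
  have hsum : ∀ x, Summable fun j => w j * f j x := fun x =>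
    Summable.of_nonneg_of_le (fun j => mul_nonneg (hw0 j).le (hf0 j x))
      (fun j => mul_le_mul_of_nonneg_left (hup j x) (hw0 j).le)
      (hwsum.summable.mul_right (‖x‖ ^ p))
  set φ : X → ℝ := fun x => ∑' j, w j * f j x with hφ
  have hφ0 : ∀ x, 0 ≤ φ x := fun x => tsum_nonneg fun j => mul_nonneg (hw0 j).le (hf0 j x)
  have hφlow : ∀ x, (3 / 4) * ‖x‖ ^ p ≤ φ x := by
    intro x
    have h1 : ∑' j, w j * ((3 / 4) * ‖x‖ ^ p) = (3 / 4) * ‖x‖ ^ p := by
      rw [tsum_mul_right, hwsum.tsum_eq, one_mul]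
    rw [← h1]
    exact (hwsum.summable.mul_right _).tsum_le_tsum
      (fun j => mul_le_mul_of_nonneg_left (hlow j x) (hw0 j).le) (hsum x)
  have hφup : ∀ x, φ x ≤ ‖x‖ ^ p := by
    intro x
    have h1 : ∑' j, w j * ‖x‖ ^ p = ‖x‖ ^ p := by
      rw [tsum_mul_right, hwsum.tsum_eq, one_mul]
    rw [← h1]
    exact (hsum x).tsum_le_tsum
      (fun j => mul_le_mul_of_nonneg_left (hup j x) (hw0 j).le) (hwsum.summable.mul_right _)
  have hφs : ∀ (c : ℝ) x, φ (c • x) = |c| ^ p * φ x := by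
    intro c x
    simp only [hφ]
    rw [← tsum_mul_left]
    refine tsum_congr fun j => ?_
    rw [hhom]; ring
  have hφc : ∀ x y (lam : ℝ), 0 ≤ lam → lam ≤ 1 →
      φ (lam • x + (1 - lam) • y) ≤ lam * φ x + (1 - lam) * φ y := by
    intro x y lam h0 h1
    have h2 : lam * φ x + (1 - lam) * φ y
        = ∑' j, (lam * (w j * f j x) + (1 - lam) * (w j * f j y)) := by
      rw [((hsum x).mul_left lam).tsum_add ((hsum y).mul_left (1 - lam)), tsum_mul_left,
        tsum_mul_left]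
    rw [h2]
    refine (hsum _).tsum_le_tsum (fun j => ?_)
      (((hsum x).mul_left lam).add ((hsum y).mul_left (1 - lam)))
    have := mul_le_mul_of_nonneg_left (hconv j x y lam h0 h1) (hw0 j).le
    linarith
  have hφsig : ∀ (j : ℕ) (x y : X),
      1 / ((j : ℝ) + 1) * ‖(1 / 2 : ℝ) • (x + y)‖ ≤ ‖(1 / 2 : ℝ) • (x - y)‖ →
      φ ((1 / 2 : ℝ) • (x + y)) ≤ (φ x + φ y) / 2 -
        w j * e j * ‖(1 / 2 : ℝ) • (x + y)‖ ^ p := by
    intro j x y hxy
    have hmid : ∀ i, f i ((1 / 2 : ℝ) • (x + y)) ≤ (f i x + f i y) / 2 := by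
      intro i
      have h := hconv i x y (1 / 2) (by norm_num) (by norm_num)
      have h2 : (1 / 2 : ℝ) • x + (1 - 1 / 2 : ℝ) • y = (1 / 2 : ℝ) • (x + y) := by
        rw [smul_add]; norm_num
      rw [h2] at h
      linarith
    have hs1 : Summable fun i => (w i * f i x + w i * f i y) / 2 -
        w i * f i ((1 / 2 : ℝ) • (x + y)) :=
      (((hsum x).add (hsum y)).div_const 2).sub (hsum _)
    have h1 : w j * e j * ‖(1 / 2 : ℝ) • (x + y)‖ ^ p ≤
        ∑' i, ((w i * f i x + w i * f i y) / 2 - w i * f i ((1 / 2 : ℝ) • (x + y))) := by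
      refine le_trans ?_ (hs1.le_tsum j fun i _ => ?_)
      · have := mul_le_mul_of_nonneg_left (hsig j x y hxy) (hw0 j).le
        linarith
      · have := mul_le_mul_of_nonneg_left (hmid i) (hw0 i).le
        linarith
    have h2 : ∑' i, ((w i * f i x + w i * f i y) / 2 - w i * f i ((1 / 2 : ℝ) • (x + y)))
        = (φ x + φ y) / 2 - φ ((1 / 2 : ℝ) • (x + y)) := by
      rw [(((hsum x).add (hsum y)).div_const 2).tsum_sub (hsum _), tsum_div_const,
        (hsum x).tsum_add (hsum y)]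
    linarith
  obtain ⟨N, hN⟩ := seminorm_of_convex p hp.le φ hφ0 hφs hφc
  have hNpow : ∀ x, N x ^ p = φ x := by
    intro x
    rw [hN, ← Real.rpow_mul (hφ0 x), one_div_mul_cancel hp0.ne', Real.rpow_one]
  have hNup : ∀ x, N x ≤ ‖x‖ := by
    intro x
    have h := Real.rpow_le_rpow (hφ0 x) (hφup x) (by positivity : (0 : ℝ) ≤ 1 / p)
    rwa [← Real.rpow_mul (norm_nonneg x), mul_one_div_cancel hp0.ne', Real.rpow_one, ← hN] at h
  set a : ℝ := (3 / 4 : ℝ) ^ (1 / p) with ha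
  have ha0 : 0 < a := by positivity
  have hNlow : ∀ x, a * ‖x‖ ≤ N x := by
    intro x
    have h := Real.rpow_le_rpow (by positivity) (hφlow x) (by positivity : (0 : ℝ) ≤ 1 / p)
    rwa [Real.mul_rpow (by norm_num) (by positivity), ← Real.rpow_mul (norm_nonneg x),
      mul_one_div_cancel hp0.ne', Real.rpow_one, ← hN] at h
  refine ⟨N, ⟨a, 1, ha0, one_pos, fun x => ⟨hNlow x, by simpa using hNup x⟩⟩, ?_⟩
  intro ε hε
  obtain ⟨j, hj⟩ := exists_nat_one_div_lt (show 0 < a * ε / 2 by positivity)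
  set δ₁ : ℝ := min (1 / 2) (w j * e j * (1 / 2 : ℝ) ^ p) with hδ₁
  have hδ₁0 : 0 < δ₁ := by
    have := hw0 j
    have := he j
    positivity
  have hδ₁1 : δ₁ ≤ 1 / 2 := min_le_left _ _
  have hrp : (1 - δ₁) ^ (1 / p) < 1 := Real.rpow_lt_one (by linarith) (by linarith) (by positivity)
  refine ⟨min (1 / 2) (1 - (1 - δ₁) ^ (1 / p)), lt_min (by norm_num) (by linarith), ?_⟩
  intro x y hx hy hxy
  set z : X := (1 / 2 : ℝ) • (x + y) with hz
  by_cases hbig : ‖z‖ ≤ 1 / 2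
  · have h1 := hNup z
    have h2 : min (1 / 2) (1 - (1 - δ₁) ^ (1 / p)) ≤ (1 / 2 : ℝ) := min_le_left _ _
    linarith
  · push Not at hbig
    have hNz : N z ≤ 1 := by
      have h1 : N z ≤ (1 / 2 : ℝ) * (N x + N y) := by
        rw [hz, map_smul_eq_mul]
        have := map_add_le_add N x y
        rw [Real.norm_of_nonneg (by norm_num : (0 : ℝ) ≤ 1 / 2)]
        linarith
      linarith
    have hza : a * ‖z‖ ≤ 1 := (hNlow z).trans hNz
    have hd : ε / 2 ≤ ‖(1 / 2 : ℝ) • (x - y)‖ := by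
      rw [norm_smul, Real.norm_of_nonneg (by norm_num : (0 : ℝ) ≤ 1 / 2)]
      have := hNup (x - y)
      linarith
    have hsg : 1 / ((j : ℝ) + 1) * ‖z‖ ≤ ‖(1 / 2 : ℝ) • (x - y)‖ := by
      refine le_trans ?_ hd
      have h1 : 1 / ((j : ℝ) + 1) * ‖z‖ ≤ a * ε / 2 * ‖z‖ :=
        mul_le_mul_of_nonneg_right hj.le (norm_nonneg z)
      have h2 : a * ε / 2 * ‖z‖ = ε / 2 * (a * ‖z‖) := by ring
      have h3 : ε / 2 * (a * ‖z‖) ≤ ε / 2 * 1 :=
        mul_le_mul_of_nonneg_left hza (by positivity)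
      linarith
    have h4 := hφsig j x y hsg
    have hxp : φ x ≤ 1 := by
      rw [← hNpow]
      exact Real.rpow_le_one (apply_nonneg N x) hx hp0.le
    have hyp : φ y ≤ 1 := by
      rw [← hNpow]
      exact Real.rpow_le_one (apply_nonneg N y) hy hp0.le
    have h5 : w j * e j * (1 / 2 : ℝ) ^ p ≤ w j * e j * ‖z‖ ^ p :=
      mul_le_mul_of_nonneg_left (Real.rpow_le_rpow (by norm_num) hbig.le hp0.le)
        (mul_nonneg (hw0 j).le (he j).le)
    have h6 : δ₁ ≤ w j * e j * (1 / 2 : ℝ) ^ p := min_le_right _ _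
    have h7 : φ z ≤ 1 - δ₁ := by linarith
    have h8 : N z ≤ (1 - δ₁) ^ (1 / p) := by
      rw [hN]
      exact Real.rpow_le_rpow (hφ0 z) h7 (by positivity)
    have h9 : min (1 / 2) (1 - (1 - δ₁) ^ (1 / p)) ≤ 1 - (1 - δ₁) ^ (1 / p) := min_le_right _ _
    linarith

end Vale.Agent.P125
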