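import Vale.Agent.Lib.P125.Ultra

/-! # P125, module SPREAD: limits of Markov type seminorms; spreading seminorm. -/

namespace Vale.Agent.P125

open Finset Filter Topology

/-- composition with an additive map preserves `MT` -/
theorem MT.comp {V W : Type*} [AddCommGroup V] [AddCommGroup W] {p K : ℝ} {N : W → ℝ}
    (h : MT p K N) (L : V →+ W) : MT p K (fun v => N (L v)) := by
  intro S _ _ π P h1 h2 h3 h4 h5 f t ht
  have := h S π P h1 h2 h3 h4 h5 (fun i => L (f i)) t ht
  simpa only [map_sub] using this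

/-- pointwise limits preserve `MT` -/
theorem MT.lim {V : Type*} [AddCommGroup V] {p K : ℝ} (hp : 0 < p) {α : Type*} (l : Filter α)
    [l.NeBot] (N : α → V → ℝ) (N' : V → ℝ) (h : ∀ᶠ a in l, MT p K (N a))
    (_h0 : ∀ᶠ a in l, ∀ v, 0 ≤ N a v)
    (hlim : ∀ v, Tendsto (fun a => N a v) l (𝓝 (N' v))) : MT p K N' := by
  intro S _ _ π P h1 h2 h3 h4 h5 f t ht
  have hh : ∀ c : S → S → ℝ, Tendsto (fun a => ∑ i, ∑ j, c i j * N a (f j - f i) ^ p) l
      (𝓝 (∑ i, ∑ j, c i j * N' (f j - f i) ^ p)) := by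
    intro c
    refine tendsto_finsetSum _ fun i _ => tendsto_finsetSum _ fun j _ => ?_
    exact ((hlim _).rpow_const (Or.inr hp.le)).const_mul _
  refine le_of_tendsto_of_tendsto (hh fun i j => π i * (P ^ t) i j)
    ((hh fun i j => π i * P i j).const_mul (K ^ p * t)) ?_
  filter_upwards [h] with a ha
  exact ha S π P h1 h2 h3 h4 h5 f t ht

/-- limits of seminorms along an ultrafilter -/
theorem exists_ulim {α : Type*} (l : Ultrafilter α) (N : α → Seminorm ℝ V) (C : V → ℝ)
    (h : ∀ v, ∀ᶠ a in (l : Filter α), N a v ≤ C v) :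
    ∃ N' : Seminorm ℝ V, ∀ v, Tendsto (fun a => N a v) l (𝓝 (N' v)) := by
  have hex : ∀ v, ∃ x : ℝ, Tendsto (fun a => N a v) l (𝓝 x) := by
    intro v
    have hc : IsCompact (Set.Icc 0 (C v)) := isCompact_Icc
    obtain ⟨x, -, hx⟩ := hc.ultrafilter_le_nhds (l.map fun a => N a v) (by
      rw [Filter.le_principal_iff]
      show ∀ᶠ a in (l : Filter α), N a v ∈ Set.Icc 0 (C v)
      filter_upwards [h v] with a ha
      exact ⟨apply_nonneg _ _, ha⟩)
    exact ⟨x, hx⟩
  choose F hF using hex
  refine ⟨Seminorm.of F ?_ ?_, hF⟩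
  · intro x y
    refine le_of_tendsto_of_tendsto' (hF (x + y)) ((hF x).add (hF y)) fun a => ?_
    exact map_add_le_add _ _ _
  · intro c x
    refine tendsto_nhds_unique (hF (c • x)) ?_
    have := (hF x).const_mul ‖c‖
    refine this.congr fun a => ?_
    rw [map_smul_eq_mul]

theorem norm_le_sum (N : Seminorm ℝ V) (h1 : ∀ i, N (Finsupp.single i 1) ≤ 1) (v : V) :
    N v ≤ ∑ i ∈ v.support, |v i| := by
  conv_lhs => rw [← Finsupp.sum_single v]
  rw [Finsupp.sum]
  refine (Finset.le_sum_of_subadditive N (map_zero N).le (map_add_le_add N) _ _).trans (Finset.sum_le_sum fun i _ => ?_) 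
  have : Finsupp.single i (v i) = (v i) • Finsupp.single i (1 : ℝ) := by
    rw [Finsupp.smul_single, smul_eq_mul, mul_one]
  rw [this, map_smul_eq_mul, Real.norm_eq_abs]
  exact mul_le_of_le_one_right (abs_nonneg _) (h1 i)

/-- Step 0: one seminorm satisfying the James condition for all `n`
(ultrafilter limit of the `Nn`). -/
theorem exists_lim (p K θ : ℝ) (hp : 0 < p)
    (h : ∀ n : ℕ, ∃ N : Seminorm ℝ V, MT p K (fun v => N v) ∧
      (∀ i, N (Finsupp.single i 1) ≤ 1) ∧ JU (fun v => N v) n θ) :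
    ∃ N : Seminorm ℝ V, MT p K (fun v => N v) ∧
      (∀ i, N (Finsupp.single i 1) ≤ 1) ∧ ∀ n, JU (fun v => N v) n θ := by
  choose N hN1 hN2 hN3 using h
  obtain ⟨N', hN'⟩ := exists_ulim (hyperfilter ℕ) N (fun v => ∑ i ∈ v.support, |v i|)
    (fun v => Eventually.of_forall fun n => norm_le_sum _ (hN2 n) v)
  refine ⟨N', ?_, ?_, ?_⟩
  · exact MT.lim hp _ _ _ (Eventually.of_forall hN1)
      (Eventually.of_forall fun n v => apply_nonneg _ _) hN'
  · intro i
    exact le_of_tendsto' (hN' _) fun n => hN2 n i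
  · intro n A B hAB hA hlt hB
    refine ge_of_tendsto (hN' _) ?_
    have : ∀ᶠ m in (hyperfilter ℕ : Filter ℕ), n ≤ m := by
      apply Nat.hyperfilter_le_atTop
      exact eventually_ge_atTop n
    filter_upwards [this] with m hm
    exact hN3 m A B hAB hA hlt fun b hb => (hB b hb).trans hm

/-- push forward of the coordinates `< M` along `z` -/
noncomputable def push (M : ℕ) (z : Fin M → ℕ) : V →ₗ[ℝ] V :=
  ∑ i : Fin M, (Finsupp.lsingle (z i)) ∘ₗ (Finsupp.lapply (i : ℕ))

theorem push_apply (M : ℕ) (z : Fin M → ℕ) (v : V) :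
    push M z v = ∑ i : Fin M, Finsupp.single (z i) (v i) := by
  simp [push]

theorem push_single (M : ℕ) (z : Fin M → ℕ) (k : ℕ) (hk : k < M) (c : ℝ) :
    push M z (Finsupp.single k c) = Finsupp.single (z ⟨k, hk⟩) c := by
  rw [push_apply, Finset.sum_eq_single ⟨k, hk⟩]
  · simp
  · intro j _ hj
    have : k ≠ (j : ℕ) := fun h => hj (Fin.ext h.symm)
    rw [Finsupp.single_eq_of_ne (by tauto)]
    simp
  · simp

theorem push_vec {m : ℕ} (M : ℕ) (z : Fin M → ℕ) (κ : Fin m → ℕ) (hκ : ∀ i, κ i < M)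
    (a : Fin m → ℝ) :
    push M z (vec κ a) = vec (z ∘ fun i => ⟨κ i, hκ i⟩) a := by
  unfold vec
  rw [map_sum]
  refine Finset.sum_congr rfl fun i _ => ?_
  rw [push_single _ _ _ (hκ i)]
  rfl

theorem push_bound (N : Seminorm ℝ V) (h1 : ∀ i, N (Finsupp.single i 1) ≤ 1) (M : ℕ)
    (z : Fin M → ℕ) (v : V) : N (push M z v) ≤ ∑ i ∈ v.support, |v i| := by
  have h2 : ∀ i, (N.comp (push M z)) (Finsupp.single i 1) ≤ 1 := by
    intro i
    rw [Seminorm.comp_apply]
    by_cases hi : i < M
    · rw [push_single _ _ _ hi]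
      exact h1 _
    · have : push M z (Finsupp.single i 1) = 0 := by
        rw [push_apply]
        refine Finset.sum_eq_zero fun j _ => ?_
        have : i ≠ (j : ℕ) := by
          have := j.2
          omega
        rw [Finsupp.single_eq_of_ne (by tauto)]
        simp
      rw [this, map_zero]
      exact zero_le_one
  exact norm_le_sum (N.comp (push M z)) h2 v

/-- Step 1: spreading seminorm: `N' a = lim_{z → U M} N (∑_{i<M} a_i δ_{z_i})` for any `M`
with `supp a ⊆ [0, M)`. -/
theorem exists_spread (p K θ : ℝ) (hp : 0 < p) (N : Seminorm ℝ V) (hN : MT p K (fun v => N v))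
    (h1 : ∀ i, N (Finsupp.single i 1) ≤ 1) (hJ : ∀ n, JU (fun v => N v) n θ) :
    ∃ N' : Seminorm ℝ V, MT p K (fun v => N' v) ∧
      (∀ i, N' (Finsupp.single i 1) ≤ 1) ∧ (∀ n, JU (fun v => N' v) n θ) ∧
      Spreading (fun v => N' v) := by
  obtain ⟨U, hU1, hU2⟩ := exists_ultra
  have hM : ∀ M : ℕ, ∃ N' : Seminorm ℝ V, ∀ v,
      Tendsto (fun z : Fin M → ℕ => N (push M z v)) (U M) (𝓝 (N' v)) := by
    intro M
    exact exists_ulim (U M) (fun z => N.comp (push M z)) (fun v => ∑ i ∈ v.support, |v i|)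
      (fun v => Eventually.of_forall fun z => push_bound N h1 M z v)
  choose NM hNM using hM
  have hbd : ∀ M v, NM M v ≤ ∑ i ∈ v.support, |v i| := fun M v =>
    le_of_tendsto' (hNM M v) fun z => push_bound N h1 M z v
  obtain ⟨N', hN'⟩ := exists_ulim (hyperfilter ℕ) NM (fun v => ∑ i ∈ v.support, |v i|)
    (fun v => Eventually.of_forall fun M => hbd M v)
  refine ⟨N', ?_, ?_, ?_, ?_⟩
  · refine MT.lim hp _ _ _ (Eventually.of_forall fun M => ?_)
      (Eventually.of_forall fun n v => apply_nonneg _ _) hN'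
    refine MT.lim hp (U M : Filter (Fin M → ℕ)) (fun z v => N (push M z v)) _
      (Eventually.of_forall fun z => ?_)
      (Eventually.of_forall fun n v => apply_nonneg _ _) (hNM M)
    exact hN.comp (push M z).toAddMonoidHom
  · intro i
    refine le_of_tendsto' (hN' _) fun M => (hbd M _).trans ?_
    rw [Finsupp.support_single_ne_zero _ one_ne_zero]
    simp
  · intro n A B hAB hA hlt hB
    refine ge_of_tendsto (hN' _) ?_
    have : ∀ᶠ m in (hyperfilter ℕ : Filter ℕ), n + 1 ≤ m := by
      apply Nat.hyperfilter_le_atTop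
      exact eventually_ge_atTop (n + 1)
    filter_upwards [this] with M hM
    refine ge_of_tendsto (hNM M _) ?_
    filter_upwards [hU1 M] with z hz
    have hA' : ∀ a ∈ A, a < M := by
      intro a ha
      obtain ⟨b, hb⟩ : B.Nonempty := by
        rw [← Finset.card_pos, ← hAB, Finset.card_pos]
        exact hA
      have := hlt a ha b hb
      have := hB b hb
      omega
    have hB' : ∀ b ∈ B, b < M := fun b hb => by have := hB b hb; omega
    let g : ℕ → ℕ := fun k => if h : k < M then z ⟨k, h⟩ else 0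
    have hg : ∀ k (h : k < M), g k = z ⟨k, h⟩ := fun k h => dif_pos h
    have hinj : ∀ C : Finset ℕ, (∀ c ∈ C, c < M) → Set.InjOn g C := by
      intro C hC x hx y hy hxy
      rw [hg x (hC x hx), hg y (hC y hy)] at hxy
      have := hz.injective hxy
      simpa using this
    have hpush : ∀ C : Finset ℕ, (∀ c ∈ C, c < M) →
        push M z (∑ i ∈ C, Finsupp.single i (1 : ℝ)) =
          ∑ i ∈ C.image g, Finsupp.single i (1 : ℝ) := by
      intro C hC
      rw [Finset.sum_image (hinj C hC), map_sum]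
      refine Finset.sum_congr rfl fun i hi => ?_
      rw [push_single _ _ _ (hC i hi), hg i (hC i hi)]
    have key := hJ ((B.image g).sup id) (A.image g) (B.image g)
      (by rw [Finset.card_image_of_injOn (hinj A hA'), Finset.card_image_of_injOn (hinj B hB'),
        hAB])
      (hA.image g)
      (by
        intro a ha b hb
        obtain ⟨a', ha', rfl⟩ := Finset.mem_image.1 ha
        obtain ⟨b', hb', rfl⟩ := Finset.mem_image.1 hb
        rw [hg a' (hA' a' ha'), hg b' (hB' b' hb')]
        exact hz (hlt a' ha' b' hb'))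
      (fun b hb => Finset.le_sup (f := id) hb)
    rw [Finset.card_image_of_injOn (hinj A hA')] at key
    rw [map_sub, hpush A hA', hpush B hB']
    exact key
  · -- spreading
    have key : ∀ (m : ℕ) (κ : Fin m → ℕ) (a : Fin m → ℝ), StrictMono κ → ∀ x : ℝ,
        Tendsto (fun w : Fin m → ℕ => N (vec w a)) (U m) (𝓝 x) → N' (vec κ a) = x := by
      intro m κ a hκ x hx
      refine tendsto_nhds_unique (hN' _) ?_
      refine tendsto_const_nhds.congr' ?_
      have : ∀ᶠ M in (hyperfilter ℕ : Filter ℕ), (∑ i, κ i) + 1 ≤ M := by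
        apply Nat.hyperfilter_le_atTop
        exact eventually_ge_atTop _
      filter_upwards [this] with M hM
      have hκM : ∀ i, κ i < M := fun i => by
        have := Finset.single_le_sum (f := κ) (fun j _ => Nat.zero_le _) (Finset.mem_univ i)
        omega
      symm
      refine tendsto_nhds_unique (hNM M _) ?_
      have hmono : StrictMono (fun i => (⟨κ i, hκM i⟩ : Fin M)) := fun i j hij => hκ hij
      have h3 := hU2 m M _ hmono
      rw [← h3] at hx
      have h4 : Tendsto (fun w : Fin m → ℕ => N (vec w a))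
        (Filter.map (fun z : Fin M → ℕ => z ∘ fun i => (⟨κ i, hκM i⟩ : Fin M)) (U M)) (𝓝 x) := hx
      rw [tendsto_map'_iff] at h4
      refine h4.congr fun z => ?_
      rw [push_vec M z κ hκM a]
      rfl
    intro m κ a hκ
    have hc : IsCompact (Set.Icc 0 (∑ i, |a i|)) := isCompact_Icc
    obtain ⟨x, -, hx⟩ := hc.ultrafilter_le_nhds ((U m).map fun w => N (vec w a)) (by
      rw [Filter.le_principal_iff]
      show ∀ᶠ w in (U m : Filter (Fin m → ℕ)), N (vec w a) ∈ Set.Icc 0 (∑ i, |a i|)
      refine Eventually.of_forall fun w => ⟨apply_nonneg _ _, ?_⟩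
      unfold vec
      refine (Finset.le_sum_of_subadditive N (map_zero N).le (map_add_le_add N) _ _).trans (Finset.sum_le_sum fun i _ => ?_)
      have : Finsupp.single (w i) (a i) = (a i) • Finsupp.single (w i) (1 : ℝ) := by
        rw [Finsupp.smul_single, smul_eq_mul, mul_one]
      rw [this, map_smul_eq_mul, Real.norm_eq_abs]
      exact mul_le_of_le_one_right (abs_nonneg _) (h1 _))
    have hx' : Tendsto (fun w : Fin m → ℕ => N (vec w a)) (U m) (𝓝 x) := hx
    show N' (vec κ a) = N' (vec (fun i => (i : ℕ)) a)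
    rw [key m κ a hκ x hx', key m _ a (fun i j h => h) x hx']

end Vale.Agent.P125
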