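import Vale.Agent.Lib.P125.Avg
import Vale.Agent.Lib.P125.GoodLow
import Vale.Agent.Lib.P125.Chain

/-! # P125, module THEOREMA -/

namespace Vale.Agent.P125

open Finset Filter

theorem no_indisc (p K : ℝ) (hp : 1 < p) (hK : 0 ≤ K) (N : Seminorm ℝ V) : ¬ Indisc p K N := by
  intro h
  obtain ⟨c, hc, hlow⟩ := lower_bound h
  have hp0 : 0 < p := by linarith
  have key : ∀ T : ℕ, 1 ≤ T → (T : ℝ) ^ (p - 1) ≤ 2 * K ^ p / c ^ p := by
    intro T hT
    obtain ⟨κ, b, hκ, hb, h1, h2⟩ := hlow T hT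
    have hT' : (0 : ℝ) < T := by exact_mod_cast hT
    have h3 := chain_ineq p K hp0 hK N h.mt T κ hT hκ b (c * T * b) hb.le (by positivity) h1 h2
    have e1 : (c * T * b) ^ p = c ^ p * (T * T ^ (p - 1)) * b ^ p := by
      rw [Real.mul_rpow (by positivity) hb.le, Real.mul_rpow hc.le hT'.le]
      congr 2
      rw [← Real.rpow_one_add' hT'.le (by linarith)]
      congr 1
      ring
    rw [e1] at h3
    have hbp : 0 < b ^ p := Real.rpow_pos_of_pos hb _
    have hcp : 0 < c ^ p := Real.rpow_pos_of_pos hc _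
    rw [le_div_iff₀ hcp]
    have h4 : (T : ℝ) * b ^ p * (T ^ (p - 1) * c ^ p) ≤ (T : ℝ) * b ^ p * (2 * K ^ p) := by
      linarith
    exact le_of_mul_le_mul_left h4 (by positivity)
  have hlim : Tendsto (fun T : ℕ => (T : ℝ) ^ (p - 1)) atTop atTop :=
    (tendsto_rpow_atTop (by linarith : 0 < p - 1)).comp tendsto_natCast_atTop_atTop
  obtain ⟨T, hT⟩ := ((hlim.eventually_gt_atTop (2 * K ^ p / c ^ p)).and
    (eventually_ge_atTop 1)).exists
  exact absurd (key T hT.2) (not_le.2 hT.1)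

theorem no_long_J (p K θ : ℝ) (hp : 1 < p) (hK : 0 ≤ K) (hθ : 0 < θ) :
    ∃ n : ℕ, ∀ N : Seminorm ℝ V, MT p K (fun v => N v) →
      (∀ i, N (Finsupp.single i 1) ≤ 1) → ¬ JU (fun v => N v) n θ := by
  by_contra hcon
  push Not at hcon
  obtain ⟨N, hN⟩ := exists_indisc p K θ (by linarith) hθ (fun n => by
    obtain ⟨N, h1, h2, h3⟩ := hcon n
    exact ⟨N, h1, h2, h3⟩)
  exact no_indisc p K hp hK N hN

end Vale.Agent.P125
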