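import Vale.Agent.Lib.P125.Mix
import Vale.Agent.Lib.P125.TheoremA

/-! # P125, module TREE: finite martingale trees and the key inequality

`3/4 ‖x‖^p ≤ E ‖leaf‖^p - η E ∑_{significant nodes} ‖value‖^p`. -/

namespace Vale.Agent.P125

open Finset

/-- binary trees with weights, i.e. finite martingales -/
inductive MTree (X : Type*) : Type _
  | leaf (x : X) : MTree X
  | node (lam : ℝ) (l r : MTree X) : MTree X

namespace MTree

variable {X : Type*} [NormedAddCommGroup X] [NormedSpace ℝ X]

/-- root value -/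
noncomputable def val : MTree X → X
  | leaf x => x
  | node lam l r => lam • l.val + (1 - lam) • r.val

/-- all weights in `[0,1]` -/
def WF : MTree X → Prop
  | leaf _ => True
  | node lam l r => 0 ≤ lam ∧ lam ≤ 1 ∧ l.WF ∧ r.WF

/-- `E ‖leaf‖^p` -/
noncomputable def cost (p : ℝ) : MTree X → ℝ
  | leaf x => ‖x‖ ^ p
  | node lam l r => lam * l.cost p + (1 - lam) * r.cost p

/-- significance of a splitting: balanced and relatively large -/
def Sig (ε lam : ℝ) (l r : X) : Prop :=
  lam = 1 / 2 ∧ ε * ‖(1 / 2 : ℝ) • (l + r)‖ ≤ ‖(1 / 2 : ℝ) • (l - r)‖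

open Classical in
/-- `E ∑_{significant nodes} ‖value‖^p` -/
noncomputable def gam (p ε : ℝ) : MTree X → ℝ
  | leaf _ => 0
  | node lam l r => lam * l.gam p ε + (1 - lam) * r.gam p ε +
      if Sig ε lam l.val r.val then ‖lam • l.val + (1 - lam) • r.val‖ ^ p else 0

open Classical in
/-- mass of the `(k+1)`-st significant node level: `E ‖f_{T_{k+1}-1}‖^p 1_{T_{k+1} < ∞}` -/
noncomputable def lev (p ε : ℝ) : MTree X → ℕ → ℝ
  | leaf _, _ => 0
  | node lam l r, k =>
      if Sig ε lam l.val r.val then
        match k with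
        | 0 => ‖lam • l.val + (1 - lam) • r.val‖ ^ p
        | k + 1 => lam * l.lev p ε k + (1 - lam) * r.lev p ε k
      else lam * l.lev p ε k + (1 - lam) * r.lev p ε k

open Classical in
/-- `p`-th power of the `L_p` norm of `h a + ∑_{i ≥ j} a_i x_i`, where `x_i` (`i ≥ j`) is the value
right after the `(i-j+1)`-st significant splitting of the present tree (or the leaf value) -/
noncomputable def Q (p ε : ℝ) : MTree X → (V →ₗ[ℝ] X) → ℕ → V → ℝ
  | leaf x, h, j, a => ‖h a + (a.sum fun i c => if j ≤ i then c else 0) • x‖ ^ p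
  | node lam l r, h, j, a =>
      if Sig ε lam l.val r.val then
        lam * l.Q p ε (h + (Finsupp.lapply j).smulRight l.val) (j + 1) a +
          (1 - lam) * r.Q p ε (h + (Finsupp.lapply j).smulRight r.val) (j + 1) a
      else lam * l.Q p ε h j a + (1 - lam) * r.Q p ε h j a

/-- the whole tree: coordinate `0` carries the root value -/
noncomputable def QQ (p ε : ℝ) (t : MTree X) : V → ℝ :=
  t.Q p ε ((Finsupp.lapply 0).smulRight t.val) 1

variable {p K ε : ℝ}

/-- two point Jensen inequality -/
theorem jensen_two (hp : 1 ≤ p) (lam : ℝ) (h0 : 0 ≤ lam) (h1 : lam ≤ 1) (x y : X) :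
    ‖lam • x + (1 - lam) • y‖ ^ p ≤ lam * ‖x‖ ^ p + (1 - lam) * ‖y‖ ^ p := by
  have hc := (convexOn_rpow hp).2 (norm_nonneg x) (norm_nonneg y) h0 (sub_nonneg.2 h1)
    (by ring)
  simp only [smul_eq_mul] at hc
  refine le_trans (Real.rpow_le_rpow (norm_nonneg _) ?_ (by linarith)) hc
  refine (norm_add_le _ _).trans ?_
  rw [norm_smul, norm_smul, Real.norm_of_nonneg h0, Real.norm_of_nonneg (sub_nonneg.2 h1)]

/-- Jensen -/
theorem norm_val_le_cost (hp : 1 ≤ p) (t : MTree X) (ht : t.WF) : ‖t.val‖ ^ p ≤ t.cost p := by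
  induction t with
  | leaf x => exact le_rfl
  | node lam l r hl hr =>
    simp only [val, cost]
    have h1 := mul_le_mul_of_nonneg_left (hl ht.2.2.1) ht.1
    have h2 := mul_le_mul_of_nonneg_left (hr ht.2.2.2) (sub_nonneg.2 ht.2.1)
    have h3 := jensen_two hp lam ht.1 ht.2.1 l.val r.val
    linarith

theorem gam_nonneg (t : MTree X) (ht : t.WF) : 0 ≤ t.gam p ε := by
  induction t with
  | leaf x => exact le_rfl
  | node lam l r hl hr =>
    have h1 := mul_nonneg ht.1 (hl ht.2.2.1)
    have h2 := mul_nonneg (sub_nonneg.2 ht.2.1) (hr ht.2.2.2)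
    by_cases h : Sig ε lam l.val r.val
    · simp only [gam, if_pos h]
      positivity
    · simp only [gam, if_neg h]
      linarith

/-- Jensen again -/
theorem lev_le_cost (hp : 1 ≤ p) (t : MTree X) (ht : t.WF) (k : ℕ) : t.lev p ε k ≤ t.cost p := by
  induction t generalizing k with
  | leaf x => simp only [lev, cost]; positivity
  | node lam l r hl hr =>
    have h1 := fun k => mul_le_mul_of_nonneg_left (hl ht.2.2.1 k) ht.1
    have h2 := fun k => mul_le_mul_of_nonneg_left (hr ht.2.2.2 k) (sub_nonneg.2 ht.2.1)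
    by_cases h : Sig ε lam l.val r.val
    · cases k with
      | zero =>
        have h3 := norm_val_le_cost (p := p) hp (node lam l r) ht
        simp only [lev, if_pos h]
        exact h3
      | succ k =>
        have h1 := h1 k
        have h2 := h2 k
        simp only [lev, if_pos h, cost]
        linarith
    · have h1 := h1 k
      have h2 := h2 k
      simp only [lev, if_neg h, cost]
      linarith

/-- the functional `∑_{i ≥ j} a_i` -/
noncomputable def tailSum (j : ℕ) : V →ₗ[ℝ] ℝ :=
  Finsupp.lsum ℝ (fun i => if j ≤ i then LinearMap.id else 0)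

theorem tailSum_apply (j : ℕ) (a : V) :
    (a.sum fun i c => if j ≤ i then c else 0) = tailSum j a := by
  unfold tailSum
  rw [Finsupp.lsum_apply]
  refine Finsupp.sum_congr fun i _ => ?_
  split_ifs <;> simp

theorem tailSum_single (j i : ℕ) (c : ℝ) :
    tailSum j (Finsupp.single i c) = if j ≤ i then c else 0 := by
  rw [← tailSum_apply, Finsupp.sum_single_index]
  simp

theorem tailSum_succ (j : ℕ) (a : V) : tailSum j a = a j + tailSum (j + 1) a := by
  induction a using Finsupp.induction_linear with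
  | zero => simp
  | add f g hf hg => rw [map_add, map_add, hf, hg, Finsupp.add_apply]; ring
  | single i c =>
    rw [tailSum_single, tailSum_single, Finsupp.single_apply]
    rcases lt_trichotomy j i with h | h | h
    · rw [if_pos h.le, if_neg h.ne', if_pos (by omega)]; ring
    · subst h; simp
    · rw [if_neg (by omega), if_neg h.ne, if_neg (by omega)]; ring

theorem Q_ps (hp : 1 ≤ p) (hX : MT p K (fun x : X => ‖x‖)) (t : MTree X) (ht : t.WF)
    (h : V →ₗ[ℝ] X) (j : ℕ) : PS p K (fun a => t.Q p ε h j a) := by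
  induction t generalizing h j with
  | leaf x =>
    have := PS.of_linear hp hX (h + (tailSum j).smulRight x)
    simpa only [Q, tailSum_apply, LinearMap.add_apply, LinearMap.smulRight_apply] using this
  | node lam l r hl hr =>
    by_cases hs : Sig ε lam l.val r.val
    · simp only [Q, if_pos hs]
      exact PS.mix hp (hl ht.2.2.1 _ _) (hr ht.2.2.2 _ _) lam ht.1 ht.2.1
    · simp only [Q, if_neg hs]
      exact PS.mix hp (hl ht.2.2.1 _ _) (hr ht.2.2.2 _ _) lam ht.1 ht.2.1

theorem QQ_ps (hp : 1 ≤ p) (hX : MT p K (fun x : X => ‖x‖)) (t : MTree X) (ht : t.WF) :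
    PS p K (t.QQ p ε) :=
  Q_ps hp hX t ht _ _

theorem Q_single_lt (t : MTree X) (h : V →ₗ[ℝ] X) (i j : ℕ) (hij : i < j) :
    t.Q p ε h j (Finsupp.single i 1) = ‖h (Finsupp.single i 1)‖ ^ p := by
  induction t generalizing h j with
  | leaf x =>
    simp only [Q, tailSum_apply, tailSum_single, if_neg (not_le.2 hij), zero_smul, add_zero]
  | node lam l r hl hr =>
    by_cases hs : Sig ε lam l.val r.val
    · simp only [Q, if_pos hs]
      rw [hl _ _ (by omega), hr _ _ (by omega)]
      simp only [LinearMap.add_apply, LinearMap.smulRight_apply, Finsupp.lapply_apply,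
        Finsupp.single_apply, if_neg hij.ne, zero_smul, add_zero]
      ring
    · simp only [Q, if_neg hs]
      rw [hl _ _ hij, hr _ _ hij]
      ring

theorem Q_single_ge (hp : 1 ≤ p) (t : MTree X) (ht : t.WF) (h : V →ₗ[ℝ] X) (i j : ℕ)
    (hij : j ≤ i) (hh : ∀ i, j ≤ i → h (Finsupp.single i 1) = 0) :
    t.Q p ε h j (Finsupp.single i 1) ≤ t.cost p := by
  induction t generalizing h j with
  | leaf x =>
    simp only [Q, tailSum_apply, tailSum_single, if_pos hij, one_smul, hh i hij, zero_add, cost]
    exact le_rfl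
  | node lam l r hl hr =>
    by_cases hs : Sig ε lam l.val r.val
    · simp only [Q, if_pos hs, cost]
      have aux : ∀ s : MTree X, s.WF → (∀ (h : V →ₗ[ℝ] X) (j : ℕ), j ≤ i →
          (∀ i, j ≤ i → h (Finsupp.single i 1) = 0) →
          s.Q p ε h j (Finsupp.single i 1) ≤ s.cost p) →
          s.Q p ε (h + (Finsupp.lapply j).smulRight s.val) (j + 1) (Finsupp.single i 1) ≤
            s.cost p := by
        intro s hsw ih
        rcases hij.lt_or_eq with hlt | heq
        · refine ih _ _ (by omega) fun i' hi' => ?_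
          simp only [LinearMap.add_apply, LinearMap.smulRight_apply, Finsupp.lapply_apply,
            Finsupp.single_apply, hh i' (by omega), if_neg (show ¬ i' = j by omega), zero_smul,
            add_zero]
        · subst heq
          rw [Q_single_lt _ _ _ _ (by omega)]
          simp only [LinearMap.add_apply, LinearMap.smulRight_apply, Finsupp.lapply_apply,
            Finsupp.single_apply, hh j le_rfl, if_true, one_smul, zero_add]
          exact norm_val_le_cost hp s hsw
      have h1 := mul_le_mul_of_nonneg_left (aux l ht.2.2.1 (fun h j hj hh => hl ht.2.2.1 h j hj hh))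
        ht.1
      have h2 := mul_le_mul_of_nonneg_left (aux r ht.2.2.2 (fun h j hj hh => hr ht.2.2.2 h j hj hh))
        (sub_nonneg.2 ht.2.1)
      linarith
    · simp only [Q, if_neg hs, cost]
      have h1 := mul_le_mul_of_nonneg_left (hl ht.2.2.1 h j hij hh) ht.1
      have h2 := mul_le_mul_of_nonneg_left (hr ht.2.2.2 h j hij hh) (sub_nonneg.2 ht.2.1)
      linarith

theorem QQ_single (hp : 1 ≤ p) (t : MTree X) (ht : t.WF) (i : ℕ) :
    t.QQ p ε (Finsupp.single i 1) ≤ t.cost p := by
  unfold QQ
  by_cases hi : i = 0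
  · subst hi
    rw [Q_single_lt _ _ _ _ (by omega)]
    simp only [LinearMap.smulRight_apply, Finsupp.lapply_apply, Finsupp.single_apply, if_true,
      one_smul]
    exact norm_val_le_cost hp t ht
  · refine Q_single_ge hp t ht _ i 1 (by omega) fun i' hi' => ?_
    simp only [LinearMap.smulRight_apply, Finsupp.lapply_apply, Finsupp.single_apply,
      if_neg (show ¬ i' = 0 by omega), zero_smul]

/-- conditional Jensen inequality -/
theorem Q_jensen (hp : 1 ≤ p) (t : MTree X) (ht : t.WF) (h : V →ₗ[ℝ] X) (j : ℕ) (a : V) :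
    ‖h a + tailSum j a • t.val‖ ^ p ≤ t.Q p ε h j a := by
  induction t generalizing h j with
  | leaf x => simp only [Q, tailSum_apply, val]; exact le_rfl
  | node lam l r hl hr =>
    have e : h a + tailSum j a • (lam • l.val + (1 - lam) • r.val) =
        lam • (h a + tailSum j a • l.val) + (1 - lam) • (h a + tailSum j a • r.val) := by
      module
    have h3 := jensen_two (p := p) hp lam ht.1 ht.2.1 (h a + tailSum j a • l.val)
      (h a + tailSum j a • r.val)
    rw [← e] at h3
    simp only [val]
    by_cases hs : Sig ε lam l.val r.val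
    · simp only [Q, if_pos hs]
      have e2 : ∀ x : X, h a + tailSum j a • x =
          (h + (Finsupp.lapply j).smulRight x : V →ₗ[ℝ] X) a + tailSum (j + 1) a • x := by
        intro x
        rw [tailSum_succ j a]
        simp only [LinearMap.add_apply, LinearMap.smulRight_apply, Finsupp.lapply_apply]
        module
      have h1 := mul_le_mul_of_nonneg_left
        (hl ht.2.2.1 (h + (Finsupp.lapply j).smulRight l.val) (j + 1)) ht.1
      have h2 := mul_le_mul_of_nonneg_left
        (hr ht.2.2.2 (h + (Finsupp.lapply j).smulRight r.val) (j + 1)) (sub_nonneg.2 ht.2.1)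
      rw [← e2] at h1 h2
      linarith
    · simp only [Q, if_neg hs]
      have h1 := mul_le_mul_of_nonneg_left (hl ht.2.2.1 h j) ht.1
      have h2 := mul_le_mul_of_nonneg_left (hr ht.2.2.2 h j) (sub_nonneg.2 ht.2.1)
      linarith

theorem Q_lower (hp : 1 ≤ p) (hε : 0 ≤ ε) (t : MTree X) (ht : t.WF) (k : ℕ) (a : V)
    (h2 : tailSum (k + 1) a = -1) (h : V →ₗ[ℝ] X) (j : ℕ) (hj : j ≤ k + 1) :
    ε ^ p * t.lev p ε (k + 1 - j) ≤ t.Q p ε h j a := by
  induction t generalizing h j with
  | leaf x => simp only [Q, lev, mul_zero]; positivity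
  | node lam l r hl hr =>
    by_cases hs : Sig ε lam l.val r.val
    · rcases hj.lt_or_eq with hlt | heq
      · have e : k + 1 - j = (k + 1 - (j + 1)) + 1 := by omega
        rw [e]
        simp only [Q, lev, if_pos hs]
        have e1 := mul_le_mul_of_nonneg_left
          (hl ht.2.2.1 (h + (Finsupp.lapply j).smulRight l.val) (j + 1) (by omega)) ht.1
        have e2 := mul_le_mul_of_nonneg_left
          (hr ht.2.2.2 (h + (Finsupp.lapply j).smulRight r.val) (j + 1) (by omega))
          (sub_nonneg.2 ht.2.1)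
        linarith
      · subst heq
        rw [Nat.sub_self]
        simp only [Q, lev, if_pos hs]
        obtain ⟨rfl, hs2⟩ := hs
        have e2 : ∀ x : X, (h + (Finsupp.lapply (k + 1)).smulRight x : V →ₗ[ℝ] X) a +
            tailSum (k + 1 + 1) a • x = h a - x := by
          intro x
          have e3 : tailSum (k + 1 + 1) a = -1 - a (k + 1) := by
            have := tailSum_succ (k + 1) a
            linarith
          rw [e3]
          simp only [LinearMap.add_apply, LinearMap.smulRight_apply, Finsupp.lapply_apply]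
          module
        have q1 := Q_jensen (p := p) (ε := ε) hp l ht.2.2.1
          (h + (Finsupp.lapply (k + 1)).smulRight l.val) (k + 1 + 1) a
        have q2 := Q_jensen (p := p) (ε := ε) hp r ht.2.2.2
          (h + (Finsupp.lapply (k + 1)).smulRight r.val) (k + 1 + 1) a
        rw [e2] at q1 q2
        have hv : (1 / 2 : ℝ) • l.val + (1 - 1 / 2 : ℝ) • r.val =
            (1 / 2 : ℝ) • (l.val + r.val) := by
          rw [smul_add]; norm_num
        rw [hv]
        have hd : ‖(1 / 2 : ℝ) • (l.val - r.val)‖ ^ p ≤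
            (1 / 2) * ‖h a - l.val‖ ^ p + (1 - 1 / 2) * ‖h a - r.val‖ ^ p := by
          have e4 := jensen_two (p := p) hp (1 / 2) (by norm_num) (by norm_num)
            (h a - r.val) (-(h a - l.val))
          have e5 : (1 / 2 : ℝ) • (h a - r.val) + (1 - 1 / 2 : ℝ) • -(h a - l.val) =
              (1 / 2 : ℝ) • (l.val - r.val) := by
            module
          rw [e5, norm_neg] at e4
          linarith
        have he : ε ^ p * ‖(1 / 2 : ℝ) • (l.val + r.val)‖ ^ p ≤
            ‖(1 / 2 : ℝ) • (l.val - r.val)‖ ^ p := by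
          rw [← Real.mul_rpow hε (norm_nonneg _)]
          exact Real.rpow_le_rpow (by positivity) hs2 (by linarith)
        linarith
    · simp only [Q, lev, if_neg hs]
      have e1 := mul_le_mul_of_nonneg_left (hl ht.2.2.1 h j hj) ht.1
      have e2 := mul_le_mul_of_nonneg_left (hr ht.2.2.2 h j hj) (sub_nonneg.2 ht.2.1)
      linarith

/-- the James condition: a combination `a` with `∑_{i ≤ k} a_i = 1`, `∑_{i > k} a_i = -1`
(no sign condition is needed) has `QQ a ≥ ε^p lev k` -/
theorem QQ_lower (hp : 1 ≤ p) (hε : 0 ≤ ε) (t : MTree X) (ht : t.WF) (k : ℕ) (a : V)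
    (_h1 : (a.sum fun i c => if i ≤ k then c else 0) = 1)
    (h2 : (a.sum fun i c => if k < i then c else 0) = -1) :
    ε ^ p * t.lev p ε k ≤ t.QQ p ε a := by
  have h2' : tailSum (k + 1) a = -1 := by
    rw [← tailSum_apply]
    simpa only [Nat.succ_le_iff] using h2
  exact Q_lower hp hε t ht k a h2' _ 1 (by omega)

/-- consequence of `no_long_J`: some level is light -/
theorem exists_light (hp : 1 < p) (hK : 0 ≤ K) (hX : MT p K (fun x : X => ‖x‖)) (hε : 0 < ε) :
    ∃ n : ℕ, ∀ t : MTree X, t.WF → t.cost p ≤ 2 * ‖t.val‖ ^ p → 0 < ‖t.val‖ →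
      ∃ k < n, t.lev p ε k < (1 / 2) * ‖t.val‖ ^ p := by
  have hp0 : 0 < p := by linarith
  set θ : ℝ := (ε ^ p / 4) ^ (1 / p) with hθ
  have hθ0 : 0 < θ := by positivity
  obtain ⟨n, hn⟩ := no_long_J p K θ hp hK hθ0
  refine ⟨n, fun t ht hc hv => ?_⟩
  by_contra hcon
  push Not at hcon
  have hvp : 0 < ‖t.val‖ ^ p := Real.rpow_pos_of_pos hv p
  set c : ℝ := (2 * ‖t.val‖ ^ p)⁻¹ with hcdef
  have hc0 : 0 < c := by positivity
  have hPS := PS.const_mul hp.le (QQ_ps (ε := ε) hp.le hX t ht) c hc0.le
  obtain ⟨N, hN⟩ := hPS.exists_seminorm hp.le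
  refine hn N ?_ ?_ ?_
  · have hmt := hPS.mt
    have : (fun v => N v) = fun a => (c * t.QQ p ε a) ^ (1 / p) := by
      funext a; exact hN a
    rw [this]; exact hmt
  · intro i
    rw [hN]
    refine Real.rpow_le_one (mul_nonneg hc0.le ((QQ_ps hp.le hX t ht).nonneg _)) ?_ (by positivity)
    have h1 := (QQ_single (ε := ε) hp.le t ht i).trans hc
    rw [hcdef, inv_mul_le_iff₀ (by positivity), mul_one]
    exact h1
  · intro A B hAB hA hlt hBn
    have hB : B.Nonempty := by
      rw [← Finset.card_pos, ← hAB, Finset.card_pos]; exact hA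
    set k := A.max' hA with hk
    have hkA : k ∈ A := A.max'_mem hA
    obtain ⟨b, hb⟩ := hB
    have hkn : k < n := (hlt k hkA b hb).trans_le (hBn b hb)
    have hs0 : (0 : ℝ) < A.card := by exact_mod_cast Finset.card_pos.2 hA
    set a : V := ∑ i ∈ A, Finsupp.single i (1 : ℝ) - ∑ i ∈ B, Finsupp.single i (1 : ℝ) with ha
    have htB : tailSum (k + 1) (∑ i ∈ B, Finsupp.single i (1 : ℝ)) = B.card := by
      rw [map_sum, Finset.sum_congr rfl (g := fun _ => (1 : ℝ))]
      · simp
      · intro i hi
        have := hlt k hkA i hi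
        rw [tailSum_single, if_pos (by omega)]
    have htA : tailSum (k + 1) (∑ i ∈ A, Finsupp.single i (1 : ℝ)) = 0 := by
      rw [map_sum]
      refine Finset.sum_eq_zero fun i hi => ?_
      rw [tailSum_single, if_neg]
      have := A.le_max' i hi
      omega
    have hta : tailSum (k + 1) ((A.card : ℝ)⁻¹ • a) = -1 := by
      rw [map_smul, ha, map_sub, htA, htB, ← hAB, smul_eq_mul]
      field_simp
      ring
    have h3 := Q_lower (p := p) (ε := ε) hp.le hε.le t ht k _ hta
      ((Finsupp.lapply 0).smulRight t.val) 1 (by omega)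
    have h4 : ε ^ p * t.lev p ε k ≤ t.QQ p ε ((A.card : ℝ)⁻¹ • a) := h3
    have h5 := hcon k hkn
    have h6 : ε ^ p * ((1 / 2) * ‖t.val‖ ^ p) ≤ ε ^ p * t.lev p ε k :=
      mul_le_mul_of_nonneg_left h5 (by positivity)
    have h7 : ε ^ p / 4 ≤ c * t.QQ p ε ((A.card : ℝ)⁻¹ • a) := by
      have e1 : c * (ε ^ p * ((1 / 2) * ‖t.val‖ ^ p)) = ε ^ p / 4 := by
        rw [hcdef]; field_simp; ring
      rw [← e1]
      exact mul_le_mul_of_nonneg_left (h6.trans h4) hc0.le
    have h8 : θ ≤ N ((A.card : ℝ)⁻¹ • a) := by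
      rw [hN]
      exact Real.rpow_le_rpow (by positivity) h7 (by positivity)
    rw [map_smul_eq_mul, Real.norm_of_nonneg (by positivity)] at h8
    calc θ * A.card ≤ ((A.card : ℝ)⁻¹ * N a) * A.card := mul_le_mul_of_nonneg_right h8 hs0.le
      _ = N a := by field_simp

end MTree

end Vale.Agent.P125
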