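import Vale.Agent.Lib.P125.Tree

/-! # P125, module TREE2: the key inequality `tree_bound`. -/

namespace Vale.Agent.P125

open Finset

namespace MTree

variable {X : Type*} [NormedAddCommGroup X] [NormedSpace ℝ X]

variable {p K ε : ℝ}

/-- the pruned cost -/
noncomputable def VV (p ε η : ℝ) (t : MTree X) : ℝ := t.cost p - η * t.gam p ε

/-- every subtree has `VV ≤ ‖val‖^p` -/
def Pr (p ε η : ℝ) : MTree X → Prop
  | leaf _ => True
  | node lam l r => l.Pr p ε η ∧ r.Pr p ε η ∧
      (node lam l r).VV p ε η ≤ ‖(node lam l r).val‖ ^ p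

/-- every subtree has `gam ≤ R ‖val‖^p` -/
def HG (p ε R : ℝ) : MTree X → Prop
  | leaf _ => True
  | node lam l r => l.HG p ε R ∧ r.HG p ε R ∧
      (node lam l r).gam p ε ≤ R * ‖(node lam l r).val‖ ^ p

/-- a pruned version of each tree -/
theorem exists_prune (p ε η : ℝ) (t : MTree X) (ht : t.WF) :
    ∃ s : MTree X, s.WF ∧ s.val = t.val ∧ s.Pr p ε η ∧ s.VV p ε η ≤ t.VV p ε η := by
  induction t with
  | leaf x => exact ⟨leaf x, trivial, rfl, trivial, le_rfl⟩
  | node lam l r hl hr =>
    obtain ⟨l', hl1, hl2, hl3, hl4⟩ := hl ht.2.2.1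
    obtain ⟨r', hr1, hr2, hr3, hr4⟩ := hr ht.2.2.2
    have hV : (node lam l' r').VV p ε η ≤ (node lam l r).VV p ε η := by
      unfold VV at hl4 hr4 ⊢
      simp only [cost, gam]
      rw [hl2, hr2]
      have h1 := mul_le_mul_of_nonneg_left hl4 ht.1
      have h2 := mul_le_mul_of_nonneg_left hr4 (sub_nonneg.2 ht.2.1)
      nlinarith
    have hval : (node lam l' r').val = (node lam l r).val := by
      simp only [val, hl2, hr2]
    by_cases h : (node lam l' r').VV p ε η ≤ ‖(node lam l' r').val‖ ^ p
    · exact ⟨node lam l' r', ⟨ht.1, ht.2.1, hl1, hr1⟩, hval, ⟨hl3, hr3, h⟩, hV⟩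
    · refine ⟨leaf (node lam l' r').val, trivial, hval, trivial, ?_⟩
      push Not at h
      refine le_trans ?_ (h.le.trans hV)
      simp [VV, cost, gam]

theorem HG.gam_le {R : ℝ} (hR : 0 ≤ R) (t : MTree X) (h : t.HG p ε R) :
    t.gam p ε ≤ R * ‖t.val‖ ^ p := by
  cases t with
  | leaf x => simp only [gam, val]; positivity
  | node lam l r => exact h.2.2

/-- levels split the total mass, hereditarily good trees -/
theorem gam_le_lev {R : ℝ} (hR : 0 ≤ R) (t : MTree X) (ht : t.WF) (h : t.HG p ε R) (k : ℕ) :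
    t.gam p ε ≤ ∑ i ∈ range k, t.lev p ε i + R * t.lev p ε k := by
  induction t generalizing k with
  | leaf x => simp [gam, lev]
  | node lam l r hl hr =>
    have h1 := fun k => mul_le_mul_of_nonneg_left (hl ht.2.2.1 h.1 k) ht.1
    have h2 := fun k => mul_le_mul_of_nonneg_left (hr ht.2.2.2 h.2.1 k) (sub_nonneg.2 ht.2.1)
    by_cases hs : Sig ε lam l.val r.val
    · cases k with
      | zero =>
        have h3 := h.2.2
        simp only [val] at h3
        simp only [range_zero, sum_empty, lev, if_pos hs, zero_add]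
        exact h3
      | succ k =>
        rw [sum_range_succ']
        simp only [gam, lev, if_pos hs]
        rw [sum_add_distrib, ← mul_sum, ← mul_sum]
        have h1 := h1 k
        have h2 := h2 k
        nlinarith
    · simp only [gam, lev, if_neg hs]
      rw [sum_add_distrib, ← mul_sum, ← mul_sum]
      have h1 := h1 k
      have h2 := h2 k
      nlinarith

/-- the same for a tree with hereditarily good children, if level `k` is not the root -/
theorem gam_le_lev_node {R : ℝ} (hR : 0 ≤ R) (lam : ℝ) (l r : MTree X)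
    (ht : (node lam l r).WF) (hl : l.HG p ε R) (hr : r.HG p ε R) (k : ℕ)
    (hk : Sig ε lam l.val r.val → k ≠ 0) :
    (node lam l r).gam p ε ≤
      ∑ i ∈ range k, (node lam l r).lev p ε i + R * (node lam l r).lev p ε k := by
  have h1 := fun k => mul_le_mul_of_nonneg_left (gam_le_lev hR l ht.2.2.1 hl k) ht.1
  have h2 := fun k => mul_le_mul_of_nonneg_left (gam_le_lev hR r ht.2.2.2 hr k)
    (sub_nonneg.2 ht.2.1)
  by_cases hs : Sig ε lam l.val r.val
  · cases k with
    | zero => exact absurd rfl (hk hs)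
    | succ k =>
      rw [sum_range_succ']
      simp only [gam, lev, if_pos hs]
      rw [sum_add_distrib, ← mul_sum, ← mul_sum]
      have h1 := h1 k
      have h2 := h2 k
      nlinarith
  · simp only [gam, lev, if_neg hs]
    rw [sum_add_distrib, ← mul_sum, ← mul_sum]
    have h1 := h1 k
    have h2 := h2 k
    nlinarith

/-- the key inequality -/
theorem tree_bound (hp : 1 < p) (hK : 0 ≤ K) (hX : MT p K (fun x : X => ‖x‖)) (hε : 0 < ε) :
    ∃ η : ℝ, 0 < η ∧ ∀ t : MTree X, t.WF →
      (3 / 4) * ‖t.val‖ ^ p ≤ t.cost p - η * t.gam p ε := by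
  obtain ⟨n, hn⟩ := exists_light (X := X) hp hK hX hε
  have hp0 : 0 < p := by linarith
  set R : ℝ := 4 * n with hR
  have hR0 : 0 ≤ R := by positivity
  set η : ℝ := 1 / (4 * (R + 1)) with hη
  have hη0 : 0 < η := by positivity
  have hηR : η * R ≤ 1 / 4 := by
    rw [hη, one_div_mul_eq_div, div_le_iff₀ (by positivity)]
    linarith
  have hη1 : η ≤ 1 / 4 := by
    rw [hη, div_le_div_iff₀ (by positivity) (by positivity)]
    linarith
  have claim : ∀ t : MTree X, t.WF → t.Pr p ε η → t.HG p ε R := by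
    intro t
    induction t with
    | leaf x => exact fun _ _ => trivial
    | node lam l r hl hr =>
      intro ht hP
      have hl' := hl ht.2.2.1 hP.1
      have hr' := hr ht.2.2.2 hP.2.1
      refine ⟨hl', hr', ?_⟩
      have hcl := norm_val_le_cost (p := p) hp.le l ht.2.2.1
      have hcr := norm_val_le_cost (p := p) hp.le r ht.2.2.2
      have hgl : l.gam p ε ≤ R * l.cost p :=
        (HG.gam_le hR0 l hl').trans (mul_le_mul_of_nonneg_left hcl hR0)
      have hgr : r.gam p ε ≤ R * r.cost p :=
        (HG.gam_le hR0 r hr').trans (mul_le_mul_of_nonneg_left hcr hR0)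
      have hP' := hP.2.2
      unfold VV at hP'
      set t : MTree X := node lam l r with htt
      have hxn : 0 ≤ ‖t.val‖ ^ p := by positivity
      have hg : t.gam p ε ≤ R * t.cost p + ‖t.val‖ ^ p := by
        have e1 := mul_le_mul_of_nonneg_left hgl ht.1
        have e2 := mul_le_mul_of_nonneg_left hgr (sub_nonneg.2 ht.2.1)
        have e3 : t.val = lam • l.val + (1 - lam) • r.val := rfl
        by_cases hs : Sig ε lam l.val r.val
        · have e4 : t.gam p ε = lam * l.gam p ε + (1 - lam) * r.gam p ε + ‖t.val‖ ^ p := by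
            rw [htt]; simp only [gam, if_pos hs, val]
          have e5 : t.cost p = lam * l.cost p + (1 - lam) * r.cost p := rfl
          rw [e4, e5]; nlinarith
        · have e4 : t.gam p ε = lam * l.gam p ε + (1 - lam) * r.gam p ε := by
            rw [htt]; simp only [gam, if_neg hs, add_zero]
          have e5 : t.cost p = lam * l.cost p + (1 - lam) * r.cost p := rfl
          rw [e4, e5]; nlinarith
      have hc0 : 0 ≤ t.cost p := hxn.trans (norm_val_le_cost (p := p) hp.le t ht)
      have hcost : t.cost p ≤ 2 * ‖t.val‖ ^ p := by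
        have e1 := mul_le_mul_of_nonneg_left hg hη0.le
        have e2 : η * (R * t.cost p) ≤ 1 / 4 * t.cost p := by
          rw [← mul_assoc]; exact mul_le_mul_of_nonneg_right hηR hc0
        have e3 : η * ‖t.val‖ ^ p ≤ 1 / 4 * ‖t.val‖ ^ p := mul_le_mul_of_nonneg_right hη1 hxn
        nlinarith
      by_cases hx : 0 < ‖t.val‖
      · obtain ⟨k, hkn, hk⟩ := hn t ht hcost hx
        have hxp : 0 < ‖t.val‖ ^ p := Real.rpow_pos_of_pos hx p
        have hk0 : Sig ε lam l.val r.val → k ≠ 0 := by
          rintro hs rfl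
          have e1 : t.lev p ε 0 = ‖t.val‖ ^ p := by
            rw [htt]; simp only [lev, if_pos hs, val]
          rw [e1] at hk
          linarith
        have h1 := gam_le_lev_node hR0 lam l r ht hl' hr' k hk0
        rw [← htt] at h1
        have h2 : ∑ i ∈ range k, t.lev p ε i ≤ k * (2 * ‖t.val‖ ^ p) := by
          calc ∑ i ∈ range k, t.lev p ε i ≤ ∑ _i ∈ range k, (2 * ‖t.val‖ ^ p) :=
                sum_le_sum fun i _ => (lev_le_cost hp.le t ht i).trans hcost
            _ = k * (2 * ‖t.val‖ ^ p) := by rw [sum_const, card_range, nsmul_eq_mul]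
        have h3 : (k : ℝ) * (2 * ‖t.val‖ ^ p) ≤ n * (2 * ‖t.val‖ ^ p) :=
          mul_le_mul_of_nonneg_right (by exact_mod_cast hkn.le) (by positivity)
        have h4 : R * t.lev p ε k ≤ R * ((1 / 2) * ‖t.val‖ ^ p) :=
          mul_le_mul_of_nonneg_left hk.le hR0
        have h5 : (n : ℝ) * (2 * ‖t.val‖ ^ p) + R * ((1 / 2) * ‖t.val‖ ^ p)
            = R * ‖t.val‖ ^ p := by
          rw [hR]; ring
        linarith
      · have hx0 : ‖t.val‖ = 0 := le_antisymm (not_lt.1 hx) (norm_nonneg _)
        rw [hx0, Real.zero_rpow hp0.ne'] at hcost hg ⊢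
        have : t.cost p = 0 := by linarith
        rw [this] at hg
        linarith
  refine ⟨η, hη0, fun t ht => ?_⟩
  obtain ⟨s, hs1, hs2, hs3, hs4⟩ := exists_prune p ε η t ht
  have h1 := HG.gam_le hR0 s (claim s hs1 hs3)
  have h2 := norm_val_le_cost (p := p) hp.le s hs1
  unfold VV at hs4
  rw [← hs2]
  have hxn : 0 ≤ ‖s.val‖ ^ p := by positivity
  have h3 := mul_le_mul_of_nonneg_left h1 hη0.le
  have h4 : η * (R * ‖s.val‖ ^ p) ≤ 1 / 4 * ‖s.val‖ ^ p := by
    rw [← mul_assoc]; exact mul_le_mul_of_nonneg_right hηR hxn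
  linarith

end MTree

end Vale.Agent.P125
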