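import Vale.Agent.Lib.P125.Defs

/-! # P125, module ULTRA: tensor powers of a nonprincipal ultrafilter.

`𝒰 0 = pure elim0`, `𝒰 (m+1) = bind (hyperfilter ℕ) (fun a => (𝒰 m).map (Fin.cons a))`
(first coordinate chosen first, or equivalently last coordinate chosen last).
`StrictMono` eventually: given `z 0 = a`, all later coordinates are `> a` eventually.
Marginals: it suffices to treat `κ = Fin.succAbove j` (or induct on `m`, `M` directly). -/

namespace Vale.Agent.P125

/-- tensor powers of the hyperfilter -/
noncomputable def tensU : (m : ℕ) → Ultrafilter (Fin m → ℕ)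
  | 0 => pure (fun i => i.elim0)
  | m + 1 => (Filter.hyperfilter ℕ).bind fun a => (tensU m).map (Fin.cons a)

theorem mem_tensU_succ (m : ℕ) (s : Set (Fin (m + 1) → ℕ)) :
    s ∈ tensU (m + 1) ↔ ∀ᶠ a in (Filter.hyperfilter ℕ : Filter ℕ),
      ∀ᶠ z in (tensU m : Filter (Fin m → ℕ)), (Fin.cons a z : Fin (m + 1) → ℕ) ∈ s := by
  rw [← Ultrafilter.mem_coe]
  show s ∈ Filter.bind _ _ ↔ _
  rw [Filter.mem_bind']
  rfl

theorem hyper_gt (a : ℕ) : ∀ᶠ b in (Filter.hyperfilter ℕ : Filter ℕ), a < b := by
  have h : (Filter.hyperfilter ℕ : Filter ℕ) ≤ Filter.cofinite := Filter.hyperfilter_le_cofinite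
  apply h
  rw [Filter.mem_cofinite]
  apply Set.Finite.subset (Set.finite_le_nat a)
  intro b hb
  simpa using hb

theorem tensU_gt (m a : ℕ) : ∀ᶠ z in (tensU m : Filter (Fin m → ℕ)), ∀ i, a < z i := by
  induction m with
  | zero => exact Filter.Eventually.of_forall fun z i => i.elim0
  | succ m ih =>
    show {z : Fin (m + 1) → ℕ | ∀ i, a < z i} ∈ tensU (m + 1)
    rw [mem_tensU_succ]
    filter_upwards [hyper_gt a] with b hb
    filter_upwards [ih] with z hz
    intro i
    refine Fin.cases ?_ ?_ i
    · simpa using hb
    · intro j; simpa using hz j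

theorem tensU_strictMono (m : ℕ) : ∀ᶠ z in (tensU m : Filter (Fin m → ℕ)), StrictMono z := by
  induction m with
  | zero => exact Filter.Eventually.of_forall fun z i => i.elim0
  | succ m ih =>
    show {z : Fin (m + 1) → ℕ | StrictMono z} ∈ tensU (m + 1)
    rw [mem_tensU_succ]
    refine Filter.Eventually.of_forall fun a => ?_
    filter_upwards [ih, tensU_gt m a] with z hz ha
    intro i j hij
    induction i using Fin.cases with
    | zero =>
      induction j using Fin.cases with
      | zero => exact absurd hij (lt_irrefl _)
      | succ j => simpa using ha j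
    | succ i =>
      induction j using Fin.cases with
      | zero => exact absurd hij (by simp)
      | succ j =>
        simp only [Fin.cons_succ]
        exact hz (by simpa using hij)

theorem tensU_map : ∀ (M m : ℕ) (κ : Fin m → Fin M), StrictMono κ →
    (tensU M).map (fun z => z ∘ κ) = tensU m := by
  intro M
  induction M with
  | zero =>
    intro m κ _
    cases m with
    | zero =>
      apply Ultrafilter.ext
      intro s
      rw [Ultrafilter.mem_map]
      have h1 : (fun z : Fin 0 → ℕ => z ∘ κ) ⁻¹' s = s := by
        ext z
        have : z ∘ κ = z := Subsingleton.elim _ _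
        simp [this]
      rw [h1]
    | succ m => exact (κ 0).elim0
  | succ M ih =>
    intro m κ hκ
    apply Ultrafilter.ext
    intro s
    rw [Ultrafilter.mem_map, mem_tensU_succ]
    by_cases h0 : ∃ i, κ i = 0
    · obtain ⟨i, hi⟩ := h0
      cases m with
      | zero => exact i.elim0
      | succ m =>
        have hi0 : i = 0 := by
          by_contra hne
          have : κ 0 < κ i := hκ (Fin.pos_iff_ne_zero.2 hne)
          rw [hi] at this
          exact absurd this (by simp)
        subst hi0
        have hne : ∀ j : Fin m, κ j.succ ≠ 0 := by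
          intro j hj
          have : κ 0 < κ j.succ := hκ (Fin.succ_pos j)
          rw [hi, hj] at this
          exact lt_irrefl _ this
        have hκ' : StrictMono fun j : Fin m => (κ j.succ).pred (hne j) := by
          intro j j' hjj
          have : κ j.succ < κ j'.succ := hκ (by simpa using hjj)
          exact Fin.pred_lt_pred_iff.2 this
        have hih := ih m _ hκ'
        rw [mem_tensU_succ]
        rw [← hih]
        have hc : ∀ (a : ℕ) (z : Fin M → ℕ),
            (Fin.cons a z : Fin (M + 1) → ℕ) ∘ κ
              = Fin.cons a (z ∘ fun j : Fin m => (κ j.succ).pred (hne j)) := by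
          intro a z
          funext j
          induction j using Fin.cases with
          | zero => simp [hi]
          | succ j =>
            simp only [Function.comp_apply, Fin.cons_succ]
            conv_lhs => rw [← Fin.succ_pred (κ j.succ) (hne j)]
            rw [Fin.cons_succ]
        simp only [Ultrafilter.coe_map, Filter.eventually_map, Set.mem_preimage, hc]
    · push Not at h0
      have hκ' : StrictMono fun j : Fin m => (κ j).pred (h0 j) := by
        intro j j' hjj
        exact Fin.pred_lt_pred_iff.2 (hκ hjj)
      have hih := ih m _ hκ'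
      have hc : ∀ (a : ℕ) (z : Fin M → ℕ),
          (Fin.cons a z : Fin (M + 1) → ℕ) ∘ κ = z ∘ fun j : Fin m => (κ j).pred (h0 j) := by
        intro a z
        funext j
        simp only [Function.comp_apply]
        conv_lhs => rw [← Fin.succ_pred (κ j) (h0 j)]
        rw [Fin.cons_succ]
      simp only [Set.mem_preimage, hc]
      have hthis : (∀ᶠ z in (tensU M : Filter (Fin M → ℕ)),
          (z ∘ fun j : Fin m => (κ j).pred (h0 j)) ∈ s) ↔ s ∈ tensU m := by
        rw [← hih, Ultrafilter.mem_map]
        rfl
      rw [hthis]
      constructor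
      · intro h
        exact h.exists.choose_spec
      · intro h
        exact Filter.Eventually.of_forall fun _ => h

theorem exists_ultra : ∃ U : (m : ℕ) → Ultrafilter (Fin m → ℕ),
    (∀ m, ∀ᶠ z in (U m : Filter (Fin m → ℕ)), StrictMono z) ∧
    (∀ (m M : ℕ) (κ : Fin m → Fin M), StrictMono κ → (U M).map (fun z => z ∘ κ) = U m) :=
  ⟨tensU, tensU_strictMono, fun m M κ hκ => tensU_map M m κ hκ⟩

end Vale.Agent.P125
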